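import Vale.Agent.P254B.Base

/-! Affine changes of variables. -/

namespace Vale.Agent.P254B

open Vale.Agent.P227
open scoped ContDiff Matrix RealInnerProductSpace Topology
open MeasureTheory Filter

variable {n : ℕ}

variable {W g : E n → ℝ} {S : Mat n}

theorem aff_qf_cv (hW : Coer W) (cW : Continuous W) (ξ : E n) :
    qf (cv W) ξ = nm W fun x => (⟪ξ, x⟫ - nm W fun y => ⟪ξ, y⟫) ^ 2 := by
  have pL := Ridge.cpb_inner ξ
  have e1 : (nm W fun y => ⟪ξ, y⟫) = ∑ i, ξ i * m1 W i := by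
    simp only [inner_eq_sum]
    rw [nm_sum hW cW _ fun i _ => (cpb_coord i).const_mul (ξ i)]
    simp only [nm_const_mul, m1]
  have e2 : (nm W fun y => ⟪ξ, y⟫ ^ 2) = ∑ i, ∑ j, ξ i * ξ j * m2 W i j := by
    have e : (fun y : E n => ⟪ξ, y⟫ ^ 2) = fun y => ∑ i, ∑ j, ξ i * ξ j * (y i * y j) := by
      funext y
      rw [inner_eq_sum, sq, Finset.sum_mul_sum]
      exact Finset.sum_congr rfl fun i _ => Finset.sum_congr rfl fun j _ => by ring
    rw [e, nm_sum hW cW _ fun i _ => cpb_sum _ fun j _ =>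
      ((cpb_coord i).mul (cpb_coord j)).const_mul (ξ i * ξ j)]
    refine Finset.sum_congr rfl fun i _ => ?_
    rw [nm_sum hW cW _ fun j _ => ((cpb_coord i).mul (cpb_coord j)).const_mul (ξ i * ξ j)]
    simp only [nm_const_mul, m2]
  generalize hc : (nm W fun y => ⟪ξ, y⟫) = c at e1 ⊢
  have e3 : (fun x : E n => (⟪ξ, x⟫ - c) ^ 2) =
      fun x => (⟪ξ, x⟫ ^ 2 - 2 * c * ⟪ξ, x⟫) + c ^ 2 := by
    funext x
    ring
  rw [e3, nm_add hW cW ((pL.pow 2).sub (pL.const_mul _)) (cpb_const _),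
    nm_sub hW cW (pL.pow 2) (pL.const_mul _), nm_const_mul, nm_const hW cW, hc, e2]
  have e4 : c ^ 2 = ∑ i, ∑ j, ξ i * m1 W i * (ξ j * m1 W j) := by
    rw [e1, sq, Finset.sum_mul_sum]
  have e5 : qf (cv W) ξ = (∑ i, ∑ j, ξ i * ξ j * m2 W i j) -
      ∑ i, ∑ j, ξ i * m1 W i * (ξ j * m1 W j) := by
    simp only [qf, cv, Matrix.of_apply, ← Finset.sum_sub_distrib]
    exact Finset.sum_congr rfl fun i _ => Finset.sum_congr rfl fun j _ => by ring
  rw [e5, ← e4]
  ring

theorem aff_qf_pos (hW : Coer W) (cW : Continuous W) {ξ : E n} (hξ : ξ ≠ 0) :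
    0 < qf (cv W) ξ := by
  rw [aff_qf_cv hW cW]
  generalize (nm W fun y => ⟪ξ, y⟫) = c
  have p : CPB fun x : E n => (⟪ξ, x⟫ - c) ^ 2 := ((Ridge.cpb_inner ξ).sub (cpb_const c)).pow 2
  obtain ⟨z, hz⟩ : ∃ z : E n, ⟪ξ, z⟫ - c ≠ 0 := by
    by_cases h : c = 0
    · exact ⟨ξ, by rw [h, sub_zero]; exact inner_self_ne_zero.2 hξ⟩
    · exact ⟨0, by simpa using h⟩
  refine div_pos ?_ (Zf_pos hW cW)
  exact integral_pos_of_integrable_nonneg_nonzero (x := z)
    (p.1.mul (Real.continuous_exp.comp cW.neg)) (integrable_Ex hW cW p)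
    (fun x => mul_nonneg (sq_nonneg _) (Real.exp_pos _).le)
    (mul_ne_zero (pow_ne_zero 2 hz) (Real.exp_pos _).ne')

theorem cv_posDef (hW : Coer W) (cW : Continuous W) : (cv W).PosDef := by
  refine Matrix.PosDef.of_dotProduct_mulVec_pos (cv_symm W) fun x hx => ?_
  have h := aff_qf_pos hW cW (ξ := WithLp.toLp 2 x) (by simpa using hx)
  rw [qf_eq_dot] at h
  exact h

theorem aff_int (F : E n → ℝ) (a : E n) (hS : IsUnit S.det) :
    ∫ y, F (aff a S y) = |S.det|⁻¹ * ∫ x, F x := by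
  have hd : LinearMap.det (Matrix.toEuclideanLin S : E n →ₗ[ℝ] E n) = S.det := by
    rw [Matrix.toEuclideanLin_eq_toLin_orthonormal, LinearMap.det_toLin]
  have hm := Measure.map_linearMap_addHaar_eq_smul_addHaar (volume : Measure (E n))
    (f := Matrix.toEuclideanLin S) (by rw [hd]; exact hS.ne_zero)
  have he : MeasurableEmbedding (Matrix.toEuclideanLin S : E n → E n) :=
    (ContinuousLinearEquiv.equivOfInverse (lin S) (lin S⁻¹)
      (fun x => by rw [lin_lin, Matrix.nonsing_inv_mul S hS, lin_one])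
      (fun x => by rw [lin_lin, Matrix.mul_nonsing_inv S hS, lin_one])).toHomeomorph.measurableEmbedding
  have h1 := he.integral_map (μ := volume) fun z => F (a + z)
  rw [hm, integral_smul_measure, integral_add_left_eq_self, hd,
    ENNReal.toReal_ofReal (abs_nonneg _), abs_inv, smul_eq_mul] at h1
  exact h1.symm

theorem Ex_aff (W g : E n → ℝ) (a : E n) (hS : IsUnit S.det) :
    Ex (fun y => W (aff a S y)) (fun y => g (aff a S y)) = |S.det|⁻¹ * Ex W g :=
  aff_int (fun x => g x * Real.exp (-W x)) a hS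

theorem nm_aff (W g : E n → ℝ) (a : E n) (hS : IsUnit S.det) :
    nm (fun y => W (aff a S y)) (fun y => g (aff a S y)) = nm W g := by
  have h := Ex_aff W (fun _ => 1) a hS
  rw [nm, nm, Zf, Zf, h, Ex_aff W g a hS]
  exact mul_div_mul_left _ _ (inv_ne_zero (abs_ne_zero.2 hS.ne_zero))

theorem aff_D_shift (f : E n → ℝ) (a : E n) (i : Fin n) :
    D i (fun x => f (a + x)) = fun x => D i f (a + x) := by
  funext x
  simp only [D, pd, fderiv_comp_add_left]

theorem aff_smo (hW : ContDiff ℝ ∞ W) (a : E n) (S : Mat n) :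
    ContDiff ℝ ∞ fun y => W (aff a S y) :=
  hW.comp (contDiff_const.add (lin S).contDiff)

theorem hess_aff (hW : ContDiff ℝ ∞ W) (a : E n) (S : Mat n) (y : E n) :
    hess (fun y => W (aff a S y)) y = Sᵀ * hess W (aff a S y) * S := by
  have h := hess_lin (f := fun x => W (a + x)) (hW.comp (contDiff_const.add contDiff_id)) S y
  have e : hess (fun x => W (a + x)) (lin S y) = hess W (aff a S y) := by
    ext i j
    rw [hess_apply, hess_apply, aff_D_shift, aff_D_shift]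
    rfl
  rw [e] at h
  exact h

theorem aff_binf (hg : Binf g) (a : E n) (S : Mat n) : Binf fun y => g (aff a S y) := by
  refine binf_of_closed (fun f => ∃ q, Binf q ∧ f = fun y => q (aff a S y)) ?_ ?_ ?_ ⟨g, hg, rfl⟩
  · rintro _ ⟨q, hq, rfl⟩
    exact aff_smo hq.smo a S
  · rintro _ ⟨q, hq, rfl⟩
    obtain ⟨M, hM⟩ := hq.bdd
    exact ⟨M, fun y => hM _⟩
  · rintro _ ⟨q, hq, rfl⟩ i
    refine ⟨fun x => ∑ b, S b i * D b q x, binf_sum _ fun b _ => (hq.D b).const_mul _, ?_⟩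
    have h := D_lin (f := fun x => q (a + x))
      (smo_diff (hq.smo.comp (contDiff_const.add contDiff_id))) S i
    simp only [aff_D_shift] at h
    exact h

theorem good_aff (h : Good W) (a : E n) (hS : IsUnit S.det) : Good fun y => W (aff a S y) := by
  refine ⟨sm_iff.2 ⟨aff_smo h.smo a S, fun i j => ?_⟩, ?_⟩
  · have e : D i (D j fun y => W (aff a S y)) =
        fun y => (fun x => ∑ p, ∑ q, S p i * S q j * D p (D q W) x) (aff a S y) := by
      funext y
      rw [← hess_apply, hess_aff h.smo, LinX.conj_apply]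
      rfl
    rw [e]
    exact aff_binf (binf_sum _ fun p _ => binf_sum _ fun q _ => (h.sm.DD p q).const_mul _) a S
  · obtain ⟨κ, hκ, hl⟩ := h.low
    have hM : 0 < ‖lin S⁻¹‖ + 1 := by positivity
    refine ⟨κ / (‖lin S⁻¹‖ + 1) ^ 2, by positivity, fun y ξ => ?_⟩
    rw [hess_aff h.smo, qf_conj]
    refine le_trans ?_ (hl _ _)
    have h1 := (lin S⁻¹).le_opNorm (lin S ξ)
    rw [lin_lin, Matrix.nonsing_inv_mul S hS, lin_one] at h1
    have h2 : ‖ξ‖ ≤ (‖lin S⁻¹‖ + 1) * ‖lin S ξ‖ := by nlinarith [norm_nonneg (lin S ξ)]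
    have h3 := pow_le_pow_left₀ (norm_nonneg _) h2 2
    rw [div_mul_eq_mul_div, div_le_iff₀ (by positivity), mul_assoc]
    refine mul_le_mul_of_nonneg_left ?_ hκ.le
    rw [mul_pow, mul_comm] at h3
    exact h3

end Vale.Agent.P254B
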