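import Vale.Agent.P254B.Aff

/-! Affine invariance of the functionals. -/

namespace Vale.Agent.P254B

open Vale.Agent.P227
open scoped ContDiff Matrix RealInnerProductSpace Topology
open MeasureTheory Filter

variable {n : ℕ}

variable {W : E n → ℝ} {S : Mat n}

theorem affb_apply (a : E n) (S : Mat n) (y : E n) (i : Fin n) :
    aff a S y i = a i + ∑ j, S i j * y j := rfl

theorem affb_cpb (S : Mat n) (i : Fin n) : CPB fun y : E n => ∑ j, S i j * y j :=
  cpb_sum _ fun j _ => (cpb_coord j).const_mul _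

theorem affb_lin {U : E n → ℝ} (hU : Good U) (S : Mat n) (i : Fin n) :
    nm U (fun y => ∑ j, S i j * y j) = ∑ j, S i j * m1 U j := by
  rw [nm_sum hU.coer hU.cont _ fun j _ => (cpb_coord j).const_mul _]
  exact Finset.sum_congr rfl fun j _ => nm_const_mul _ _ _

theorem affb_quad {U : E n → ℝ} (hU : Good U) (S : Mat n) (i k : Fin n) :
    nm U (fun y => (∑ j, S i j * y j) * ∑ l, S k l * y l) =
      ∑ j, ∑ l, S i j * S k l * m2 U j l := by
  have e : (fun y : E n => (∑ j, S i j * y j) * ∑ l, S k l * y l) =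
      fun y => ∑ j, ∑ l, S i j * S k l * (y j * y l) := by
    funext y
    rw [Finset.sum_mul_sum]
    exact Finset.sum_congr rfl fun j _ => Finset.sum_congr rfl fun l _ => by ring
  have c : ∀ j l, CPB fun y : E n => S i j * S k l * (y j * y l) := fun j l =>
    ((cpb_coord j).mul (cpb_coord l)).const_mul _
  rw [e, nm_sum hU.coer hU.cont _ fun j _ => cpb_sum _ fun l _ => c j l]
  refine Finset.sum_congr rfl fun j _ => ?_
  rw [nm_sum hU.coer hU.cont _ fun l _ => c j l]
  exact Finset.sum_congr rfl fun l _ => nm_const_mul _ _ _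

theorem m1_aff (h : Good W) (a : E n) (hS : IsUnit S.det) (i : Fin n) :
    m1 W i = a i + ∑ j, S i j * m1 (fun y => W (aff a S y)) j := by
  have hU := good_aff h a hS
  rw [m1, ← nm_aff W (fun x => x i) a hS]
  simp only [affb_apply]
  rw [nm_add hU.coer hU.cont (cpb_const _) (affb_cpb S i), nm_const hU.coer hU.cont,
    affb_lin hU]

theorem affb_m2 (h : Good W) (a : E n) (hS : IsUnit S.det) (i k : Fin n) :
    m2 W i k = a i * a k + a i * ∑ l, S k l * m1 (fun y => W (aff a S y)) l +
      a k * ∑ j, S i j * m1 (fun y => W (aff a S y)) j +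
      ∑ j, ∑ l, S i j * S k l * m2 (fun y => W (aff a S y)) j l := by
  have hU := good_aff h a hS
  rw [m2, ← nm_aff W (fun x => x i * x k) a hS]
  have e : (fun y : E n => aff a S y i * aff a S y k) = fun y =>
      a i * a k + a i * ∑ l, S k l * y l + a k * ∑ j, S i j * y j +
        (∑ j, S i j * y j) * ∑ l, S k l * y l := by
    funext y
    simp only [affb_apply]
    ring
  have c1 : CPB fun y : E n => a i * ∑ l, S k l * y l := (affb_cpb S k).const_mul _
  have c2 : CPB fun y : E n => a k * ∑ j, S i j * y j := (affb_cpb S i).const_mul _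
  rw [e, nm_add hU.coer hU.cont (((cpb_const _).add c1).add c2)
      ((affb_cpb S i).mul (affb_cpb S k)),
    nm_add hU.coer hU.cont ((cpb_const _).add c1) c2,
    nm_add hU.coer hU.cont (cpb_const _) c1, nm_const hU.coer hU.cont, nm_const_mul,
    nm_const_mul, affb_lin hU, affb_lin hU, affb_quad hU]

theorem cv_aff (h : Good W) (a : E n) (hS : IsUnit S.det) :
    S * cv (fun y => W (aff a S y)) * Sᵀ = cv W := by
  ext i k
  have e := LinX.conj_apply Sᵀ (cv (fun y => W (aff a S y))) i k
  rw [Matrix.transpose_transpose] at e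
  rw [e]
  simp only [cv, Matrix.of_apply, Matrix.transpose_apply]
  rw [affb_m2 h a hS, m1_aff h a hS i, m1_aff h a hS k]
  have e2 : (∑ j, S i j * m1 (fun y => W (aff a S y)) j) *
      ∑ l, S k l * m1 (fun y => W (aff a S y)) l =
      ∑ j, ∑ l, S i j * S k l *
        (m1 (fun y => W (aff a S y)) j * m1 (fun y => W (aff a S y)) l) := by
    rw [Finset.sum_mul_sum]
    exact Finset.sum_congr rfl fun j _ => Finset.sum_congr rfl fun l _ => by ring
  simp only [mul_sub, Finset.sum_sub_distrib]
  rw [← e2]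
  ring

theorem DD_aff (h : Good W) (a : E n) (hS : IsUnit S.det) :
    DD (fun y => W (aff a S y)) = DD W := by
  have hU := good_aff h a hS
  have h0 : S.det ≠ 0 := hS.ne_zero
  have hZ : Zf (fun y => W (aff a S y)) = |S.det|⁻¹ * Zf W := Ex_aff W (fun _ => 1) a hS
  have hd : (cv W).det = S.det * (cv (fun y => W (aff a S y))).det * S.det := by
    rw [← cv_aff h a hS, Matrix.det_mul, Matrix.det_mul, Matrix.det_transpose]
  have hp := (cv_posDef hU.coer hU.cont).det_pos.ne'
  have hZp := (Zf_pos h.coer h.cont).ne'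
  have ha : |S.det|⁻¹ ≠ 0 := inv_ne_zero (abs_ne_zero.2 h0)
  rw [DD, DD, en, en, nm_aff W W a hS, hZ, hd, Real.log_mul (mul_ne_zero h0 hp) h0,
    Real.log_mul h0 hp, Real.log_mul ha hZp, Real.log_inv, Real.log_abs]
  ring

theorem Phi_aff (h : Good W) (a : E n) (hS : IsUnit S.det) (P : Mat n) :
    Phi (fun y => W (aff a S y)) (Sᵀ * P * S) = Phi W P := by
  rw [Phi, Phi, DD_aff h a hS, ← cv_aff h a hS]
  congr 2
  rw [← Matrix.mul_assoc, Matrix.det_one_add_mul_comm]
  simp only [Matrix.mul_assoc]

end Vale.Agent.P254B
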