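import Vale.Agent.P254B.Base

/-! Potentials that are quadratic outside a ball. -/

namespace Vale.Agent.P254B

open Vale.Agent.P227
open scoped ContDiff Matrix RealInnerProductSpace Topology
open MeasureTheory Filter

variable {n : ℕ}

theorem glu_cut {S : E n → ℝ} (hS : ContDiff ℝ ∞ S) (h0 : ∀ x, 0 ≤ S x) {R : ℝ}
    (hR : 0 < R) : ∃ (U : E n → ℝ) (M : ℝ), ContDiff ℝ ∞ U ∧ (∀ x, 0 ≤ U x) ∧ 0 ≤ M ∧
      (∀ x ξ, |qf (hess U x) ξ| ≤ M * ‖ξ‖ ^ 2) ∧ (∀ x, ‖x‖ ≤ 3 * R → U x = S x) ∧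
      ∀ x, 4 * R ≤ ‖x‖ → U x = 0 := by
  let β : ContDiffBump (0 : E n) := ⟨3 * R, 4 * R, by positivity, by linarith⟩
  have h1 : ContDiff ℝ ∞ fun x => β x * S x := β.contDiff.mul hS
  have h2 : ∀ x, 4 * R ≤ ‖x‖ → β x * S x = 0 := fun x hx => by
    rw [β.zero_of_le_dist (by simpa using hx), zero_mul]
  obtain ⟨M, hM, h3⟩ := (binf_of_compact h1 h2).sm.n2 0
  refine ⟨fun x => β x * S x, n * M, h1, fun x => mul_nonneg β.nonneg (h0 x),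
    by positivity, fun x ξ => abs_qf_le (fun i j => h3.abs_le i j x) ξ, fun x hx => ?_, h2⟩
  show β x * S x = S x
  rw [β.one_of_mem_closedBall (by simpa using hx), one_mul]

theorem glueN {U : E n → ℝ} (hU : Sm U) {κ C₀ : ℝ} (hl : ∀ x, κ * ‖x‖ ^ 2 - C₀ ≤ U x) {R : ℝ}
    (hR : 0 < R) : ∃ (V' : E n → ℝ) (A R₀ : ℝ), ContDiff ℝ ∞ V' ∧ 0 < A ∧
      (∀ x ξ, qf (hess U x) ξ ≤ qf (hess V' x) ξ) ∧
      (∀ x, R₀ ≤ ‖x‖ → hess V' x = A • (1 : Mat n)) ∧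
      (∀ x, ‖x‖ ≤ R → V' x = U x) ∧ ∀ x, κ * ‖x‖ ^ 2 - C₀ ≤ V' x := by
  obtain ⟨φ, φ', φ'', p1, p2, p3, p4, p5, p6, p7, p8, p9⟩ := GlueAux.radial hR
  have s0 : ContDiff ℝ ∞ fun x : E n => κ * ‖x‖ ^ 2 := contDiff_const.mul smo_normsq
  have s1 : ContDiff ℝ ∞ fun x : E n => κ * ‖x‖ ^ 2 - C₀ := s0.sub contDiff_const
  have h1 : ∀ x : E n, hess (fun x : E n => κ * ‖x‖ ^ 2 - C₀) x = κ • (2 : ℝ) • (1 : Mat n) :=
    fun x => by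
      rw [hess_sub s0 contDiff_const, hess_const, sub_zero, hess_const_mul _ smo_normsq,
        hess_normsq]
  obtain ⟨W, M, u1, u3, u4, u5, u6, u7⟩ := glu_cut (hU.smo.sub s1)
    (fun x => sub_nonneg.2 (hl x)) hR
  obtain ⟨K, hK, hK'⟩ := hU.n2 0
  obtain ⟨C, hC, hC'⟩ : ∃ C : ℝ, 0 ≤ C ∧ ∀ x ξ, |qf (hess U x) ξ| ≤ C * ‖ξ‖ ^ 2 :=
    ⟨n * K, by positivity, fun x ξ => abs_qf_le (fun i j => hK'.abs_le i j x) ξ⟩
  obtain ⟨A, hA, a0⟩ : ∃ A : ℝ, 0 < A ∧ M + C + |κ| + 1 ≤ A := ⟨_, by positivity, le_rfl⟩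
  have k0 := neg_abs_le κ
  have k1 := abs_nonneg κ
  have s2 : ContDiff ℝ ∞ fun x : E n => φ (‖x‖ ^ 2) := p1.comp smo_normsq
  have s3 : ContDiff ℝ ∞ fun x : E n => A * φ (‖x‖ ^ 2) := contDiff_const.mul s2
  have hH : ∀ x : E n, hess (fun x => κ * ‖x‖ ^ 2 - C₀ + W x + A * φ (‖x‖ ^ 2)) x =
      κ • (2 : ℝ) • (1 : Mat n) + hess W x + A • hess (fun x : E n => φ (‖x‖ ^ 2)) x :=
    fun x => by rw [hess_add (s1.add u1) s3, hess_add s1 u1, h1, hess_const_mul _ s2]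
  refine ⟨fun x => κ * ‖x‖ ^ 2 - C₀ + W x + A * φ (‖x‖ ^ 2), 2 * κ + 2 * A, 5 * R,
    (s1.add u1).add s3, by linarith, fun x ξ => ?_, fun x hx => ?_, fun x hx => ?_, fun x => ?_⟩
  · have a1 : 0 ≤ 4 * φ'' (‖x‖ ^ 2) * ⟪x, ξ⟫ ^ 2 := by
      have := p7 (‖x‖ ^ 2)
      positivity
    rcases lt_or_ge ‖x‖ (3 * R) with hx | hx
    · have a2 : W =ᶠ[𝓝 x] fun x => U x - (κ * ‖x‖ ^ 2 - C₀) :=
        (continuous_norm.continuousAt.eventually (gt_mem_nhds hx)).mono fun y hy => u6 y hy.le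
      rw [hH, hess_congr a2, hess_sub hU.smo s1, h1, add_sub_cancel, qf_add, qf_smul,
        qf_hess_radial (fun s _ => p2 s) (fun s _ => p3 s)]
      have a3 : 0 ≤ 2 * φ' (‖x‖ ^ 2) * ‖ξ‖ ^ 2 := by
        have := p6 (‖x‖ ^ 2)
        positivity
      linarith [mul_nonneg hA.le (add_nonneg a3 a1)]
    · rw [hH, qf_add, qf_add, qf_smul, qf_smul, qf_smul, qf_one,
        qf_hess_radial (fun s _ => p2 s) (fun s _ => p3 s), p8 _ (by nlinarith)]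
      have a2 := (abs_le.1 (u5 x ξ)).1
      have a3 := (abs_le.1 (hC' x ξ)).2
      have a4 : 0 ≤ (2 * κ + 2 * A - M - C) * ‖ξ‖ ^ 2 :=
        mul_nonneg (by linarith) (sq_nonneg _)
      linarith [mul_nonneg hA.le a1]
  · have a2 : W =ᶠ[𝓝 x] fun _ => 0 :=
      (continuous_norm.continuousAt.eventually (lt_mem_nhds (show 4 * R < ‖x‖ by linarith))).mono
        fun y hy => u7 y hy.le
    rw [hH, hess_congr a2, hess_const]
    ext i j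
    simp only [Matrix.add_apply, Matrix.smul_apply, Matrix.zero_apply, smul_eq_mul]
    rw [hess_radial (fun s _ => p2 s) (fun s _ => p3 s), p8 _ (by nlinarith), p9 _ (by nlinarith)]
    ring
  · show κ * ‖x‖ ^ 2 - C₀ + W x + A * φ (‖x‖ ^ 2) = _
    rw [p5 _ (pow_le_pow_left₀ (norm_nonneg _) hx 2), u6 x (by linarith), mul_zero, add_zero]
    ring
  · have := mul_nonneg hA.le (p4 (‖x‖ ^ 2))
    have := u3 x
    show _ ≤ κ * ‖x‖ ^ 2 - C₀ + W x + A * φ (‖x‖ ^ 2)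
    linarith

end Vale.Agent.P254B
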