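import Vale.Agent.P254B.Base

/-! Uniform bounds for centred potentials. -/

namespace Vale.Agent.P254B

open Vale.Agent.P227
open scoped ContDiff Matrix RealInnerProductSpace Topology
open MeasureTheory Filter

variable {n : ℕ}

theorem cen_nm_D {W g : E n → ℝ} (h : Good W) (hg : PG g) (i : Fin n) :
    nm W (fun x => g x * D i W x) = nm W (D i g) := by
  simp only [nm, Ex_D h.coer h.sm.pg hg i]

theorem cen_rad {W : E n → ℝ} (h : Good W) : nm W (rad W) = n := by
  have e : rad W = fun x => ∑ i, x i * D i W x := rfl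
  rw [e, nm_sum h.coer h.cont Finset.univ (F := fun i x => x i * D i W x)
    fun i _ => ((pg_coord i).mul (h.sm.pg.D i)).cpb]
  have h1 : ∀ i : Fin n, nm W (fun x => x i * D i W x) = 1 := fun i => by
    rw [cen_nm_D h (pg_coord i) i, D_coord, nm_const h.coer h.cont]
    simp
  simp [h1]

theorem cen_sq {W : E n → ℝ} {κ : ℝ} (h : Good W) (hl : Low κ W) (hc : Cen W) :
    κ * nm W (fun x => ‖x‖ ^ 2) ≤ n := by
  have c1 : CPB fun x : E n => ∑ i, D i W 0 * x i :=
    cpb_sum Finset.univ (F := fun i x => D i W 0 * x i) fun i _ => (cpb_coord i).const_mul _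
  have c2 : CPB fun x : E n => κ * ‖x‖ ^ 2 := pg_normsq.cpb.const_mul κ
  have h1 := nm_mono h.coer h.cont (c1.add c2) h.sm.pg.rad.cpb (rad_lower h.smo hl)
  rw [cen_rad h, nm_add h.coer h.cont c1 c2, nm_const_mul,
    nm_sum h.coer h.cont Finset.univ (F := fun i x => D i W 0 * x i)
      fun i _ => (cpb_coord i).const_mul _] at h1
  have h2 : ∀ i : Fin n, nm W (fun x => D i W 0 * x i) = 0 := fun i => by
    rw [nm_const_mul]
    have := hc i
    unfold m1 at this
    rw [this, mul_zero]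
  simpa [h2] using h1

theorem cen_D_zero {W : E n → ℝ} (h : Good W) (i : Fin n) : nm W (D i W) = 0 := by
  have h1 := cen_nm_D h (pg_const 1) i
  rw [D_const, nm_const h.coer h.cont] at h1
  simpa using h1

theorem cen_grad {W : E n → ℝ} {κ K : ℝ} (hκ : 0 < κ) (hK : 0 < K) (hW : Sm W)
    (hE : Ell κ K (hess W)) (hc : Cen W) (i : Fin n) : |D i W 0| ≤ n * K * (1 + n / κ) := by
  have hl : Low κ W := fun x ξ => ((hE x).2 ξ).1
  have h : Good W := ⟨hW, κ, hκ, hl⟩
  have hM : ∀ i j x, |D i (D j W) x| ≤ K := fun i j x => (hE x).abs_le hκ.le i j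
  have hs : nm W (fun x => ‖x‖ ^ 2) ≤ n / κ := by
    rw [le_div_iff₀ hκ, mul_comm]
    exact cen_sq h hl hc
  have cD : CPB (D i W) := (hW.pg.D i).cpb
  have cq : CPB fun x : E n => 1 + ‖x‖ ^ 2 := (cpb_const 1).add pg_normsq.cpb
  have hb : ∀ x : E n, |D i W x - D i W 0| ≤ n * K * (1 + ‖x‖ ^ 2) := fun x => by
    refine (abs_D_sub_le h.smo hM i x).trans (mul_le_mul_of_nonneg_left ?_ (by positivity))
    nlinarith [sq_nonneg (‖x‖ - 1), norm_nonneg x]
  have hq : nm W (fun x => n * K * (1 + ‖x‖ ^ 2)) ≤ n * K * (1 + n / κ) := by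
    rw [nm_const_mul, nm_add h.coer h.cont (cpb_const 1) pg_normsq.cpb, nm_const h.coer h.cont]
    exact mul_le_mul_of_nonneg_left (by linarith) (by positivity)
  have h1 := nm_mono h.coer h.cont (cD.sub (cpb_const (D i W 0))) (cq.const_mul (n * K))
    fun x => (le_abs_self _).trans (hb x)
  have h2 := nm_mono h.coer h.cont ((cpb_const (D i W 0)).sub cD) (cq.const_mul (n * K))
    fun x => (le_abs_self _).trans (by rw [abs_sub_comm]; exact hb x)
  rw [nm_sub h.coer h.cont cD (cpb_const _), nm_const h.coer h.cont, cen_D_zero h] at h1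
  rw [nm_sub h.coer h.cont (cpb_const _) cD, nm_const h.coer h.cont, cen_D_zero h] at h2
  rw [abs_le]
  constructor <;> linarith

theorem cen_amgm {c : ℝ} (hc : 0 < c) (a r : ℝ) : a * r ≤ a ^ 2 / c + c / 4 * r ^ 2 := by
  have h : a ^ 2 / c + c / 4 * r ^ 2 - a * r = (a - c / 2 * r) ^ 2 / c := by
    field_simp
    ring
  have h2 : 0 ≤ (a - c / 2 * r) ^ 2 / c := by positivity
  linarith

/-- two-sided quadratic bounds, uniform over centred potentials with pinched Hessian -/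
theorem cen_bounds (n : ℕ) {κ K : ℝ} (hκ : 0 < κ) (hK : 0 < K) : ∃ C : ℝ, 0 < C ∧
    ∀ W : E n → ℝ, Sm W → Ell κ K (hess W) → Cen W →
      (∀ x, W 0 - C + κ / 4 * ‖x‖ ^ 2 ≤ W x) ∧ ∀ x, W x ≤ W 0 + C + K * ‖x‖ ^ 2 := by
  obtain ⟨a, ha⟩ : ∃ a : ℝ, a = n * (n * K * (1 + n / κ)) := ⟨_, rfl⟩
  refine ⟨a ^ 2 / κ + a ^ 2 / K + 1, by positivity, fun W hW hE hc => ?_⟩
  have hg := cen_grad hκ hK hW hE hc
  have hlin : ∀ x : E n, |∑ i, D i W 0 * x i| ≤ a * ‖x‖ := fun x => by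
    refine (Finset.abs_sum_le_sum_abs _ _).trans ?_
    have : ∀ i ∈ (Finset.univ : Finset (Fin n)),
        |D i W 0 * x i| ≤ n * K * (1 + n / κ) * ‖x‖ := fun i _ => by
      rw [abs_mul]
      exact mul_le_mul (hg i) (abs_coord_le x i) (abs_nonneg _) (by positivity)
    refine (Finset.sum_le_sum this).trans (le_of_eq ?_)
    rw [ha]
    simp only [Finset.sum_const, Finset.card_univ, Fintype.card_fin, nsmul_eq_mul]
    ring
  have p1 : 0 ≤ a ^ 2 / κ := by positivity
  have p2 : 0 ≤ a ^ 2 / K := by positivity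
  refine ⟨fun x => ?_, fun x => ?_⟩
  · have h1 := tay_lower (P := κ • (1 : Mat n)) hW.smo
      (fun y ξ => by rw [qf_smul, qf_one]; exact ((hE y).2 ξ).1) x
    rw [qf_smul, qf_one] at h1
    have h2 := cen_amgm hκ a ‖x‖
    have h3 := (abs_le.1 (hlin x)).1
    linarith
  · have h1 := tay_upper (P := K • (1 : Mat n)) hW.smo
      (fun y ξ => by rw [qf_smul, qf_one]; exact ((hE y).2 ξ).2) x
    rw [qf_smul, qf_one] at h1
    have h2 := cen_amgm hK a ‖x‖
    have h3 := (abs_le.1 (hlin x)).2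
    have h4 : 0 ≤ K * ‖x‖ ^ 2 := by positivity
    linarith

theorem cen_dir {W g : E n → ℝ} (h : Good W) (hg : PG g) (ξ : E n) :
    nm W (fun x => g x * ∑ i, ξ i * D i W x) = nm W fun x => ∑ i, ξ i * D i g x := by
  have e : (fun x => g x * ∑ i, ξ i * D i W x) = fun x => ∑ i, ξ i * (g x * D i W x) := by
    funext x
    rw [Finset.mul_sum]
    exact Finset.sum_congr rfl fun i _ => by ring
  rw [e, nm_sum h.coer h.cont Finset.univ (F := fun i x => ξ i * (g x * D i W x))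
      fun i _ => ((hg.mul (h.sm.pg.D i)).cpb).const_mul _,
    nm_sum h.coer h.cont Finset.univ (F := fun i x => ξ i * D i g x)
      fun i _ => ((hg.D i).cpb).const_mul _]
  refine Finset.sum_congr rfl fun i _ => ?_
  rw [nm_const_mul, nm_const_mul, cen_nm_D h hg i]

/-- Cramer-Rao lower bound for second moments -/
theorem cr_lower {W : E n → ℝ} {K : ℝ} (h : Good W) (ξ : E n)
    (hu : ∀ x, qf (hess W x) ξ ≤ K) :
    ‖ξ‖ ^ 4 ≤ K * nm W fun x => ⟪ξ, x⟫ ^ 2 := by
  have pu : PG fun x => ∑ i, ξ i * D i W x :=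
    pg_sum Finset.univ (F := fun i x => ξ i * D i W x) fun i _ => (h.sm.pg.D i).const_mul _
  have pl : PG fun x : E n => ⟪ξ, x⟫ := (sm_inner ξ).pg
  have hA : nm W (fun x => ⟪ξ, x⟫ * ∑ i, ξ i * D i W x) = ‖ξ‖ ^ 2 := by
    rw [cen_dir h pl ξ]
    simp only [Ridge.D_inner]
    rw [nm_const h.coer h.cont, normsq_eq]
    exact Finset.sum_congr rfl fun i _ => by ring
  have hB : nm W (fun x => (∑ i, ξ i * D i W x) * ∑ i, ξ i * D i W x) ≤ K := by
    rw [cen_dir h pu ξ]
    have cs : CPB fun x => ∑ i, ξ i * D i (fun x => ∑ j, ξ j * D j W x) x :=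
      cpb_sum Finset.univ (F := fun i x => ξ i * D i (fun x => ∑ j, ξ j * D j W x) x)
        fun i _ => ((pu.D i).cpb).const_mul _
    refine (nm_mono h.coer h.cont cs (cpb_const K) fun x => ?_).trans
      (nm_const h.coer h.cont K).le
    refine le_of_eq_of_le ?_ (hu x)
    unfold qf
    refine Finset.sum_congr rfl fun i _ => ?_
    rw [D_sum i Finset.univ (F := fun j x => ξ j * D j W x)
      fun j _ => ((h.sm.pg.D j).const_mul _).diff, Finset.mul_sum]
    refine Finset.sum_congr rfl fun j _ => ?_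
    rw [D_const_mul i _ (h.sm.pg.D j).diff, hess_apply]
    ring
  have hS : 0 ≤ nm W fun x => ⟪ξ, x⟫ ^ 2 := nm_nonneg W fun x => sq_nonneg _
  have hq : ∀ a : ℝ, 0 ≤ (nm W fun x => ⟪ξ, x⟫ ^ 2) * (a * a) + (-2 * ‖ξ‖ ^ 2) * a + K := by
    intro a
    have c1 : CPB fun x : E n => a * a * ⟪ξ, x⟫ ^ 2 := (pl.cpb.pow 2).const_mul _
    have c2 : CPB fun x : E n => -2 * a * (⟪ξ, x⟫ * ∑ i, ξ i * D i W x) :=
      (pl.mul pu).cpb.const_mul _
    have c3 := (pu.mul pu).cpb
    have h0 : 0 ≤ nm W fun x => a * a * ⟪ξ, x⟫ ^ 2 + -2 * a * (⟪ξ, x⟫ * ∑ i, ξ i * D i W x)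
        + (∑ i, ξ i * D i W x) * ∑ i, ξ i * D i W x :=
      nm_nonneg W fun x => by nlinarith [sq_nonneg (a * ⟪ξ, x⟫ - ∑ i, ξ i * D i W x)]
    rw [nm_add h.coer h.cont (c1.add c2) c3, nm_add h.coer h.cont c1 c2, nm_const_mul,
      nm_const_mul, hA] at h0
    linarith
  have hd := discrim_le_zero hq
  unfold discrim at hd
  nlinarith

end Vale.Agent.P254B
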