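import Vale.Agent.P254B.PortA
import Vale.Agent.P254B.Cen

/-! The L2 part of the linear estimate, without symmetry. -/

namespace Vale.Agent.P254B

open Vale.Agent.P227
open scoped ContDiff Matrix RealInnerProductSpace Topology
open MeasureTheory Filter

variable {n : ℕ}

/-- affine function -/
def lap2_af (a : ℝ) (b : Fin n → ℝ) : E n → ℝ := fun x => a + ∑ k, b k * x k

theorem lap2_pg (a : ℝ) (b : Fin n → ℝ) : PG (lap2_af a b) :=
  (pg_const a).add (pg_sum _ fun k _ => (pg_coord k).const_mul (b k))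

theorem lap2_D (a : ℝ) (b : Fin n → ℝ) (i : Fin n) : D i (lap2_af a b) = fun _ => b i := by
  unfold lap2_af
  rw [D_add i (pg_const a).diff (pg_sum _ fun k _ => (pg_coord k).const_mul (b k)).diff, D_const,
    D_sum i _ fun k _ => ((pg_coord k).const_mul (b k)).diff]
  funext x
  simp [D_const_mul i _ (pg_coord _).diff, D_coord]

theorem lap2_L (τ : E n → Mat n) (a : ℝ) (b : Fin n → ℝ) (x : E n) :
    Lop τ (lap2_af a b) x = -∑ k, b k * x k := by
  simp [Lop, rad, lap2_D, D_const, mul_comm]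

theorem lap2_Dsub {g : E n → ℝ} (hg : PG g) (a : ℝ) (b : Fin n → ℝ) (i : Fin n) :
    D i (fun x => g x - lap2_af a b x) = fun x => D i g x - b i := by
  rw [D_sub i hg.diff (lap2_pg a b).diff, lap2_D]

theorem lap2_DD {g : E n → ℝ} (hg : PG g) (a : ℝ) (b : Fin n → ℝ) (i j : Fin n) :
    D i (D j fun x => g x - lap2_af a b x) = D i (D j g) := by
  rw [lap2_Dsub hg, D_sub i (hg.D j).diff (pg_const _).diff, D_const]
  funext x
  exact sub_zero _

theorem lap2_lin {W g : E n → ℝ} (co : Coer W) (cW : Continuous W) (hg : CPB g)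
    (h : ∀ k, Ex W (fun x => g x * x k) = 0) (b : Fin n → ℝ) :
    Ex W (fun x => g x * ∑ k, b k * x k) = 0 := by
  have e : (fun x => g x * ∑ k, b k * x k) = fun x => ∑ k, b k * (g x * x k) := by
    funext x
    rw [Finset.mul_sum]
    exact Finset.sum_congr rfl fun k _ => by ring
  rw [e, Ex_sum co cW _ fun k _ => (hg.mul (cpb_coord k)).const_mul _]
  exact Finset.sum_eq_zero fun k _ => by rw [Ex_const_mul, h k, mul_zero]

theorem lap2_orth {Θ W g : E n → ℝ} (hP : Pot Θ W) (co : Coer W) (hg : PG g)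
    (h : ∀ k, Ex W (fun x => g x * x k) = 0) (a : ℝ) (b : Fin n → ℝ) :
    Ex W (fun x => lap2_af a b x * Lop (tau Θ) g x) = 0 := by
  have e : Gam (tau Θ) (lap2_af a b) g = Gam (tau Θ) g (lap2_af a b) := by
    funext x
    unfold Gam
    rw [Finset.sum_comm]
    refine Finset.sum_congr rfl fun k _ => Finset.sum_congr rfl fun l _ => ?_
    rw [(hP.toLPot.tau_symm x).apply k l]
    ring
  rw [hP.green co (lap2_pg a b) hg, e, ← hP.green co hg (lap2_pg a b)]
  simp only [lap2_L, mul_neg]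
  rw [Ex_neg, lap2_lin co hP.sW.continuous hg.cpb h, neg_zero]

theorem lap2_proj {W g : E n → ℝ} {K₁ : ℝ} (hW : Good W) (hK₁ : 0 < K₁)
    (hu : ∀ x ξ, qf (hess W x) ξ ≤ K₁ * ‖ξ‖ ^ 2) (hg : CPB g) :
    ∃ β : Fin n → ℝ, ∀ k, Ex W (fun x => (g x - ∑ l, β l * x l) * x k) = 0 := by
  have co := hW.coer
  have cW := hW.cont
  have hZ := Zf_pos co cW
  set A : Mat n := Matrix.of fun k l => Ex W fun x => x k * x l with hA
  have hs : A.IsSymm := Matrix.IsSymm.ext fun k l => by simp only [hA, Matrix.of_apply, mul_comm]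
  have hq : ∀ ξ : E n, qf A ξ = Ex W fun x => ⟪ξ, x⟫ ^ 2 := fun ξ => by
    have e : (fun x : E n => ⟪ξ, x⟫ ^ 2) = fun x => ∑ k, ∑ l, ξ k * ξ l * (x k * x l) := by
      funext x
      rw [inner_eq_sum, sq, Finset.sum_mul_sum]
      exact Finset.sum_congr rfl fun k _ => Finset.sum_congr rfl fun l _ => by ring
    rw [e, Ex_sum co cW _ fun k _ => cpb_sum _ fun l _ =>
      ((cpb_coord k).mul (cpb_coord l)).const_mul _]
    refine Finset.sum_congr rfl fun k _ => ?_
    rw [Ex_sum co cW _ fun l _ => ((cpb_coord k).mul (cpb_coord l)).const_mul _]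
    refine Finset.sum_congr rfl fun l _ => ?_
    rw [Ex_const_mul, hA, Matrix.of_apply]
    ring
  have hpd : A.PosDef := posDef_of_qf hs (div_pos hZ hK₁) fun ξ => by
    have h1 := cr_lower hW ξ fun x => hu x ξ
    rw [nm, ← hq] at h1
    rcases (sq_nonneg ‖ξ‖).eq_or_lt with h0 | h0
    · rw [← h0, mul_zero, hq]
      exact Ex_nonneg W fun x => sq_nonneg _
    · have h2 : ‖ξ‖ ^ 2 ≤ K₁ * (qf A ξ / Zf W) :=
        le_of_mul_le_mul_left (by nlinarith) h0
      rw [← mul_div_assoc, le_div_iff₀ hZ] at h2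
      rw [div_mul_eq_mul_div, div_le_iff₀ hK₁]
      linarith
  refine ⟨A⁻¹ *ᵥ fun k => Ex W fun x => g x * x k, fun k => ?_⟩
  have h1 := congrFun (Matrix.mulVec_mulVec (fun k => Ex W fun x => g x * x k) A A⁻¹) k
  rw [Matrix.mul_nonsing_inv _ hpd.det_pos.ne'.isUnit, Matrix.one_mulVec] at h1
  generalize (A⁻¹ *ᵥ fun k => Ex W fun x => g x * x k) = β at h1 ⊢
  have e : (fun x : E n => (g x - ∑ l, β l * x l) * x k) =
      fun x => g x * x k - ∑ l, β l * (x k * x l) := by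
    funext x
    rw [sub_mul, Finset.sum_mul]
    exact congrArg _ (Finset.sum_congr rfl fun l _ => by ring)
  rw [e, Ex_sub co cW (hg.mul (cpb_coord k)) (cpb_sum _ fun l _ =>
    ((cpb_coord k).mul (cpb_coord l)).const_mul _),
    Ex_sum co cW _ fun l _ => ((cpb_coord k).mul (cpb_coord l)).const_mul _, ← h1, sub_eq_zero]
  change ∑ l, A k l * β l = _
  refine Finset.sum_congr rfl fun l _ => ?_
  rw [Ex_const_mul, hA, Matrix.of_apply, mul_comm]

theorem lap2_pt {N K M B r f₀ u v h : ℝ} (hN : 0 ≤ N) (hK : 0 < K) (hM : 0 ≤ M) (hB : 0 < B)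
    (hr : 0 ≤ r) (a1 : |f₀| ≤ N * M * r ^ 2) (a2 : |u| ≤ N * (K * B)) (a3 : |v| ≤ N * B * r ^ 2) :
    f₀ * -(u - v + h) ≤ N * (N * (K + 1) + 1) * M * B * (1 + r) ^ 4 + N * M / B * h ^ 2 := by
  have b3 : r ^ 2 ≤ (1 + r) ^ 2 := by nlinarith
  have b4 : 1 ≤ (1 + r) ^ 2 := by nlinarith
  have b1 : 0 ≤ N * B := by positivity
  have b2 : 0 ≤ N * B * K := by positivity
  have a4 : |u - v| ≤ N * (K + 1) * B * (1 + r) ^ 2 := by
    refine ((abs_sub _ _).trans (add_le_add a2 a3)).trans ?_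
    nlinarith
  have a5 : |f₀| ≤ N * M * (1 + r) ^ 2 := a1.trans (mul_le_mul_of_nonneg_left b3 (by positivity))
  have a6 : (1 + r) ^ 2 * |h| ≤ B * (1 + r) ^ 4 + h ^ 2 / B := by
    rw [← sub_le_iff_le_add', le_div_iff₀ hB, ← sq_abs h]
    nlinarith [sq_nonneg (B * (1 + r) ^ 2 - |h|), mul_nonneg (mul_nonneg hB.le (sq_nonneg (1 + r)))
      (abs_nonneg h)]
  have a7 : |u - v + h| ≤ N * (K + 1) * B * (1 + r) ^ 2 + |h| :=
    (abs_add_le _ _).trans (add_le_add a4 le_rfl)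
  have a8 := mul_le_mul_of_nonneg_left a6 (show 0 ≤ N * M by positivity)
  calc f₀ * -(u - v + h) ≤ |f₀| * |u - v + h| := by
        rw [← abs_neg (u - v + h), ← abs_mul]
        exact le_abs_self _
    _ ≤ N * M * (1 + r) ^ 2 * (N * (K + 1) * B * (1 + r) ^ 2 + |h|) :=
        mul_le_mul a5 a7 (abs_nonneg _) (by positivity)
    _ = N * (N * (K + 1)) * M * B * (1 + r) ^ 4 + N * M * ((1 + r) ^ 2 * |h|) := by ring
    _ ≤ N * (N * (K + 1)) * M * B * (1 + r) ^ 4 + N * M * (B * (1 + r) ^ 4 + h ^ 2 / B) :=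
        add_le_add le_rfl a8
    _ = _ := by ring

theorem lap2 (n : ℕ) {κ K₁ K : ℝ} (hκ : 0 < κ) (hK₁ : 0 < K₁) (hK : 0 < K) : ∃ C : ℝ, 0 < C ∧
    ∀ (Θ W : E n → ℝ) (c l : ℝ) (θ : E n → ℝ) (B M : ℝ), Pot Θ W →
      Ell κ K₁ (hess W) → 0 ≤ c → Ell c K (tau Θ) → -1 ≤ l → Sm θ →
      0 ≤ B → 0 ≤ M → (∀ i j x, |D i (D j θ) x| ≤ B) →
      (∀ i j x, |D i (D j (Aop (tau Θ) l θ)) x| ≤ M) →
      ∀ i j, c ^ 2 * Ex W (fun x => D i (D j θ) x ^ 2) ≤ C * M * B * Real.exp (-W 0) := by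
  obtain ⟨I, hI, hb⟩ := Ex_bound n 4 (show 0 < κ / 4 by positivity)
  obtain ⟨C₀, -, hcb⟩ := cen_bounds n hκ hK₁
  have hn : (0 : ℝ) ≤ n := Nat.cast_nonneg n
  set N : ℝ := n ^ 2 with hNd
  have hN : 0 ≤ N := by positivity
  refine ⟨(N * (N * (K + 1) + 1) + N ^ 3 + 1) * I * Real.exp C₀, by positivity,
    fun Θ W c l θ B M hP hW hc hE hl hθ hB hM hD hA i j => ?_⟩
  rcases hB.eq_or_lt with rfl | hB
  · have : ∀ x, D i (D j θ) x = 0 := fun x => abs_nonpos_iff.1 (hD i j x)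
    simp [this, Ex]
  have gW : Good W := ⟨hP.mW, κ, hκ, fun x ξ => ((hW x).2 ξ).1⟩
  have co : Coer W := gW.coer
  have cW : Continuous W := gW.cont
  have hlow := (hcb W hP.mW hW (hP.cen co)).1
  have pθ : PG θ := hθ.pg
  have pA : PG (Aop (tau Θ) l θ) := pθ.Aop hP.mpg l
  have p0 : PG fun x => θ x - lap2_af (θ 0) (fun k => D k θ 0) x := pθ.sub (lap2_pg _ _)
  obtain ⟨β, hβ⟩ := lap2_proj gW hK₁ (fun x ξ => ((hW x).2 ξ).2) p0.cpb
  have ph : PG fun x : E n => ∑ k, β k * x k := pg_sum _ fun k _ => (pg_coord k).const_mul (β k)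
  set th : E n → ℝ := fun x => θ x - lap2_af (θ 0) (fun k => D k θ 0 + β k) x with hth
  have pt : PG th := pθ.sub (lap2_pg _ _)
  have et : ∀ x, th x = θ x - lap2_af (θ 0) (fun k => D k θ 0) x - ∑ k, β k * x k := fun x => by
    simp only [hth, lap2_af, add_mul, Finset.sum_add_distrib]
    ring
  have ho : ∀ k, Ex W (fun x => th x * x k) = 0 := fun k => by simp only [et]; exact hβ k
  have pL : PG (Lop (tau Θ) th) := pt.Lop hP.mpg
  have pT : PG fun x => (tau Θ x * hess th x * tau Θ x * hess th x).trace :=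
    (((hP.mpg.mul pt.hess).mul hP.mpg).mul pt.hess).trace
  have g0 : 0 ≤ Ex W (Gam (tau Θ) th th) :=
    Ex_nonneg W fun x => sum_psd_nonneg (hP.toLPot.tau_posDef x).posSemidef fun k => D k th x
  set f := Aop (tau Θ) l θ with hf
  set f₀ : E n → ℝ := fun x => f x - f 0 - ∑ k, D k f 0 * x k with hf₀
  have pf : PG f₀ := (pA.sub (pg_const _)).sub (pg_sum _ fun k _ => (pg_coord k).const_mul _)
  have e1 : Ex W (fun x => f₀ x * -Lop (tau Θ) th x) =
      l * Ex W (Gam (tau Θ) th th) + Ex W (fun x => Lop (tau Θ) th x ^ 2) := by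
    have a : (fun x => f₀ x * -Lop (tau Θ) th x) = fun x =>
        (-l * (th x * Lop (tau Θ) th x) + Lop (tau Θ) th x ^ 2) +
          lap2_af (f 0 - l * θ 0) (fun k => D k f 0 - (l + 1) * (D k θ 0 + β k)) x *
            Lop (tau Θ) th x := by
      funext x
      have b1 : Lop (tau Θ) θ x = Lop (tau Θ) th x - ∑ k, (D k θ 0 + β k) * x k := by
        rw [hth, Lop_sub _ pθ.smo (lap2_pg _ _).smo]
        simp only [lap2_L]
        ring
      have b2 : f x = l * θ x - Lop (tau Θ) θ x := rfl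
      have b3 : θ x = th x + (θ 0 + ∑ k, (D k θ 0 + β k) * x k) := by
        simp only [hth, lap2_af]
        ring
      simp only [hf₀, lap2_af, sub_mul, Finset.sum_sub_distrib, mul_assoc, ← Finset.mul_sum]
      rw [b2, b1, b3]
      ring
    rw [a, Ex_add co cW (((pt.mul pL).cpb.const_mul _).add (pL.cpb.pow 2))
      ((lap2_pg _ _).mul pL).cpb,
      Ex_add co cW ((pt.mul pL).cpb.const_mul _) (pL.cpb.pow 2), Ex_const_mul,
      hP.green co pt pt, lap2_orth hP co pt ho]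
    ring
  have e2 := hP.bochner co pt
  have e3 : c ^ 2 * Ex W (fun x => D i (D j θ) x ^ 2) ≤
      Ex W fun x => (tau Θ x * hess th x * tau Θ x * hess th x).trace := by
    rw [← Ex_const_mul, ← lap2_DD pθ (θ 0) (fun k => D k θ 0 + β k)]
    exact Ex_mono co cW ((((pt.D j).D i).cpb.pow 2).const_mul _) pT.cpb fun x =>
      trace_sq_lower (hE x) hc (hess_symm pt.smo x) i j
  have e4 : Ex W (fun x => (∑ k, β k * x k) ^ 2) ≤ (N * B) ^ 2 * I * Real.exp (-(W 0 - C₀)) := by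
    have a1 := Ex_mono co cW (ph.cpb.pow 2) ((p0.cpb.pow 2).sub ((pt.mul ph).cpb.const_mul 2))
      fun x => by
        rw [et]
        nlinarith [sq_nonneg (θ x - lap2_af (θ 0) (fun k => D k θ 0) x - ∑ k, β k * x k)]
    rw [Ex_sub co cW (p0.cpb.pow 2) ((pt.mul ph).cpb.const_mul 2), Ex_const_mul,
      lap2_lin co cW pt.cpb ho, mul_zero, sub_zero] at a1
    refine a1.trans ((le_abs_self _).trans (hb W _ _ _ (by positivity) hlow fun x => ?_))
    have a2 := abs_lin_le hθ.smo hD x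
    have a3 : ‖x‖ ^ 2 ≤ (1 + ‖x‖) ^ 2 := by nlinarith [norm_nonneg x]
    rw [abs_pow, lap2_af, ← sub_sub]
    refine (pow_le_pow_left₀ (abs_nonneg _)
      (a2.trans (mul_le_mul_of_nonneg_left a3 (by positivity))) 2).trans_eq ?_
    ring
  have c4 : CPB fun x : E n => (1 + ‖x‖) ^ 4 := ((cpb_const 1).add cpb_norm).pow 4
  have e5 : Ex W (fun x : E n => (1 + ‖x‖) ^ 4) ≤ 1 * I * Real.exp (-(W 0 - C₀)) :=
    (le_abs_self _).trans (hb W _ _ _ zero_le_one hlow fun x => by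
      rw [one_mul, abs_of_nonneg (by positivity)])
  have e6 := Ex_mono co cW (pf.mul pL.neg).cpb
    ((c4.const_mul (N * (N * (K + 1) + 1) * M * B)).add ((ph.cpb.pow 2).const_mul (N * M / B)))
    fun x => by
      have a0 : Lop (tau Θ) th x = (∑ p, ∑ q, tau Θ x p q * D p (D q θ) x) -
          (∑ p, x p * (D p θ x - D p θ 0)) + ∑ k, β k * x k := by
        simp only [Lop, rad, hth, lap2_DD pθ]
        simp only [lap2_Dsub pθ, mul_sub, mul_add, Finset.sum_sub_distrib, Finset.sum_add_distrib,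
          mul_comm (β _)]
        ring
      rw [a0]
      refine lap2_pt hN hK hM hB (norm_nonneg x) (abs_lin_le pA.smo hA x) ?_ ?_
      · calc _ ≤ ∑ p, |∑ q, tau Θ x p q * D p (D q θ) x| := Finset.abs_sum_le_sum_abs _ _
          _ ≤ ∑ _p : Fin n, ∑ _q : Fin n, K * B := by
            refine Finset.sum_le_sum fun p _ => (Finset.abs_sum_le_sum_abs _ _).trans
              (Finset.sum_le_sum fun q _ => ?_)
            rw [abs_mul]
            exact mul_le_mul ((hE x).abs_le hc p q) (hD p q x) (abs_nonneg _) hK.le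
          _ = _ := by simp [hNd]; ring
      · calc _ ≤ ∑ p, |x p * (D p θ x - D p θ 0)| := Finset.abs_sum_le_sum_abs _ _
          _ ≤ ∑ _p : Fin n, ‖x‖ * (n * B * ‖x‖) := by
            refine Finset.sum_le_sum fun p _ => ?_
            rw [abs_mul]
            exact mul_le_mul (abs_coord_le x p) (abs_D_sub_le hθ.smo hD p x) (abs_nonneg _)
              (norm_nonneg x)
          _ = _ := by simp [hNd]; ring
  rw [Ex_add co cW (c4.const_mul _) ((ph.cpb.pow 2).const_mul _), Ex_const_mul, Ex_const_mul, e1]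
    at e6
  have e7 := mul_le_mul_of_nonneg_left e5 (show 0 ≤ N * (N * (K + 1) + 1) * M * B by positivity)
  have e8 := mul_le_mul_of_nonneg_left e4 (show 0 ≤ N * M / B by positivity)
  have e9 : N * M / B * ((N * B) ^ 2 * I * Real.exp (-(W 0 - C₀))) =
      N ^ 3 * M * B * I * Real.exp (-(W 0 - C₀)) := by field_simp
  have e10 : Real.exp (-(W 0 - C₀)) = Real.exp C₀ * Real.exp (-W 0) := by
    rw [← Real.exp_add]
    congr 1
    ring
  have e11 : 0 ≤ (l + 1) * Ex W (Gam (tau Θ) th th) := mul_nonneg (by linarith) g0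
  have e12 : 0 ≤ I * Real.exp C₀ * M * B * Real.exp (-W 0) := by positivity
  rw [e9] at e8
  rw [e10] at e7 e8
  linarith

end Vale.Agent.P254B
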