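import Vale.Agent.P254B.PortA

/-! Euler step, openness and the resolvent, without symmetry. -/

namespace Vale.Agent.P254B

open Vale.Agent.P227 hiding Pot ASolv APri stepA step open_solv res lap3
open scoped ContDiff Matrix RealInnerProductSpace Topology
open MeasureTheory Filter

variable {n : ℕ}

theorem stepA {Θ W θ : E n → ℝ} {δ c' : ℝ} (h : Pot Θ W) (hθ : Sm θ)
    (hr : Sm (rad θ)) (hc' : 0 < c')
    (hl : ∀ x ξ, c' * ‖ξ‖ ^ 2 ≤ qf (hess Θ x + δ • hess θ x) ξ) :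
    ∃ W' : E n → ℝ, Pot (fun x => Θ x + δ * θ x) W' ∧ ∀ i,
      D i (fun x => W' x - W x - δ * Aop (tau Θ) (-1) θ x) = fun x => δ ^ 2 *
        ((tau Θ x * hess θ x * tau (fun y => Θ y + δ * θ y) x * hess (D i θ) x).trace -
          (tau Θ x * hess θ x * tau Θ x * hess θ x * tau (fun y => Θ y + δ * θ y) x *
            hess (D i Θ) x).trace) := by
  have sT := h.sT
  have sθ := hθ.smo
  have sδ : ContDiff ℝ ∞ fun x => δ * θ x := contDiff_const.mul sθ
  have sT' : ContDiff ℝ ∞ fun x => Θ x + δ * θ x := sT.add sδ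
  have mT' : Sm fun x => Θ x + δ * θ x := h.mT.add (hθ.const_mul δ)
  have hH : ∀ x, hess (fun y => Θ y + δ * θ y) x = hess Θ x + δ • hess θ x := fun x => by
    rw [hess_add sT sδ, hess_const_mul δ sθ]
  have hl' : ∀ x ξ, c' * ‖ξ‖ ^ 2 ≤ qf (hess (fun y => Θ y + δ * θ y) x) ξ := fun x ξ => by
    rw [hH]; exact hl x ξ
  have hp : ∀ x, (hess (fun y => Θ y + δ * θ y) x).PosDef := fun x =>
    posDef_of_qf (hess_symm sT' x) hc' (hl' x)
  have hu : ∀ x, IsUnit (hess (fun y => Θ y + δ * θ y) x).det := fun x =>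
    (Matrix.isUnit_iff_isUnit_det _).1 (hp x).isUnit
  have hb : MBinf (tau fun y => Θ y + δ * θ y) := by
    refine MBinf.inv mT'.mbinf hu (K' := 1 / c') fun x i j => ?_
    refine abs_entry_le (psd_isSymm (hp x).inv.posSemidef) (fun ξ => ?_) i j
    rw [abs_of_nonneg (qf_nonneg (hp x).inv.posSemidef ξ)]
    exact qf_inv_upper (hess_symm sT' x) hc' (hl' x) ξ
  have hD : ∀ i, D i (fun y => Θ y + δ * θ y) = fun y => D i Θ y + δ * D i θ y := fun i => by
    rw [D_add i (smo_diff sT) (smo_diff sδ), D_const_mul i δ (smo_diff sθ)]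
  have hT : ∀ i x, hess (D i fun y => Θ y + δ * θ y) x = hess (D i Θ) x + δ • hess (D i θ) x :=
    fun i x => by
      rw [hD, hess_add (smo_D i sT) (contDiff_const.mul (smo_D i sθ)),
        hess_const_mul δ (smo_D i sθ)]
  have s1 := smo_logdet (msmo_hess sT') hp
  have s2 := smo_logdet (msmo_hess sT) h.pos
  have s3 : ContDiff ℝ ∞ fun x => (tau Θ x * hess θ x).trace :=
    (h.toLPot.msmo.mul (msmo_hess sθ)).trace
  have s4 : ContDiff ℝ ∞ fun x => δ * (tau Θ x * hess θ x).trace := contDiff_const.mul s3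
  have s5 : ContDiff ℝ ∞ fun x => δ * (rad θ x - θ x) := contDiff_const.mul (hr.smo.sub sθ)
  have d1 : ∀ i, D i (fun x => Real.log (hess (fun y => Θ y + δ * θ y) x).det) = fun x =>
      (tau (fun y => Θ y + δ * θ y) x * hess (D i fun y => Θ y + δ * θ y) x).trace := fun i => by
    rw [D_logdet i (msmo_hess sT') hp]
    funext x
    rw [MD_hess i sT']
    rfl
  have d2 : ∀ i, D i (fun x => Real.log (hess Θ x).det) = fun x =>
      (tau Θ x * hess (D i Θ) x).trace := fun i => by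
    rw [D_logdet i (msmo_hess sT) h.pos]
    funext x
    rw [MD_hess i sT]
    rfl
  have dE : ∀ i, D i (fun x => δ * (tau Θ x * hess θ x).trace -
      Real.log (hess (fun y => Θ y + δ * θ y) x).det + Real.log (hess Θ x).det) = fun x => δ ^ 2 *
        ((tau Θ x * hess θ x * tau (fun y => Θ y + δ * θ y) x * hess (D i θ) x).trace -
          (tau Θ x * hess θ x * tau Θ x * hess θ x * tau (fun y => Θ y + δ * θ y) x *
            hess (D i Θ) x).trace) := fun i => by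
    rw [D_add i (smo_diff (s4.sub s1)) (smo_diff s2), D_sub i (smo_diff s4) (smo_diff s1),
      D_const_mul i δ (smo_diff s3), D_trace i (h.toLPot.msmo.mul (msmo_hess sθ)), d1, d2]
    funext x
    simp only
    rw [MD_mul i h.toLPot.msmo (msmo_hess sθ), h.toLPot.MD_tau, MD_hess i sθ, hT]
    refine StepAX.alg (h.toLPot.tau_mul x) ?_
    rw [← hH]
    exact Matrix.mul_nonsing_inv _ (hu x)
  have mE : Sm fun x => δ * (tau Θ x * hess θ x).trace -
      Real.log (hess (fun y => Θ y + δ * θ y) x).det + Real.log (hess Θ x).det := by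
    refine sm_of_D ((s4.sub s1).add s2) fun i => ?_
    rw [dE]
    have b1 := h.mbinf.mul hθ.mbinf
    exact ((((b1.mul hb).mul (hθ.D i).mbinf).trace).sub
      ((((b1.mul h.mbinf).mul hθ.mbinf).mul hb).mul (h.mT.D i).mbinf).trace).const_mul _
  have eA : ∀ x, δ * (rad θ x - θ x) =
      δ * Aop (tau Θ) (-1) θ x + δ * (tau Θ x * hess θ x).trace := fun x => by
    simp only [Aop, Lop_eq_trace _ sθ]
    ring
  refine ⟨fun x => W x + δ * (rad θ x - θ x) - Real.log (hess (fun y => Θ y + δ * θ y) x).det +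
    Real.log (hess Θ x).det, ⟨⟨sT', ((h.sW.add s5).sub s1).add s2, hp, fun i x => ?_⟩, mT', ?_,
    c', hc', hl'⟩, fun i => ?_⟩
  · rw [D_add i (smo_diff ((h.sW.add s5).sub s1)) (smo_diff s2),
      D_sub i (smo_diff (h.sW.add s5)) (smo_diff s1), D_add i (smo_diff h.sW) (smo_diff s5),
      D_const_mul i δ (smo_diff (hr.smo.sub sθ)), D_sub i (smo_diff hr.smo) (smo_diff sθ),
      D_rad i sθ, d1, d2]
    have e : ∑ a, x a * hess (fun y => Θ y + δ * θ y) x a i =
        ∑ a, x a * hess Θ x a i + δ * rad (D i θ) x := by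
      rw [hH, rad, Finset.mul_sum, ← Finset.sum_add_distrib]
      refine Finset.sum_congr rfl fun a _ => ?_
      rw [Matrix.add_apply, Matrix.smul_apply, smul_eq_mul, hess_apply θ]
      ring
    simp only [h.grad i x]
    rw [e]
    ring
  · have := (h.mW.add ((hθ.Aop hr h.mbinf (-1)).const_mul δ)).add mE
    refine (congrArg Sm (funext fun x => ?_)).mp this
    rw [eA]
    ring
  · rw [← dE]
    refine congrArg (D i) (funext fun x => ?_)
    simp only [eA]
    ring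

theorem step (n : ℕ) {c K K' C₁ : ℝ} (hc : 0 < c) (hK' : 0 < K') (hC₁ : 0 < C₁) :
    ∃ δ₀ C₂ : ℝ, 0 < δ₀ ∧ 0 < C₂ ∧ ∀ (Θ W θ : E n → ℝ) (δ : ℝ), Pot Θ W → Ell c K (hess Θ) →
      MHb 3 K' (hess Θ) → MHb 3 K' (tau Θ) → Sm θ → Sm (rad θ) → N2 3 C₁ θ → 0 < δ →
      δ ≤ δ₀ → ∃ W' : E n → ℝ, Pot (fun x => Θ x + δ * θ x) W' ∧
        N2 1 (C₂ * δ ^ 2) (fun x => W' x - W x - δ * Aop (tau Θ) (-1) θ x) ∧
        MHb 3 (C₂ * δ) (fun x => tau (fun y => Θ y + δ * θ y) x - tau Θ x) := by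
  obtain ⟨C₀, hC₀, hinv⟩ := mhb_inv n 3 (K' + C₁) (1 / (c / 2))
  obtain ⟨A, hA, hpr⟩ := StepX.prods n hK' hC₁ hC₀
  have hd : 0 < 2 * n * C₁ + 2 := by positivity
  refine ⟨min 1 (c / (2 * n * C₁ + 2)), A, lt_min one_pos (div_pos hc hd), hA,
    fun Θ W θ δ h hE hH hτ hθ hr hN hδ hδ₀ => ?_⟩
  have hδ1 : δ ≤ 1 := hδ₀.trans (min_le_left _ _)
  have hδ2 : δ * (2 * n * C₁ + 2) ≤ c := (le_div_iff₀ hd).1 (hδ₀.trans (min_le_right _ _))
  have hΦ : MHb 3 C₁ (hess θ) := n2_iff_mhb.1 hN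
  have hl : ∀ x ξ, c / 2 * ‖ξ‖ ^ 2 ≤ qf (hess Θ x + δ • hess θ x) ξ := by
    intro x ξ
    have h1 := ((hE x).2 ξ).1
    have h2 := mul_le_mul_of_nonneg_left (abs_le.1 (abs_qf_le (hΦ.abs_le x) ξ)).1 hδ.le
    have h3 : δ * (n * C₁) * ‖ξ‖ ^ 2 ≤ c / 2 * ‖ξ‖ ^ 2 :=
      mul_le_mul_of_nonneg_right (by linarith) (sq_nonneg _)
    rw [qf_add, qf_smul]
    linarith
  obtain ⟨W', hP, hD⟩ := stepA h hθ hr (half_pos hc) hl
  have hH' : ∀ x, hess (fun y => Θ y + δ * θ y) x = hess Θ x + δ • hess θ x := fun x => by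
    rw [hess_add h.sT (contDiff_const.mul hθ.smo), hess_const_mul δ hθ.smo]
  have hτ' : MHb 3 C₀ (tau fun y => Θ y + δ * θ y) := by
    refine hinv _ hP.toLPot.unit ?_ fun x i j => ?_
    · rw [funext hH']
      refine (hH.add (hΦ.smul δ)).mono ?_
      rw [abs_of_pos hδ]
      nlinarith
    · refine abs_entry_le (psd_isSymm (hP.pos x).inv.posSemidef) (fun ξ => ?_) i j
      rw [abs_of_nonneg (qf_nonneg (hP.pos x).inv.posSemidef ξ)]
      refine qf_inv_upper (hess_symm hP.sT x) (half_pos hc) (fun η => ?_) ξ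
      rw [hH']
      exact hl x η
  have hT : ∀ i, MHb 2 K' (hess (D i Θ)) := fun i => n2_iff_mhb.1 ((n2_iff_mhb.2 hH).D i)
  have hΨ : ∀ i, MHb 2 C₁ (hess (D i θ)) := fun i => n2_iff_mhb.1 (hN.D i)
  refine ⟨W', hP, n2_of_D fun i => ?_, ?_⟩
  · rw [hD i]
    refine ((hpr _ _ _ _ _ hτ hΦ hτ' (hΨ i) (hT i)).1.const_mul (δ ^ 2)).mono ?_
    rw [abs_of_nonneg (sq_nonneg δ), mul_comm]
  · have e : (fun x => tau (fun y => Θ y + δ * θ y) x - tau Θ x) =
        fun x => (-δ) • (tau Θ x * hess θ x * tau (fun y => Θ y + δ * θ y) x) := by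
      funext x
      have h1 := HbM.inv_sub (h.toLPot.unit x) (hP.toLPot.unit x)
      have h2 : hess (fun y => Θ y + δ * θ y) x - hess Θ x = δ • hess θ x := by
        rw [hH', add_sub_cancel_left]
      rw [h2, Matrix.mul_smul, Matrix.smul_mul] at h1
      rw [neg_smul, ← neg_sub]
      exact congrArg Neg.neg h1
    rw [e]
    refine ((hpr _ _ _ _ _ hτ hΦ hτ' (hΦ.of_le (by norm_num)) (hH.of_le (by norm_num))).2.smul
      (-δ)).mono ?_
    rw [abs_neg, abs_of_pos hδ, mul_comm]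

theorem open_step {C ε l M : ℝ} {τ τ' : E n → Mat n} {u : E n → ℝ}
    (hε : 80 * (n : ℝ) ^ 2 * ε * C ≤ 1) (hl : -1 ≤ l) (hs : ASolv τ l) (ha : APri C τ)
    (hτ : MBinf τ) (hd : MHb 3 ε fun x => τ' x - τ x) (hM : 0 < M) (su : Sm u)
    (hu : N2 1 M u) : ∃ θ, Sm θ ∧ Sm (rad θ) ∧
      N2 1 (M / 2) (fun x => Aop τ' l θ x - u x) := by
  obtain ⟨θ, s1, r1, h1⟩ := hs u su (M / 4) (by positivity)
  have sA := smo_Aop hτ.msmo l s1.smo
  have h2 : N2 1 (M / 4 + M) (Aop τ l θ) := by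
    have h3 := h1.add hu (sA.sub su.smo) su.smo
    simp only [sub_add_cancel] at h3
    exact h3
  have h3 := hd.contr (ha l θ _ hl (by positivity) s1 h2)
  have h4 := (h1.sub h3.n2 (sA.sub su.smo) h3.smo).mono (M' := M / 2) (by
    nlinarith [mul_le_mul_of_nonneg_left hε hM.le])
  refine ⟨θ, s1, r1, ?_⟩
  rw [Aop_change τ τ']
  simp only [Matrix.sub_apply] at h4
  simp only [sub_right_comm _ _ (u _)]
  exact h4

theorem open_solv (n : ℕ) {C : ℝ} (hC : 0 < C) : ∃ ε : ℝ, 0 < ε ∧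
    ∀ (τ τ' : E n → Mat n) (l : ℝ), -1 ≤ l → ASolv τ l → APri C τ → MBinf τ → MBinf τ' →
      MHb 3 ε (fun x => τ' x - τ x) → ASolv τ' l := by
  refine ⟨1 / (80 * ((n : ℝ) ^ 2 + 1) * C), by positivity, ?_⟩
  intro τ τ' l hl hs ha hτ hτ' hd u su η hη
  have hε : 80 * (n : ℝ) ^ 2 * (1 / (80 * ((n : ℝ) ^ 2 + 1) * C)) * C ≤ 1 := by
    rw [mul_one_div, div_mul_eq_mul_div, div_le_one (by positivity)]
    nlinarith
  obtain ⟨B, hB, hu⟩ := su.n2 1
  have key := halving (Q := fun a => ∃ θ, Sm θ ∧ Sm (rad θ) ∧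
    N2 1 a (fun x => Aop τ' l θ x - u x)) (B := B) (c := 0)
    (fun a b hab ⟨θ, h1, h3, h4⟩ => ⟨θ, h1, h3, h4.mono hab⟩) hB ?_ ?_ le_rfl η hη
  · rwa [mul_zero, zero_add] at key
  · have h0 : rad (fun _ : E n => (0 : ℝ)) = fun _ => 0 := by
      funext x
      simp [rad, D_const]
    refine ⟨fun _ => 0, sm_const 0, by rw [h0]; exact sm_const 0, ?_⟩
    simp only [Aop, Lop_const, mul_zero, sub_zero, zero_sub]
    exact hu.neg
  · rintro a ha0 ⟨θ, s0, r0, h0⟩
    rcases ha0.eq_or_lt with rfl | hpos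
    · exact ⟨θ, s0, r0, h0.mono (by norm_num)⟩
    obtain ⟨θ₁, s1, r1, h1⟩ := open_step hε hl hs ha hτ hd hpos
      ((s0.Aop r0 hτ' l).sub su) h0
    refine ⟨fun x => θ x - θ₁ x, s0.sub s1, ?_, ?_⟩
    · rw [rad_sub (smo_diff s0.smo) (smo_diff s1.smo)]
      exact r0.sub r1
    · rw [Aop_sub τ' l s0.smo s1.smo, add_zero]
      have h2 := h1.neg
      simp only [neg_sub] at h2
      simp only [sub_right_comm _ _ (u _)]
      exact h2

theorem res {l : ℝ} (hl : -2 < l) : ASolv (one n) l := by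
  intro u hu ε hε
  obtain ⟨M, hM, hN⟩ := hu.n2 1
  have hl' : 0 < l + 2 := by linarith
  obtain ⟨T, hT, hTe⟩ : ∃ T, 0 ≤ T ∧ (l + 2) * T = M / ε :=
    ⟨M / ε / (l + 2), by positivity, mul_div_cancel₀ _ hl'.ne'⟩
  have hθ := ResX.sm hu l hT
  have hA := ResX.Aop_Rz hu.pg l hT
  refine ⟨Rz l T u, hθ, ?_, ?_⟩
  · have e : rad (Rz l T u) = fun x => (∑ i, D i (D i (Rz l T u)) x) - l * Rz l T u x +
        (u x - Real.exp (-(l * T)) * OU T u x) := funext fun x => by
      rw [← hA x, Aop, Lop_one]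
      ring
    rw [e]
    exact ((sm_sum _ fun i _ => (hθ.DD i i).sm).sub (hθ.const_mul l)).add
      (hu.sub ((OU_sm hT hu).const_mul _))
  · have e : (fun x => Aop (one n) l (Rz l T u) x - u x) =
        fun x => -Real.exp (-(l * T)) * OU T u x := funext fun x => by
      rw [hA x]
      ring
    rw [e]
    refine ((OU_n2 hT hu.pg hN).const_mul (OU_sm hT hu).smo _).mono ?_
    rw [abs_neg, abs_of_pos (Real.exp_pos _), ← mul_assoc, ← Real.exp_add,
      show -(l * T) + -2 * T = -(M / ε) by linarith, Real.exp_neg, inv_mul_le_iff₀ (Real.exp_pos _)]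
    have h1 := mul_le_mul_of_nonneg_right (Real.add_one_le_exp (M / ε)) hε.le
    rw [add_mul, div_mul_cancel₀ _ hε.ne'] at h1
    linarith

theorem lap3 (n : ℕ) {K ε : ℝ} (hK : 0 ≤ K) (hε : 0 < ε) (R : ℝ) : ∃ C : ℝ, 0 < C ∧
    ∀ (W g : E n → ℝ) (a L β : ℝ), (∀ x, W x ≤ a + K * ‖x‖ ^ 2) → 0 ≤ L → 0 ≤ β →
      (∀ x y, |g x - g y| ≤ L * ‖x - y‖) →
      Integrable (fun x => g x ^ 2 * Real.exp (-W x)) →
      Ex W (fun x => g x ^ 2) ≤ β * Real.exp (-a) →
      ∀ x, ‖x‖ ≤ R → |g x| ≤ ε * L + C * Real.sqrt β := by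
  set v : ℝ := (volume : Measure (E n)).real (Metric.ball 0 (ε / 2)) with hv
  have hvpos : 0 < v := by
    refine ENNReal.toReal_pos (Metric.measure_ball_pos _ _ (by positivity)).ne' ?_
    exact measure_ball_lt_top.ne
  set A : ℝ := Real.exp (-(K * (|R| + ε) ^ 2)) with hA
  have hApos : 0 < A := Real.exp_pos _
  have hq : 0 < Real.sqrt (A * v) := Real.sqrt_pos.2 (by positivity)
  refine ⟨2 / Real.sqrt (A * v), by positivity, ?_⟩
  intro W g a L β hW hL hβ hg hi hE x hx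
  have hC : 0 ≤ 2 / Real.sqrt (A * v) * Real.sqrt β := by positivity
  by_cases hs : |g x| ≤ ε * L
  · linarith
  have hs' : ε * L < |g x| := lt_of_not_ge hs
  have hlow : ∀ y ∈ Metric.ball x (ε / 2),
      g x ^ 2 / 4 * (Real.exp (-a) * A) ≤ g y ^ 2 * Real.exp (-W y) := by
    intro y hy
    rw [Metric.mem_ball, dist_eq_norm] at hy
    have h1 := hg y x
    have h2 : L * ‖y - x‖ ≤ L * (ε / 2) := mul_le_mul_of_nonneg_left hy.le hL
    have h3 : |g x| - |g y| ≤ |g y - g x| := by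
      rw [abs_sub_comm]
      exact abs_sub_abs_le_abs_sub _ _
    have h4 : |g x| / 2 ≤ |g y| := by nlinarith
    have h5 : g x ^ 2 / 4 ≤ g y ^ 2 := by
      have h6 : (|g x| / 2) ^ 2 ≤ |g y| ^ 2 := pow_le_pow_left₀ (by positivity) h4 2
      rw [div_pow, sq_abs, sq_abs] at h6
      linarith
    have h7 : ‖y‖ ≤ |R| + ε := by
      have h8 : ‖y‖ ≤ ‖x‖ + ‖y - x‖ := by
        have := norm_add_le x (y - x)
        simpa using this
      have h9 := le_abs_self R
      linarith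
    have h10 : K * ‖y‖ ^ 2 ≤ K * (|R| + ε) ^ 2 :=
      mul_le_mul_of_nonneg_left (pow_le_pow_left₀ (norm_nonneg _) h7 2) hK
    have h11 : Real.exp (-a) * A ≤ Real.exp (-W y) := by
      rw [hA, ← Real.exp_add]
      refine Real.exp_le_exp.2 ?_
      have := hW y
      linarith
    exact mul_le_mul h5 h11 (by positivity) (by positivity)
  have hint := setIntegral_ge_of_const_le_real (μ := (volume : Measure (E n)))
    Metric.isOpen_ball.measurableSet measure_ball_lt_top.ne hlow hi.integrableOn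
  have hle := setIntegral_le_integral (s := Metric.ball x (ε / 2)) hi
    (Eventually.of_forall fun y => by positivity)
  rw [Measure.addHaar_real_ball_center, ← hv] at hint
  have hE' : ∫ y, g y ^ 2 * Real.exp (-W y) ≤ β * Real.exp (-a) := hE
  have he : 0 < Real.exp (-a) := Real.exp_pos _
  have h12 : g x ^ 2 / 4 * (A * v) ≤ β := by
    refine le_of_mul_le_mul_right ?_ he
    calc g x ^ 2 / 4 * (A * v) * Real.exp (-a)
        = g x ^ 2 / 4 * (Real.exp (-a) * A) * v := by ring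
      _ ≤ β * Real.exp (-a) := hint.trans (hle.trans hE')
  have h13 : |g x| * Real.sqrt (A * v) ≤ 2 * Real.sqrt β := by
    refine abs_le_of_sq_le_sq' ?_ (by positivity) |>.2
    rw [mul_pow, mul_pow, sq_abs, Real.sq_sqrt (by positivity), Real.sq_sqrt hβ]
    linarith
  have h14 : |g x| ≤ 2 / Real.sqrt (A * v) * Real.sqrt β := by
    rw [div_mul_eq_mul_div, le_div_iff₀ hq]
    exact h13
  have h15 : 0 ≤ ε * L := by positivity
  linarith

end Vale.Agent.P254B
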