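import Vale.Agent.P254B.PortC
import Vale.Agent.P254B.PortD
import Vale.Agent.P254B.Lap2

/-! Existence of approximate moment potentials without symmetry. -/

namespace Vale.Agent.P254B

open Vale.Agent.P227 hiding Pot ASolv APri ap_ell ap_far cal_bound ap_hi ap_far2 stepA step open_solv res lap3
  lap2 lap uni pot_base exist
open scoped ContDiff Matrix RealInnerProductSpace Topology
open MeasureTheory Filter

variable {n : ℕ}

theorem lap (n : ℕ) {κ K c K' : ℝ} (hκ : 0 < κ) (hK : 0 < K) (hc : 0 < c) (hK' : 0 < K') :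
    ∃ om₁ : ℝ, 0 < om₁ ∧ ∀ R₁ : ℝ, ∃ om₂ : ℝ, 0 < om₂ ∧ ∀ R₂ : ℝ, ∃ C : ℝ, 0 < C ∧
      ∀ Θ W : E n → ℝ, Pot Θ W → Ell κ K (hess W) → Ell c K' (tau Θ) → MHb 3 K' (tau Θ) →
        Far om₁ R₁ (tau Θ) → Far2 om₂ R₂ (tau Θ) → APri C (tau Θ) := by
  obtain ⟨om₁, hom₁, H1⟩ := lap1 n hc hK'
  refine ⟨om₁, hom₁, fun R₁ => ?_⟩
  obtain ⟨C₁, hC₁, H1⟩ := H1 R₁
  obtain ⟨om₂, hom₂, e₂⟩ : ∃ om₂ : ℝ, 0 < om₂ ∧ (n : ℝ) ^ 2 * (3 * (om₂ * C₁)) ≤ 1 / 4 :=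
    ⟨1 / (12 * n ^ 2 * C₁ + 1), by positivity, by
      rw [show (n : ℝ) ^ 2 * (3 * (1 / (12 * n ^ 2 * C₁ + 1) * C₁)) =
        3 * n ^ 2 * C₁ / (12 * n ^ 2 * C₁ + 1) by ring, div_le_iff₀ (by positivity)]
      linarith⟩
  obtain ⟨ε, hε, e₃⟩ : ∃ ε : ℝ, 0 < ε ∧ ε * (n * C₁) ≤ 1 / 8 :=
    ⟨1 / (8 * (n * C₁) + 1), by positivity, by
      rw [one_div_mul_eq_div, div_le_iff₀ (by positivity)]
      linarith⟩
  refine ⟨om₂, hom₂, fun R₂ => ?_⟩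
  obtain ⟨C₀, hC₀, H0⟩ := cen_bounds n hκ hK
  obtain ⟨C₄, hC₄, H2⟩ := lap2 n hκ hK hK'
  obtain ⟨C₂, hC₂, eC⟩ : ∃ C₂ : ℝ, 0 < C₂ ∧ ∀ w : ℝ, C₄ * Real.exp (-w) =
      C₂ * Real.exp (-(w + C₀)) := ⟨C₄ * Real.exp C₀, by positivity, fun w => by
        rw [mul_assoc, ← Real.exp_add]; congr 2; ring⟩
  obtain ⟨C₃, hC₃, H3⟩ := lap3 n hK.le hε R₂
  obtain ⟨u, hu⟩ : ∃ u, u = C₃ ^ 2 * (C₂ / c ^ 2) := ⟨_, rfl⟩
  have hu0 : 0 ≤ u := by rw [hu]; positivity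
  refine ⟨C₁ * (2 * (2 + 2 * u) + 1), by positivity,
    fun Θ W hP hW hτ hH hF₁ hF₂ l θ M hl hM hθ hA => ?_⟩
  have sθ := hθ.smo
  have hlow := fun x ξ => ((hW x).2 ξ).1
  have hco : Coer W := coer_of_low hP.sW hκ hlow
  obtain ⟨B, hB, hB'⟩ := hθ.n2 0
  have key := halving (Q := fun B => ∀ i j x, |D i (D j θ) x| ≤ B) (c := (2 + 2 * u) * M)
    (fun a b hab h i j x => (h i j x).trans hab) hB hB'.abs_le (fun a ha hQ i j => ?_)
    (by positivity)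
  · have h1 := H1 _ l θ (2 * ((2 + 2 * u) * M)) M hτ hH hF₁ hl hθ (by positivity) hM
      (fun i j x => le_of_forall_pos_le_add fun ε hε => key ε hε i j x) hA
    exact h1.mono (le_of_eq (by ring))
  have h3 := H1 _ l θ a M hτ hH hF₁ hl hθ ha hM hQ hA
  have sg := smo_D i (smo_D j sθ)
  have huM : 0 ≤ u * M := by positivity
  have near : ∀ x, ‖x‖ ≤ R₂ → |D i (D j θ) x| ≤ a / 2 + (2 + 2 * u) * M := fun x hx => by
    have h4 := H2 Θ W c l θ a M hP hW hc.le hτ hl hθ ha hM hQ hA.abs_le i j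
    have h5 := H3 W (D i (D j θ)) (W 0 + C₀) (n * (C₁ * (a + M))) (C₂ / c ^ 2 * M * a)
      (H0 W hP.mW hW (hP.cen hco)).2 (by positivity) (by positivity)
      (lip_of_D (smo_diff sg) fun p x => h3.abs_le3 p i j x)
      (integrable_Ex hco hP.sW.continuous ((hθ.DD i j).pg.cpb.pow 2)) (by
        rw [show C₂ / c ^ 2 * M * a * Real.exp (-(W 0 + C₀)) =
          M * a * (C₂ * Real.exp (-(W 0 + C₀))) / c ^ 2 by ring, le_div_iff₀' (by positivity),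
          ← eC]
        exact h4.trans_eq (by ring)) x hx
    have h6 := Lap4X.amgm hC₃.le (show 0 ≤ C₂ / c ^ 2 * M by positivity) ha
    rw [← mul_assoc (C₃ ^ 2), ← hu] at h6
    have h7 := mul_le_mul_of_nonneg_right e₃ (add_nonneg ha hM)
    nlinarith
  have far : ∀ x, R₂ ≤ ‖x‖ →
      |(l + 2) * D i (D j θ) x - Lop (tau Θ) (D i (D j θ)) x| ≤ a / 2 + (2 + 2 * u) * M := by
    intro x hx
    have h4 := Lap4X.far (l := l) hH.msmo sθ hom₂.le hF₂ h3 i j hx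
    have h5 := hA.abs_le i j x
    have h6 := mul_le_mul_of_nonneg_right e₂ (add_nonneg ha hM)
    have h7 := abs_sub_abs_le_abs_sub ((l + 2) * D i (D j θ) x - Lop (tau Θ) (D i (D j θ)) x)
      (D i (D j (Aop (tau Θ) l θ)) x)
    nlinarith
  have hA0 : 0 ≤ a / 2 + (2 + 2 * u) * M := by positivity
  have mp := fun (v : E n → ℝ) => maxp (v := v) (A := a / 2 + (2 + 2 * u) * M)
    (fun x => (hτ x).psd hc.le) (fun x => trace_le_of_qf fun ξ => ((hτ x).2 ξ).2) (β := 1)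
  intro x
  refine abs_le.2 ⟨neg_le.1 (mp (fun y => -D i (D j θ) y) sg.neg
    ⟨a, fun y => (neg_le_abs _).trans (hQ i j y)⟩ one_pos (fun y => ?_) x),
    mp _ sg ⟨a, fun y => (le_abs_self _).trans (hQ i j y)⟩ one_pos (fun y => ?_) x⟩
  · rcases le_total ‖y‖ R₂ with hy | hy
    · exact Or.inl ((neg_le_abs _).trans (near y hy))
    · refine or_iff_not_imp_left.2 fun h => ?_
      rw [Lop_neg]
      have h4 := (abs_le.1 (far y hy)).1
      nlinarith [mul_nonneg (show 0 ≤ l + 1 by linarith) (hA0.trans (not_le.1 h).le)]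
  · rcases le_total ‖y‖ R₂ with hy | hy
    · exact Or.inl ((le_abs_self _).trans (near y hy))
    · refine or_iff_not_imp_left.2 fun h => ?_
      have h4 := (abs_le.1 (far y hy)).2
      nlinarith [mul_nonneg (show 0 ≤ l + 1 by linarith) (hA0.trans (not_le.1 h).le)]

theorem uni (n : ℕ) {κ K : ℝ} (hκ : 0 < κ) (hK : 0 < K) (R₀ : ℝ) :
    ∃ η K' C : ℝ, 0 < η ∧ 0 < K' ∧ 0 < C ∧ ∀ Θ W : E n → ℝ, Pot Θ W → Adm κ K R₀ η W →
      Ell κ K (hess Θ) ∧ MHb 3 K' (hess Θ) ∧ MHb 3 K' (tau Θ) ∧ APri C (tau Θ) := by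
  obtain ⟨η₁, K₁, hη₁, hK₁, hhi⟩ := ap_hi n hκ hK R₀
  have hK' : 0 < max K₁ (1 / κ) := lt_max_of_lt_left hK₁
  obtain ⟨om₁, hom₁, hl⟩ := lap n (c := 1 / K) hκ hK (by positivity) hK'
  obtain ⟨η₂, hη₂, hfar⟩ := ap_far n hκ hK hom₁
  obtain ⟨R₁, hR₁⟩ := hfar R₀
  obtain ⟨om₂, hom₂, hl⟩ := hl R₁
  obtain ⟨η₃, hη₃, hfar2⟩ := ap_far2 n hκ hK hK' hom₂
  obtain ⟨R₂, hR₂⟩ := hfar2 R₀
  obtain ⟨C, hC, hl⟩ := hl R₂
  refine ⟨min η₁ (min η₂ η₃), max K₁ (1 / κ), C, by positivity, hK', hC, fun Θ W hP hA => ?_⟩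
  obtain ⟨e1, e2⟩ := ap_ell hP hκ hK hA.1
  obtain ⟨m1, m2⟩ := hhi Θ W hP ⟨hA.1, hA.2.1, hA.2.2.mono (min_le_left _ _) le_rfl⟩
  have m2' := m2.mono (le_max_left K₁ (1 / κ))
  refine ⟨e2, m1.mono (le_max_left _ _), m2', hl Θ W hP hA.1
    (fun x => (e1 x).mono le_rfl (le_max_right _ _)) m2' (hR₁ Θ W hP hA.1 ?_)
    (hR₂ Θ W hP hA.1 ?_ m2')⟩
  · exact hA.2.2.mono ((min_le_right _ _).trans (min_le_left _ _)) le_rfl
  · exact hA.2.2.mono ((min_le_right _ _).trans (min_le_right _ _)) le_rfl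

theorem pot_base : Pot (gW : E n → ℝ) gW ∧ tau (gW : E n → ℝ) = one n := by
  have ht : tau (gW : E n → ℝ) = one n := by
    funext x
    simp [tau, hess_gW, one]
  refine ⟨⟨⟨smo_gW, smo_gW, fun x => ?_, fun i x => ?_⟩, sm_gW, sm_gW,
    1, one_pos, fun x ξ => ?_⟩, ht⟩
  · rw [hess_gW]; exact Matrix.PosDef.one
  · rw [D_gW, hess_coord, hess_gW]
    simp [Matrix.one_apply]
  · rw [hess_gW, qf_one, one_mul]

theorem exist {V : E n → ℝ} {κ R₀ : ℝ} (hV : ContDiff ℝ ∞ V) (hκ : 0 < κ)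
    (hl : ∀ x ξ, κ * ‖ξ‖ ^ 2 ≤ qf (hess V x) ξ) (hf : ∀ x, R₀ ≤ ‖x‖ → hess V x = 1)
    {η : ℝ} (hη : 0 < η) : ∃ Θ W : E n → ℝ, Pot Θ W ∧ N2 1 η (fun x => W x - V x) ∧
      ASolv (tau Θ) (-1) ∧ ASolv (tau Θ) 0 := by
  have sD : ContDiff ℝ ∞ fun x => V x - gW x := hV.sub smo_gW
  have mD : Sm fun x => V x - gW x := by
    refine sm_iff.2 ⟨sD, fun i j => binf_of_compact (R := R₀) (smo_D _ (smo_D _ sD)) ?_⟩
    intro x hx
    rw [← hess_apply, hess_sub hV smo_gW, hf x hx, hess_gW]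
    simp
  obtain ⟨KD, hKD0, hKD⟩ := mD.n2 1
  have hn : (0 : ℝ) ≤ n := Nat.cast_nonneg n
  have hκ0 : 0 < min κ 1 / 2 := by positivity
  have hK : 0 < ((n : ℝ) + 1) * (KD + 2) := by positivity
  obtain ⟨ηu, K', C, hηu, hK', hC, huni⟩ := uni n hκ0 hK R₀
  obtain ⟨δ₀, C₂, hδ₀, hC₂, hstep⟩ :=
    step n (c := min κ 1 / 2) (K := (n + 1) * (KD + 2)) (C₁ := C * (1 + KD)) hκ0 hK'
      (by positivity)
  obtain ⟨εo, hεo, hopen⟩ := open_solv n hC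
  obtain ⟨η', hη', a1, a2, a3, a4⟩ : ∃ η' : ℝ, 0 < η' ∧ η' ≤ 1 ∧ n * η' ≤ min κ 1 / 2 ∧
      η' ≤ ηu ∧ η' ≤ η := by
    refine ⟨min (min 1 (min κ 1 / 2 / (n + 1))) (min ηu η), by positivity,
      (min_le_left _ _).trans (min_le_left _ _), ?_, (min_le_right _ _).trans (min_le_left _ _),
      (min_le_right _ _).trans (min_le_right _ _)⟩
    have b : min (min 1 (min κ 1 / 2 / (n + 1))) (min ηu η) ≤ min κ 1 / 2 / (n + 1) :=
      (min_le_left _ _).trans (min_le_right _ _)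
    rw [le_div_iff₀ (by positivity)] at b
    have b' : 0 < min (min 1 (min κ 1 / 2 / (n + 1))) (min ηu η) := by positivity
    nlinarith
  obtain ⟨δ₁, hδ₁, b1, b2, b3, b4⟩ : ∃ δ₁ : ℝ, 0 < δ₁ ∧ δ₁ ≤ 1 ∧ δ₁ ≤ δ₀ ∧ C₂ * δ₁ ≤ εo ∧
      (C₂ + 1) * δ₁ ≤ η' := by
    refine ⟨min (min 1 δ₀) (min (εo / C₂) (η' / (C₂ + 1))), by positivity,
      (min_le_left _ _).trans (min_le_left _ _), (min_le_left _ _).trans (min_le_right _ _),
      ?_, ?_⟩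
    · rw [mul_comm, ← le_div_iff₀ hC₂]
      exact (min_le_right _ _).trans (min_le_left _ _)
    · rw [mul_comm, ← le_div_iff₀ (by positivity)]
      exact (min_le_right _ _).trans (min_le_right _ _)
  obtain ⟨m, hm⟩ := exists_nat_one_div_lt hδ₁
  obtain ⟨δ, hδ, hδ1, hmδ⟩ : ∃ δ : ℝ, 0 < δ ∧ δ ≤ δ₁ ∧ ((m + 1 : ℕ) : ℝ) * δ = 1 := by
    refine ⟨1 / ((m : ℝ) + 1), by positivity, hm.le, ?_⟩
    push_cast
    field_simp
  have key : ∀ j : ℕ, j ≤ m + 1 → ∃ Θ W : E n → ℝ, Pot Θ W ∧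
      N2 1 (j * ((C₂ + 1) * δ ^ 2)) (fun x => W x - (gW x + j * δ * (V x - gW x))) ∧
      ASolv (tau Θ) (-1) ∧ ASolv (tau Θ) 0 := by
    intro j
    induction j with
    | zero =>
      intro _
      refine ⟨gW, gW, pot_base.1, ?_, ?_, ?_⟩
      · have e : (fun x : E n => gW x - (gW x + ((0 : ℕ) : ℝ) * δ * (V x - gW x))) =
            fun _ => (0 : ℝ) := by
          funext x; simp
        rw [e]
        intro i j
        rw [D_const, D_const]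
        exact hb_const 1 (by simp)
      · rw [pot_base.2]; exact res (by norm_num)
      · rw [pot_base.2]; exact res (by norm_num)
    | succ j ih =>
      intro hj
      obtain ⟨Θ, W, hP, hN, s1, s0⟩ := ih (Nat.le_of_succ_le hj)
      have hj' : ((j : ℝ) + 1) * δ ≤ 1 := by
        have c : (j : ℝ) + 1 ≤ ((m + 1 : ℕ) : ℝ) := by exact_mod_cast hj
        exact (mul_le_mul_of_nonneg_right c hδ.le).trans hmδ.le
      have hj0 : (0 : ℝ) ≤ j := Nat.cast_nonneg j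
      have hjδ : (j : ℝ) * δ ≤ 1 := by nlinarith
      have hb : (j : ℝ) * ((C₂ + 1) * δ ^ 2) ≤ η' := by
        have c1 : (j : ℝ) * ((C₂ + 1) * δ ^ 2) = (j * δ) * ((C₂ + 1) * δ) := by ring
        have c2 : (C₂ + 1) * δ ≤ η' :=
          (mul_le_mul_of_nonneg_left hδ1 (by positivity)).trans b4
        have c3 : 0 ≤ (C₂ + 1) * δ := by positivity
        rw [c1]
        nlinarith
      obtain ⟨u1, u2, u3, u4⟩ := huni Θ W hP
        (ExistAux.adm hV hP.sW hl hf hKD0 hKD (by positivity) hjδ (hN.mono hb) a1 a2 a3)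
      obtain ⟨θ, t1, t3, t4⟩ := s1 _ mD δ hδ
      have sA : ContDiff ℝ ∞ (Aop (tau Θ) (-1) θ) := smo_Aop hP.toLPot.msmo _ t1.smo
      have t5 : N2 1 (1 + KD) (Aop (tau Θ) (-1) θ) := by
        have a := t4.add hKD (sA.sub sD) sD
        simp only [sub_add_cancel] at a
        exact a.mono (by linarith)
      have t6 := u4 (-1) θ (1 + KD) le_rfl (by positivity) t1 t5
      obtain ⟨W', hP', w1, w2⟩ := hstep Θ W θ δ hP u1 u2 u3 t1 t3 t6 hδ (hδ1.trans b2)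
      have w3 : MHb 3 εo fun x => tau (fun y => Θ y + δ * θ y) x - tau Θ x :=
        w2.mono ((mul_le_mul_of_nonneg_left hδ1 hC₂.le).trans b3)
      refine ⟨_, W', hP', ?_,
        hopen _ _ _ le_rfl s1 u4 hP.mbinf hP'.mbinf w3,
        hopen _ _ _ (by norm_num) s0 u4 hP.mbinf hP'.mbinf w3⟩
      have q1 : ContDiff ℝ ∞ fun x => W x - (gW x + j * δ * (V x - gW x)) :=
        hP.sW.sub (smo_gW.add (contDiff_const.mul sD))
      have q2 : ContDiff ℝ ∞ fun x => W' x - W x - δ * Aop (tau Θ) (-1) θ x :=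
        (hP'.sW.sub hP.sW).sub (contDiff_const.mul sA)
      have q3 : ContDiff ℝ ∞ fun x => Aop (tau Θ) (-1) θ x - (V x - gW x) := sA.sub sD
      have a := (hN.add w1 q1 q2).add (t4.const_mul q3 δ) (q1.add q2) (contDiff_const.mul q3)
      have e : (fun x => W' x - (gW x + ((j + 1 : ℕ) : ℝ) * δ * (V x - gW x))) = fun x =>
          W x - (gW x + j * δ * (V x - gW x)) + (W' x - W x - δ * Aop (tau Θ) (-1) θ x) +
            δ * (Aop (tau Θ) (-1) θ x - (V x - gW x)) := by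
        funext x; push_cast; ring
      rw [e]
      refine a.mono (le_of_eq ?_)
      rw [abs_of_pos hδ]
      push_cast
      ring
  obtain ⟨Θ, W, hP, hN, s1, s0⟩ := key (m + 1) le_rfl
  refine ⟨Θ, W, hP, ?_, s1, s0⟩
  rw [hmδ] at hN
  simp only [one_mul, add_sub_cancel] at hN
  refine hN.mono ?_
  have c1 : ((m + 1 : ℕ) : ℝ) * ((C₂ + 1) * δ ^ 2) =
      (((m + 1 : ℕ) : ℝ) * δ) * ((C₂ + 1) * δ) := by ring
  rw [c1, hmδ, one_mul]
  exact ((mul_le_mul_of_nonneg_left hδ1 (by positivity)).trans b4).trans a4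

end Vale.Agent.P254B
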