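import Vale.Agent.P254B.MIb
import Vale.Agent.P254B.PortB
import Vale.Agent.P254B.Glu

/-! Approximation by moment potentials. -/

namespace Vale.Agent.P254B

open Vale.Agent.P227
open scoped ContDiff Matrix RealInnerProductSpace Topology
open MeasureTheory Filter

variable {n : ℕ}

theorem apx_nm (W g : E n → ℝ) {u : ℝ} (hu : 0 < u) (c : ℝ) :
    nm (fun x => W (u • x) + c) (fun x => g (u • x)) = nm W g := by
  rw [nm_shift, nm, nm, Zf, Zf, Ex_scale W g hu, Ex_scale W (fun _ => 1) hu]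
  exact mul_div_mul_left _ _ (by positivity)

theorem apx_cen {W : E n → ℝ} {u : ℝ} (hu : 0 < u) (c : ℝ) (h : Cen W) :
    Cen fun x => W (u • x) + c := fun i => by
  have e := (apx_nm W (fun x => x i) hu c).trans (h i)
  simp only [PiLp.smul_apply, smul_eq_mul, nm_const_mul] at e
  exact (mul_eq_zero.1 e).resolve_left hu.ne'

theorem apx_mi {W : E n → ℝ} {u : ℝ} (hu : 0 < u) (c : ℝ) {q : Fin n → ℝ} (h : MI W q) :
    MI (fun x => W (u • x) + c) fun i => u ^ 2 * q i := by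
  have h2 : ∀ i j, m2 W i j = u ^ 2 * m2 (fun x => W (u • x) + c) i j := fun i j => by
    rw [m2, m2, ← apx_nm W _ hu c, ← nm_const_mul]
    exact congrArg _ (funext fun x => by simp only [PiLp.smul_apply, smul_eq_mul]; ring)
  have h3 : ∀ i j k, m3 W i j k = u ^ 3 * m3 (fun x => W (u • x) + c) i j k := fun i j k => by
    rw [m3, m3, ← apx_nm W _ hu c, ← nm_const_mul]
    exact congrArg _ (funext fun x => by simp only [PiLp.smul_apply, smul_eq_mul]; ring)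
  generalize (fun x => W (u • x) + c) = W' at h2 h3
  intro a k ha
  have := h (fun i => u ^ 2 * a i) (fun i j c => u * k i j c) fun i =>
    mul_nonneg (sq_nonneg u) (ha i)
  have e1 : ∀ i j, ∑ c, u * k i j c * m3 W i j c = u ^ 4 * ∑ c, k i j c * m3 W' i j c :=
    fun i j => by
      rw [Finset.mul_sum]
      exact Finset.sum_congr rfl fun c _ => by rw [h3]; ring
  have e2 : ∀ i j, ∑ c, ∑ d, u * k i j c * (u * k i j d) * m2 W c d =
      u ^ 4 * ∑ c, ∑ d, k i j c * k i j d * m2 W' c d := fun i j => by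
    simp only [Finset.mul_sum]
    exact Finset.sum_congr rfl fun c _ => Finset.sum_congr rfl fun d _ => by rw [h2]; ring
  simp only [e1, e2] at this
  refine le_of_mul_le_mul_left (le_of_eq_of_le ?_ (this.trans_eq ?_)) (pow_pos hu 4)
  · rw [Finset.mul_sum]
    refine Finset.sum_congr rfl fun i _ => ?_
    rw [Finset.mul_sum]
    exact Finset.sum_congr rfl fun j _ => by rw [h2]; ring
  · simp only [Finset.mul_sum, mul_add]
    exact congrArg₂ _
      (Finset.sum_congr rfl fun i _ => Finset.sum_congr rfl fun j _ => by rw [h2]; ring)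
      (Finset.sum_congr rfl fun i _ => by rw [h2]; ring)

theorem apx_hess {f : E n → ℝ} (hf : ContDiff ℝ ∞ f) (s : ℝ) (y : E n) :
    hess (fun x => f (s • x)) y = s ^ 2 • hess f (s • y) := by
  have e : ∀ x : E n, lin (s • (1 : Mat n)) x = s • x := fun x => by
    ext i
    simp [lin_apply, Matrix.one_apply]
  have := hess_lin hf (s • 1) y
  simp only [e] at this
  rw [this]
  simp [smul_smul, sq]

theorem approx {U : E n → ℝ} (hU : Sm U) {κ : ℝ} (hκ : 0 < κ) (hl : Low κ U) {p : Fin n → ℝ}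
    (hp : ∀ i, 0 ≤ p i) (hd : ∀ x ξ, dq p ξ ≤ qf (hess U x) ξ) :
    ∃ C₀ : ℝ, ∀ t R : ℝ, 0 < t → t ≤ 1 / 2 → 0 < R → ∃ (V : E n → ℝ) (l : E n), Continuous V ∧
      (∀ x, κ / 8 * ‖x‖ ^ 2 - C₀ ≤ V x) ∧ (∀ x, ‖x‖ ≤ R → |V x - U x| ≤ t * ‖x‖ ^ 2) ∧
      (Cen fun x => V x + ⟪l, x⟫) ∧ MI (fun x => V x + ⟪l, x⟫) fun i => (1 - t) * p i := by
  obtain ⟨C₀, hC⟩ := low_bound hU.smo hκ hl
  refine ⟨C₀, fun t R t0 t1 hR => ?_⟩
  obtain ⟨V₁, A, R₀, v1, hA, v2, v3, v4, v5⟩ := glueN hU hC hR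
  obtain ⟨u, u0, rfl⟩ : ∃ u : ℝ, 0 < u ∧ A = u ^ 2 :=
    ⟨√A, Real.sqrt_pos.2 hA, (Real.sq_sqrt hA.le).symm⟩
  obtain ⟨s, s0, hs⟩ : ∃ s : ℝ, 0 < s ∧ s * u = 1 := ⟨u⁻¹, inv_pos.2 u0, inv_mul_cancel₀ u0.ne'⟩
  have hs2 : s ^ 2 * u ^ 2 = 1 := by rw [← mul_pow, hs, one_pow]
  obtain ⟨δ, d0, d1, d2, d3⟩ : ∃ δ : ℝ, 0 < δ ∧ δ ≤ t ∧ δ ≤ κ / 8 ∧ δ ≤ t * κ / 2 :=
    ⟨min t (min (κ / 8) (t * κ / 2)), by positivity, min_le_left _ _,
      (min_le_right _ _).trans (min_le_left _ _), (min_le_right _ _).trans (min_le_right _ _)⟩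
  obtain ⟨η, e0, e1, e2⟩ : ∃ η : ℝ, 0 < η ∧ n * η ≤ s ^ 2 * δ ∧ n ^ 2 * η ≤ s ^ 2 * δ := by
    have n0 : (0 : ℝ) ≤ n := n.cast_nonneg
    have k : 0 < s ^ 2 * δ := by positivity
    refine ⟨s ^ 2 * δ / (n + 1) ^ 2, by positivity, ?_, ?_⟩ <;>
      rw [← mul_div_assoc, div_le_iff₀ (by positivity), mul_comm] <;>
      exact mul_le_mul_of_nonneg_left (by nlinarith) k.le
  have w1 : ContDiff ℝ ∞ fun x : E n => V₁ (s • x) := v1.comp (contDiff_id.const_smul s)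
  have q1 : ∀ y ξ, s ^ 2 * qf (hess U (s • y)) ξ ≤ qf (hess (fun x => V₁ (s • x)) y) ξ :=
    fun y ξ => by
      rw [apx_hess v1, qf_smul]
      exact mul_le_mul_of_nonneg_left (v2 _ _) (sq_nonneg s)
  obtain ⟨Θ, W, hP, hN, -, h0⟩ := exist (κ := s ^ 2 * κ) (R₀ := R₀ * u) w1 (by positivity)
    (fun y ξ => le_trans (by
      rw [mul_assoc]
      exact mul_le_mul_of_nonneg_left (hl _ _) (sq_nonneg s)) (q1 y ξ))
    (fun y hy => by
      rw [apx_hess v1, v3, smul_smul, hs2, one_smul]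
      rw [norm_smul, Real.norm_of_nonneg s0.le]
      calc R₀ = s * (R₀ * u) := by rw [mul_left_comm, hs, mul_one]
        _ ≤ _ := mul_le_mul_of_nonneg_left hy s0.le) e0
  have dq0 : ∀ ξ : E n, 0 ≤ dq p ξ := fun ξ =>
    Finset.sum_nonneg fun i _ => mul_nonneg (hp i) (sq_nonneg _)
  have q2 : ∀ y ξ, s ^ 2 * ((1 - t) * dq p ξ) + s ^ 2 * (t * κ / 2) * ‖ξ‖ ^ 2 ≤
      qf (hess W y) ξ := fun y ξ => by
    have a1 := abs_qf_le (A := hess (fun x => W x - V₁ (s • x)) y) (fun i j => hN.abs_le i j y) ξ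
    rw [hess_sub hP.sW w1, qf_sub] at a1
    have a2 := mul_le_mul_of_nonneg_right (e1.trans (mul_le_mul_of_nonneg_left d3 (sq_nonneg s)))
      (sq_nonneg ‖ξ‖)
    have a3 : (1 - t) * dq p ξ + t * (κ * ‖ξ‖ ^ 2) ≤ qf (hess U (s • y)) ξ := by
      nlinarith [mul_le_mul_of_nonneg_left (hl (s • y) ξ) t0.le,
        mul_le_mul_of_nonneg_left (hd (s • y) ξ) (by linarith : 0 ≤ 1 - t)]
    nlinarith [mul_le_mul_of_nonneg_left a3 (sq_nonneg s), q1 y ξ, (abs_le.1 a1).1]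
  have cW : Coer W := coer_of_low (κ := s ^ 2 * (t * κ / 2)) hP.sW (by positivity) fun y ξ =>
    le_trans (le_add_of_nonneg_left
      (mul_nonneg (sq_nonneg s) (mul_nonneg (by linarith) (dq0 ξ)))) (q2 y ξ)
  have mW : MI W fun i => s ^ 2 * ((1 - t) * p i) := mi_pot hP cW h0
    (fun i => mul_nonneg (sq_nonneg s) (mul_nonneg (by linarith) (hp i))) fun y ξ => by
      refine le_trans ?_ (le_trans (le_add_of_nonneg_right (by positivity)) (q2 y ξ))
      simp only [dq, Finset.mul_sum, mul_assoc, le_refl]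
  obtain ⟨r, hr⟩ : ∃ r : E n → ℝ, r = fun x => W x - V₁ (s • x) := ⟨_, rfl⟩
  obtain ⟨l, hl'⟩ : ∃ l : E n, ∀ i, l i = u * D i r 0 :=
    ⟨WithLp.toLp 2 fun i => u * D i r 0, fun _ => rfl⟩
  have key : ∀ x, |W (u • x) + -r 0 - ⟪l, x⟫ - V₁ x| ≤ δ * ‖x‖ ^ 2 := fun x => by
    have a1 := abs_lin_le (f := r) (hr ▸ hP.sW.sub w1) (hr ▸ hN.abs_le) (u • x)
    have a2 : r (u • x) = W (u • x) - V₁ x := by simp only [hr, smul_smul, hs, one_smul]
    have a3 : ∑ i, D i r 0 * (u • x) i = ⟪l, x⟫ := by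
      rw [inner_eq_sum]
      exact Finset.sum_congr rfl fun i _ => by rw [hl', PiLp.smul_apply, smul_eq_mul]; ring
    rw [a2, a3, norm_smul, Real.norm_of_nonneg u0.le, mul_pow] at a1
    refine le_of_eq_of_le (congrArg _ (by ring)) (a1.trans ?_)
    calc _ ≤ s ^ 2 * δ * (u ^ 2 * ‖x‖ ^ 2) := mul_le_mul_of_nonneg_right e2 (by positivity)
      _ = _ := by rw [mul_mul_mul_comm, hs2, one_mul]
  refine ⟨fun x => W (u • x) + -r 0 - ⟪l, x⟫, l, ?_, fun x => ?_, fun x hx => ?_, ?_, ?_⟩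
  · have := hP.sW.continuous
    fun_prop
  · nlinarith [(abs_le.1 (key x)).1, v5 x, mul_le_mul_of_nonneg_right d2 (sq_nonneg ‖x‖)]
  · rw [← v4 x hx]
    exact (key x).trans (mul_le_mul_of_nonneg_right d1 (sq_nonneg _))
  · simp only [sub_add_cancel]
    exact apx_cen u0 _ (hP.cen cW)
  · have := apx_mi u0 (-r 0) mW
    simp only [← mul_assoc (u ^ 2), mul_comm (u ^ 2), hs2, one_mul] at this
    simp only [sub_add_cancel]
    exact this

end Vale.Agent.P254B
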