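import Vale.Agent.P254B.Base

/-! Scaling of the moment inequality. -/

namespace Vale.Agent.P254B

open Vale.Agent.P227
open scoped ContDiff Matrix RealInnerProductSpace Topology
open MeasureTheory Filter

variable {n : ℕ} {W : E n → ℝ} {s : ℝ}

theorem nm_scale (hs : 0 < s) (W : E n → ℝ) (c : ℝ) (g : E n → ℝ) :
    nm (fun x => W (s⁻¹ • x) + c) g = nm W fun y => g (s • y) := by
  rw [nm_shift]
  have h1 := Ex_scale (fun x => W (s⁻¹ • x)) g hs
  have h2 := Ex_scale (fun x => W (s⁻¹ • x)) (fun _ => 1) hs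
  simp only [smul_smul, inv_mul_cancel₀ hs.ne', one_smul] at h1 h2
  have h3 : ((s ^ n)⁻¹ : ℝ) ≠ 0 := by positivity
  rw [nm, nm, Zf, Zf, h1, ← mul_div_mul_left _ _ h3, ← h2]

theorem cen_scale (hs : 0 < s) (c : ℝ) (h : Cen W) : Cen fun x => W (s⁻¹ • x) + c := fun i => by
  have := h i
  rw [m1] at this
  rw [m1, nm_scale hs]
  simp only [PiLp.smul_apply, smul_eq_mul, nm_const_mul, this, mul_zero]

theorem mi_scale (hs : 0 < s) (c : ℝ) {p : Fin n → ℝ} (h : MI W fun i => s ^ 2 * p i) :
    MI (fun x => W (s⁻¹ • x) + c) p := by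
  intro a k ha
  have e2 : ∀ i j, m2 (fun x => W (s⁻¹ • x) + c) i j = s ^ 2 * m2 W i j := fun i j => by
    rw [m2, nm_scale hs, m2, ← nm_const_mul]
    refine congrArg _ (funext fun y => ?_)
    simp only [PiLp.smul_apply, smul_eq_mul]
    ring
  have e3 : ∀ i j l, m3 (fun x => W (s⁻¹ • x) + c) i j l = s ^ 3 * m3 W i j l := fun i j l => by
    rw [m3, nm_scale hs, m3, ← nm_const_mul]
    refine congrArg _ (funext fun y => ?_)
    simp only [PiLp.smul_apply, smul_eq_mul]
    ring
  have h1 := mul_le_mul_of_nonneg_left (h (fun i => a i / s ^ 2) (fun i j l => k i j l / s)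
    fun i => div_nonneg (ha i) (sq_nonneg s)) (pow_pos hs 4).le
  simp only [e2, e3]
  refine le_of_eq_of_le ?_ (h1.trans_eq ?_)
  · rw [Finset.mul_sum]
    refine Finset.sum_congr rfl fun i _ => ?_
    rw [Finset.mul_sum]
    refine Finset.sum_congr rfl fun j _ => ?_
    have a1 : ∑ l, k i j l * (s ^ 3 * m3 W i j l) = s ^ 4 * ∑ l, k i j l / s * m3 W i j l := by
      rw [Finset.mul_sum]
      refine Finset.sum_congr rfl fun l _ => ?_
      field_simp
    have a2 : ∑ l, ∑ d, k i j l * k i j d * (s ^ 2 * m2 W l d) =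
        s ^ 4 * ∑ l, ∑ d, k i j l / s * (k i j d / s) * m2 W l d := by
      rw [Finset.mul_sum]
      refine Finset.sum_congr rfl fun l _ => ?_
      rw [Finset.mul_sum]
      refine Finset.sum_congr rfl fun d _ => ?_
      field_simp
    have a3 : 2 * (s ^ 2 * p i) * (a i / s ^ 2) = 2 * p i * a i := by field_simp
    rw [a1, a2, a3]
    ring
  · simp only [Finset.mul_sum, mul_add]
    congr 1
    · exact Finset.sum_congr rfl fun i _ => Finset.sum_congr rfl fun j _ => by ring
    · refine Finset.sum_congr rfl fun i _ => ?_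
      field_simp

end Vale.Agent.P254B
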