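import Vale.Agent.P254B.Tay

/-! Normalised expectations. -/

namespace Vale.Agent.P254B

open Vale.Agent.P227
open scoped ContDiff Matrix RealInnerProductSpace Topology
open MeasureTheory Filter

variable {n : ℕ}

variable {W f g : E n → ℝ}

theorem Good.smo (h : Good W) : ContDiff ℝ ∞ W := h.sm.smo
theorem Good.cont (h : Good W) : Continuous W := h.smo.continuous
theorem Good.coer (h : Good W) : Coer W := by
  obtain ⟨κ, hκ, hl⟩ := h.low
  exact coer_of_low h.smo hκ hl

theorem Zf_pos (hW : Coer W) (cW : Continuous W) : 0 < Zf W := Ex_one_pos hW cW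

theorem nm_add (hW : Coer W) (cW : Continuous W) (hf : CPB f) (hg : CPB g) :
    nm W (fun x => f x + g x) = nm W f + nm W g := by
  simp only [nm, Ex_add hW cW hf hg, add_div]
theorem nm_sub (hW : Coer W) (cW : Continuous W) (hf : CPB f) (hg : CPB g) :
    nm W (fun x => f x - g x) = nm W f - nm W g := by
  simp only [nm, Ex_sub hW cW hf hg, sub_div]
theorem nm_neg (W f : E n → ℝ) : nm W (fun x => -f x) = -nm W f := by
  simp only [nm, Ex_neg, neg_div]
theorem nm_const_mul (W : E n → ℝ) (a : ℝ) (f : E n → ℝ) :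
    nm W (fun x => a * f x) = a * nm W f := by
  simp only [nm, Ex_const_mul, mul_div_assoc]
theorem nm_const (hW : Coer W) (cW : Continuous W) (a : ℝ) : nm W (fun _ => a) = a := by
  rw [nm, Ex_const]
  exact mul_div_cancel_right₀ _ (Zf_pos hW cW).ne'
theorem nm_sum {ι : Type*} (hW : Coer W) (cW : Continuous W) (s : Finset ι) {F : ι → E n → ℝ}
    (h : ∀ a ∈ s, CPB (F a)) : nm W (fun x => ∑ a ∈ s, F a x) = ∑ a ∈ s, nm W (F a) := by
  simp only [nm, Ex_sum hW cW s h, Finset.sum_div]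
theorem nm_mono (hW : Coer W) (cW : Continuous W) (hf : CPB f) (hg : CPB g)
    (h : ∀ x, f x ≤ g x) : nm W f ≤ nm W g :=
  div_le_div_of_nonneg_right (Ex_mono hW cW hf hg h) (Zf_pos hW cW).le
theorem nm_nonneg (W : E n → ℝ) (h : ∀ x, 0 ≤ f x) : 0 ≤ nm W f :=
  div_nonneg (Ex_nonneg W h) (Ex_nonneg W fun _ => zero_le_one)
theorem nm_shift (W : E n → ℝ) (c : ℝ) (g : E n → ℝ) : nm (fun x => W x + c) g = nm W g := by
  simp only [nm, Zf, Ex_shift]
  exact mul_div_mul_left _ _ (Real.exp_pos _).ne'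
theorem cv_shift (W : E n → ℝ) (c : ℝ) : cv (fun x => W x + c) = cv W := by
  simp only [cv, m1, m2, nm_shift]
theorem en_shift (hW : Coer W) (cW : Continuous W) (pW : CPB W) (c : ℝ) :
    en (fun x => W x + c) = en W := by
  rw [en, en, nm_shift, nm_add hW cW pW (cpb_const c), nm_const hW cW, Zf, Ex_shift,
    Real.log_mul (Real.exp_pos _).ne' (Ex_one_pos hW cW).ne', Real.log_exp, Zf]
  ring
theorem Phi_shift (h : Good W) (c : ℝ) (P : Mat n) : Phi (fun x => W x + c) P = Phi W P := by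
  simp only [Phi, DD, cv_shift, en_shift h.coer h.cont h.sm.pg.cpb]
theorem cpb_coord' (i : Fin n) : CPB fun x : E n => x i := (sm_coord i).pg.cpb
theorem m2_symm (W : E n → ℝ) (i j : Fin n) : m2 W i j = m2 W j i := by
  simp only [m2, mul_comm]
theorem m3_symm (W : E n → ℝ) (i j k : Fin n) : m3 W i j k = m3 W j i k := by
  simp only [m3, mul_comm]
theorem cv_symm (W : E n → ℝ) : (cv W).IsSymm :=
  Matrix.IsSymm.ext fun i j => by simp only [cv, Matrix.of_apply, m2_symm W i j, mul_comm]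
theorem Iso.cv (h : Iso W) : cv W = 1 := by
  ext i j
  simp only [P254B.cv, Matrix.of_apply, h.1 i, h.2 i j, zero_mul, sub_zero]
theorem cur_zero (U : E n → ℝ) (s : ℝ) (k : Fin n) : cur U s k 0 = U := by
  funext y
  simp [cur]

theorem hess_St {V : E n → ℝ} (hV : ContDiff ℝ ∞ V) {P : Mat n} (hP : P.IsSymm) (θ x : E n) :
    hess (St V P θ) x = hess V x + P := by
  have s1 : ContDiff ℝ ∞ fun x : E n => 1 / 2 * qf P x := contDiff_const.mul (sm_qf P).smo
  have e : St V P θ = fun x => (V x + 1 / 2 * qf P x) - ⟪θ, x⟫ := rfl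
  rw [e, hess_sub (hV.add s1) (sm_inner θ).smo, hess_add hV s1, hess_const_mul _ (sm_qf P).smo,
    hess_qf hP, hess_inner, smul_smul]
  simp

theorem Cvx.good {Λ c : ℝ} {V : E n → ℝ} (hV : Cvx Λ V) {P : Mat n} (hP : P.IsSymm) (hc : 0 < c)
    (hcP : ∀ ξ : E n, c * ‖ξ‖ ^ 2 ≤ qf P ξ) (θ : E n) : Good (St V P θ) := by
  refine ⟨(hV.sm.add ((sm_qf P).const_mul _)).sub (sm_inner θ), c, hc, fun x ξ => ?_⟩
  rw [hess_St hV.sm.smo hP, qf_add]
  linarith [(hV.bd x ξ).1, hcP ξ]

end Vale.Agent.P254B
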