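import Vale.Agent.P254B.Base
import Vale.Agent.P227.Ridge

/-! The tilt is controlled by the second moment. -/

namespace Vale.Agent.P254B

open Vale.Agent.P227
open scoped ContDiff Matrix RealInnerProductSpace Topology
open MeasureTheory Filter

variable {n : ℕ}

theorem coe_norm (θ : E n) : ‖θ‖ ≤ ∑ i, |θ i| := by
  refine abs_le_of_sq_le_sq' ?_ (Finset.sum_nonneg fun _ _ => abs_nonneg _) |>.2
  rw [normsq_eq, ← Finset.sum_congr rfl fun i _ => sq_abs (θ i)]
  exact Finset.sum_sq_le_sq_sum_of_nonneg fun _ _ => abs_nonneg _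

theorem coe_D {V : E n → ℝ} (hV : ContDiff ℝ ∞ V) {P : Mat n} (hP : P.IsSymm) (θ : E n)
    (i : Fin n) (x : E n) : D i (St V P θ) x = D i V x + ∑ j, P i j * x j - θ i := by
  have d0 : Differentiable ℝ V := hV.differentiable (by simp)
  have d1 : Differentiable ℝ fun x : E n => qf P x := (sm_qf P).smo.differentiable (by simp)
  have d2 : Differentiable ℝ fun x : E n => ⟪θ, x⟫ := (sm_inner θ).smo.differentiable (by simp)
  have e : St V P θ = fun x => (V x + 1 / 2 * qf P x) - ⟪θ, x⟫ := rfl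
  rw [e, D_sub i (d0.fun_add (d1.const_mul _)) d2, D_add i d0 (d1.const_mul _), D_const_mul i _ d1,
    D_qf hP, Ridge.D_inner]
  ring

theorem coe_theta {Λ b B : ℝ} {V : E n → ℝ} (hV : Cvx Λ V) (hb : 0 < b) : ∃ C : ℝ, 0 < C ∧
    ∀ (P : Mat n) (θ : E n), P.IsSymm →
      (∀ ξ : E n, b * ‖ξ‖ ^ 2 ≤ qf P ξ ∧ qf P ξ ≤ B * ‖ξ‖ ^ 2) →
      ‖θ‖ ≤ C * (1 + nm (St V P θ) fun x => ‖x‖ ^ 2) := by
  have hΛ := hV.nn
  obtain ⟨c, hc⟩ : ∃ c : Fin n → ℝ, ∀ i, c i = |D i V 0| + (n * Λ + n * |B|) := ⟨_, fun _ => rfl⟩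
  have c0 : ∀ i, 0 ≤ c i := fun i => by rw [hc]; positivity
  have s0 : 0 ≤ ∑ i, c i := Finset.sum_nonneg fun i _ => c0 i
  refine ⟨1 + ∑ i, c i, by linarith, fun P θ hP hq => ?_⟩
  have hG := hV.good hP hb (fun ξ => (hq ξ).1) θ
  have m0 : 0 ≤ nm (St V P θ) fun x => ‖x‖ ^ 2 := nm_nonneg _ fun x => sq_nonneg _
  have hH : ∀ i j x, |D i (D j V) x| ≤ Λ := fun i j x =>
    abs_entry_le (hess_symm hV.sm.smo x) (fun ξ => by
      rw [abs_of_nonneg (hV.bd x ξ).1]; exact (hV.bd x ξ).2) i j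
  have hE : ∀ i j, |P i j| ≤ |B| := abs_entry_le hP fun ξ => by
    rw [abs_of_nonneg (le_trans (by positivity) (hq ξ).1)]
    exact (hq ξ).2.trans (mul_le_mul_of_nonneg_right (le_abs_self B) (sq_nonneg _))
  have hpt : ∀ i x, |D i (St V P θ) x + θ i| ≤ c i * (1 + ‖x‖ ^ 2) := fun i x => by
    have a1 := abs_D_sub_le hV.sm.smo hH i x
    have a2 : |∑ j, P i j * x j| ≤ n * |B| * ‖x‖ := by
      refine (Finset.abs_sum_le_sum_abs _ _).trans ((Finset.sum_le_sum
        (g := fun _ => |B| * ‖x‖) fun j _ => ?_).trans_eq (by simp [mul_assoc]))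
      rw [abs_mul]
      exact mul_le_mul (hE i j) (abs_coord_le x j) (abs_nonneg _) (abs_nonneg _)
    have a3 : ‖x‖ ≤ 1 + ‖x‖ ^ 2 := by nlinarith [norm_nonneg x]
    have a4 : (n * Λ + n * |B|) * ‖x‖ ≤ (n * Λ + n * |B|) * (1 + ‖x‖ ^ 2) :=
      mul_le_mul_of_nonneg_left a3 (by positivity)
    have a5 : |D i V 0| ≤ |D i V 0| * (1 + ‖x‖ ^ 2) :=
      le_mul_of_one_le_right (abs_nonneg _) (by nlinarith [sq_nonneg ‖x‖])
    have e : D i (St V P θ) x + θ i = D i V 0 + (D i V x - D i V 0) + ∑ j, P i j * x j := by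
      rw [coe_D hV.sm.smo hP]
      ring
    rw [e, hc]
    have a6 := abs_add_three (D i V 0) (D i V x - D i V 0) (∑ j, P i j * x j)
    linarith
  have hth : ∀ i, |θ i| ≤ c i * (1 + nm (St V P θ) fun x => ‖x‖ ^ 2) := fun i => by
    have p1 : CPB (D i (St V P θ)) := (hG.sm.pg.D i).cpb
    have p2 : CPB fun x : E n => 1 + ‖x‖ ^ 2 := (cpb_const 1).add (cpb_norm.pow 2)
    have z : nm (St V P θ) (D i (St V P θ)) = 0 := by
      have := Ex_D hG.coer hG.sm.pg (pg_const 1) i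
      simp only [D_const, one_mul] at this
      rw [nm]
      refine div_eq_zero_iff.2 (Or.inl (this.symm.trans ?_))
      simp [Ex]
    have e1 : nm (St V P θ) (fun x => D i (St V P θ) x + θ i) = θ i := by
      rw [nm_add hG.coer hG.cont p1 (cpb_const _), z, nm_const hG.coer hG.cont, zero_add]
    have e2 : ∀ a : ℝ, nm (St V P θ) (fun x => a * (1 + ‖x‖ ^ 2)) =
        a * (1 + nm (St V P θ) fun x => ‖x‖ ^ 2) := fun a => by
      rw [nm_const_mul, nm_add hG.coer hG.cont (cpb_const 1) (cpb_norm.pow 2),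
        nm_const hG.coer hG.cont]
    have u1 := nm_mono hG.coer hG.cont (p1.add (cpb_const (θ i))) (p2.const_mul (c i))
      fun x => (abs_le.1 (hpt i x)).2
    have u2 := nm_mono hG.coer hG.cont (p2.const_mul (-c i)) (p1.add (cpb_const (θ i)))
      fun x => by linarith [(abs_le.1 (hpt i x)).1]
    rw [e1, e2] at u1 u2
    exact abs_le.2 ⟨by linarith, u1⟩
  refine (coe_norm θ).trans ((Finset.sum_le_sum fun i _ => hth i).trans ?_)
  rw [← Finset.sum_mul]
  exact mul_le_mul_of_nonneg_right (by linarith) (by linarith)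

end Vale.Agent.P254B
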