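import Vale.Agent.P254B.Aff

/-! Continuity of the functionals in the state. -/

namespace Vale.Agent.P254B

open Vale.Agent.P227
open scoped ContDiff Matrix RealInnerProductSpace Topology
open MeasureTheory Filter

variable {n : ℕ}

theorem cont_det_psd {M : Mat n} (hM : M.PosSemidef) : 1 ≤ (1 + M).det := by
  have hS : (1 + M).PosSemidef := Matrix.PosSemidef.one.add hM
  rw [hS.1.det_eq_prod_eigenvalues]
  refine Finset.one_le_prod fun i _ => ?_
  have h1 := hS.1.eigenvalues_eq i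
  have h2 : ‖hS.1.eigenvectorBasis i‖ = 1 := hS.1.eigenvectorBasis.orthonormal.1 i
  have h3 : qf (1 + M) (hS.1.eigenvectorBasis i) = hS.1.eigenvalues i := by
    rw [h1, qf_eq_dot]
    rfl
  have h4 := qf_nonneg hM (hS.1.eigenvectorBasis i)
  rw [qf_add, qf_one, h2] at h3
  show (1 : ℝ) ≤ hS.1.eigenvalues i
  linarith

theorem one_le_det {A P : Mat n} (hA : A.PosSemidef) (hP : P.PosSemidef) :
    1 ≤ (1 + A * P).det := by
  obtain ⟨B, hB, rfl⟩ := exists_sqrt hA
  have h := cont_det_psd (hP.mul_mul_conjTranspose_same B)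
  rw [show Bᴴ = B from hB] at h
  rw [Matrix.mul_assoc, Matrix.det_one_add_mul_comm]
  exact h

theorem cont_lower {Λ b : ℝ} {V : E n → ℝ} (hV : Cvx Λ V) (hb : 0 < b) (M : ℝ) :
    ∃ a : ℝ, ∀ (P : Mat n) (θ : E n), (∀ ξ : E n, b * ‖ξ‖ ^ 2 ≤ qf P ξ) → ‖θ‖ ≤ M →
      ∀ x, a + b / 4 * ‖x‖ ^ 2 ≤ St V P θ x := by
  let l : E n := WithLp.toLp 2 fun i => D i V 0
  refine ⟨V 0 - (‖l‖ + M) ^ 2 / b, fun P θ hP hθ x => ?_⟩
  have h0 : ∀ ξ : E n, qf (0 : Mat n) ξ = 0 := fun ξ => by simp [qf]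
  have h1 := tay_lower (P := 0) hV.sm.smo (fun y ξ => by rw [h0]; exact (hV.bd y ξ).1) x
  have h2 : ∑ i, D i V 0 * x i = ⟪l, x⟫ := by rw [inner_eq_sum]
  rw [h2, h0] at h1
  have h3 := (abs_le.1 (abs_real_inner_le_norm l x)).1
  have h4 := real_inner_le_norm θ x
  have h5 := mul_le_mul_of_nonneg_right hθ (norm_nonneg x)
  have h6 := hP x
  have h7 : (‖l‖ + M) ^ 2 / b - (‖l‖ + M) * ‖x‖ + b / 4 * ‖x‖ ^ 2 =
      ((‖l‖ + M) - b / 2 * ‖x‖) ^ 2 / b := by
    field_simp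
    ring
  have h8 : 0 ≤ ((‖l‖ + M) - b / 2 * ‖x‖) ^ 2 / b := by positivity
  simp only [St]
  nlinarith

theorem cont_St (V : E n → ℝ) (x : E n) :
    Continuous fun s : Mat n × E n => St V s.1 s.2 x := by
  simp only [St, qf]
  fun_prop

theorem cont_Ex {Λ b : ℝ} {V g : E n → ℝ} (hV : Cvx Λ V) (hb : 0 < b) (hg : CPB g) :
    ContinuousOn (fun s : Mat n × E n => Ex (St V s.1 s.2) g)
      {s | s.1.IsSymm ∧ ∀ ξ : E n, b * ‖ξ‖ ^ 2 ≤ qf s.1 ξ} := by
  intro s₀ _
  have : FirstCountableTopology (Mat n) :=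
    inferInstanceAs (FirstCountableTopology (Fin n → Fin n → ℝ))
  obtain ⟨a, ha⟩ := cont_lower hV hb (‖s₀.2‖ + 1)
  obtain ⟨cg, C, m, hg⟩ := hg
  have hn : ∀ᶠ s : Mat n × E n in 𝓝 s₀, ‖s.2‖ < ‖s₀.2‖ + 1 :=
    (continuous_snd.norm.continuousAt (x := s₀)).eventually_lt continuousAt_const (lt_add_one _)
  refine continuousWithinAt_of_dominated
    (bound := fun x : E n => C * Real.exp (-a) * ((1 + ‖x‖) ^ m * Real.exp (-(b / 4 * ‖x‖ ^ 2))))
    ?_ ?_ ((integrable_poly_gauss n m (by positivity)).const_mul _) (ae_of_all _ fun x => ?_)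
  · filter_upwards [self_mem_nhdsWithin] with s hs
    have := (hV.good hs.1 hb hs.2 s.2).cont
    exact Continuous.aestronglyMeasurable (by fun_prop)
  · filter_upwards [self_mem_nhdsWithin, nhdsWithin_le_nhds hn] with s hs h2
    exact ae_of_all _ fun x => Ibp.pt_le (ha s.1 s.2 hs.2 h2.le x) (hg x)
  · have := cont_St V x
    exact Continuous.continuousWithinAt (by fun_prop)

theorem cont_nm {Λ b : ℝ} {V g : E n → ℝ} (hV : Cvx Λ V) (hb : 0 < b) (hg : CPB g) :
    ContinuousOn (fun s : Mat n × E n => nm (St V s.1 s.2) g)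
      {s | s.1.IsSymm ∧ ∀ ξ : E n, b * ‖ξ‖ ^ 2 ≤ qf s.1 ξ} :=
  (cont_Ex hV hb hg).div (cont_Ex hV hb (cpb_const 1)) fun s hs =>
    (Zf_pos (hV.good hs.1 hb hs.2 s.2).coer (hV.good hs.1 hb hs.2 s.2).cont).ne'

theorem cont_split {W V : E n → ℝ} (hW : Coer W) (cW : Continuous W) (hV : CPB V) (P : Mat n)
    (θ : E n) : nm W (St V P θ) =
      nm W V + 1 / 2 * (∑ i, ∑ j, P i j * m2 W i j) - ∑ i, θ i * m1 W i := by
  have c2 : ∀ i j, CPB fun x : E n => P i j * (x i * x j) := fun i j =>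
    ((cpb_coord i).mul (cpb_coord j)).const_mul _
  have c1 : ∀ i, CPB fun x : E n => θ i * x i := fun i => (cpb_coord i).const_mul _
  have c3 : ∀ i, CPB fun x : E n => ∑ j, P i j * (x i * x j) := fun i =>
    cpb_sum _ fun j _ => c2 i j
  have c4 : CPB fun x : E n => ∑ i, ∑ j, P i j * (x i * x j) := cpb_sum _ fun i _ => c3 i
  have e : St V P θ = fun x =>
      (V x + 1 / 2 * ∑ i, ∑ j, P i j * (x i * x j)) - ∑ i, θ i * x i := by
    funext x
    simp only [St, qf, inner_eq_sum, mul_assoc]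
  rw [e, nm_sub hW cW (hV.add (c4.const_mul _)) (cpb_sum _ fun i _ => c1 i),
    nm_add hW cW hV (c4.const_mul _), nm_const_mul, nm_sum hW cW _ fun i _ => c3 i,
    nm_sum hW cW _ fun i _ => c1 i]
  simp only [nm_sum hW cW _ fun j _ => c2 _ j, nm_const_mul, m1, m2]

theorem cont_state {Λ b : ℝ} {V : E n → ℝ} (hV : Cvx Λ V) (hb : 0 < b) (η : ℝ) :
    ContinuousOn (fun s : Mat n × E n =>
      Phi (St V s.1 s.2) s.1 - η * nm (St V s.1 s.2) fun x => ‖x‖ ^ 2)
      {s | s.1.IsSymm ∧ ∀ ξ : E n, b * ‖ξ‖ ^ 2 ≤ qf s.1 ξ} := by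
  set S : Set (Mat n × E n) := {s | s.1.IsSymm ∧ ∀ ξ : E n, b * ‖ξ‖ ^ 2 ≤ qf s.1 ξ} with hS
  have hG : ∀ s ∈ S, Good (St V s.1 s.2) := fun s hs => hV.good hs.1 hb hs.2 s.2
  have h1 : ∀ i, ContinuousOn (fun s : Mat n × E n => m1 (St V s.1 s.2) i) S := fun i =>
    cont_nm hV hb (cpb_coord i)
  have h2 : ∀ i j, ContinuousOn (fun s : Mat n × E n => m2 (St V s.1 s.2) i j) S := fun i j =>
    cont_nm hV hb ((cpb_coord i).mul (cpb_coord j))
  have hc : ContinuousOn (fun s : Mat n × E n => cv (St V s.1 s.2)) S :=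
    continuousOn_pi.2 fun i => continuousOn_pi.2 fun j => (h2 i j).sub ((h1 i).mul (h1 j))
  have hP : ∀ i j, Continuous fun s : Mat n × E n => s.1 i j := fun i j => by fun_prop
  have hθ : ∀ i, Continuous fun s : Mat n × E n => s.2 i := fun i => by fun_prop
  have hW : ContinuousOn (fun s : Mat n × E n => nm (St V s.1 s.2) (St V s.1 s.2)) S := by
    refine ContinuousOn.congr ?_ fun s hs =>
      cont_split (hG s hs).coer (hG s hs).cont hV.sm.pg.cpb s.1 s.2
    exact ((cont_nm hV hb hV.sm.pg.cpb).add (continuousOn_const.mul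
      (continuousOn_finsetSum _ fun i _ => continuousOn_finsetSum _ fun j _ =>
        (hP i j).continuousOn.mul (h2 i j)))).sub
      (continuousOn_finsetSum _ fun i _ => (hθ i).continuousOn.mul (h1 i))
  have hZ : ContinuousOn (fun s : Mat n × E n => Real.log (Zf (St V s.1 s.2))) S :=
    (cont_Ex hV hb (cpb_const 1)).log fun s hs => (Zf_pos (hG s hs).coer (hG s hs).cont).ne'
  have hdet : Continuous fun A : Mat n => A.det := continuous_id.matrix_det
  have hd1 : ContinuousOn (fun s : Mat n × E n => Real.log (cv (St V s.1 s.2)).det) S :=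
    (hdet.comp_continuousOn hc).log fun s hs =>
      (cv_posDef (hG s hs).coer (hG s hs).cont).det_pos.ne'
  have hm : Continuous fun q : Mat n × Mat n => (1 + q.1 * q.2).det :=
    (continuous_const.add (continuous_fst.matrix_mul continuous_snd)).matrix_det
  have hd2 : ContinuousOn
      (fun s : Mat n × E n => Real.log (1 + cv (St V s.1 s.2) * s.1).det) S :=
    (hm.comp_continuousOn (hc.prodMk continuous_fst.continuousOn)).log fun s hs =>
      (one_pos.trans_le (one_le_det (cv_posDef (hG s hs).coer (hG s hs).cont).posSemidef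
        (psd_of_qf hs.1 fun ξ => (mul_nonneg hb.le (sq_nonneg _)).trans (hs.2 ξ)))).ne'
  exact (((continuousOn_const.mul hd1).sub (hW.add hZ)).add hd2).sub
    (continuousOn_const.mul (cont_nm hV hb (cpb_norm.pow 2)))

end Vale.Agent.P254B
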