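import Vale.Agent.P227.Exist
import Vale.Agent.P227.Glue
import Vale.Agent.P227.ConcA

/-! Definitions for the explicit bound on the isotropic constant. -/

namespace Vale.Agent.P254B

open Vale.Agent.P227
open scoped ContDiff Matrix RealInnerProductSpace Topology
open MeasureTheory Filter

variable {n : ℕ}

noncomputable section

/-- moment potential with qualitative global bounds (no symmetry) -/
structure Pot (Θ W : E n → ℝ) : Prop extends LPot Θ W where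
  mT : Sm Θ
  mW : Sm W
  low : ∃ c : ℝ, 0 < c ∧ ∀ x ξ, c * ‖ξ‖ ^ 2 ≤ qf (hess Θ x) ξ

/-- approximate solvability of `(l - L) θ = u` modulo affine functions -/
def ASolv (τ : E n → Mat n) (l : ℝ) : Prop :=
  ∀ u, Sm u → ∀ ε : ℝ, 0 < ε →
    ∃ θ, Sm θ ∧ Sm (rad θ) ∧ N2 1 ε (fun x => Aop τ l θ x - u x)
/-- linear a priori estimate -/
def APri (C : ℝ) (τ : E n → Mat n) : Prop :=
  ∀ (l : ℝ) (θ : E n → ℝ) (M : ℝ), -1 ≤ l → 0 ≤ M → Sm θ →
    N2 1 M (Aop τ l θ) → N2 3 (C * M) θ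

def Low (κ : ℝ) (W : E n → ℝ) : Prop := ∀ x ξ, κ * ‖ξ‖ ^ 2 ≤ qf (hess W x) ξ
/-- smooth, bounded higher derivatives, uniformly convex -/
structure Good (W : E n → ℝ) : Prop where
  sm : Sm W
  low : ∃ κ : ℝ, 0 < κ ∧ Low κ W
/-- smooth convex with bounded Hessian -/
structure Cvx (Λ : ℝ) (V : E n → ℝ) : Prop where
  sm : Sm V
  nn : 0 ≤ Λ
  bd : ∀ x ξ, 0 ≤ qf (hess V x) ξ ∧ qf (hess V x) ξ ≤ Λ * ‖ξ‖ ^ 2

def Zf (W : E n → ℝ) : ℝ := Ex W fun _ => 1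
/-- normalised expectation -/
def nm (W g : E n → ℝ) : ℝ := Ex W g / Zf W
def m1 (W : E n → ℝ) (i : Fin n) : ℝ := nm W fun x => x i
def m2 (W : E n → ℝ) (i j : Fin n) : ℝ := nm W fun x => x i * x j
def m3 (W : E n → ℝ) (i j k : Fin n) : ℝ := nm W fun x => x i * x j * x k
def Cen (W : E n → ℝ) : Prop := ∀ i, m1 W i = 0
def Iso (W : E n → ℝ) : Prop := Cen W ∧ ∀ i j, m2 W i j = (1 : Mat n) i j
/-- covariance matrix -/
def cv (W : E n → ℝ) : Mat n := Matrix.of fun i j => m2 W i j - m1 W i * m1 W j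
/-- entropy -/
def en (W : E n → ℝ) : ℝ := nm W W + Real.log (Zf W)
def DD (W : E n → ℝ) : ℝ := 1 / 2 * Real.log (cv W).det - en W
def Phi (W : E n → ℝ) (P : Mat n) : ℝ := DD W + Real.log (1 + cv W * P).det
def cst (n : ℕ) : ℝ := n * Real.log 2 - n / 2 * Real.log (2 * Real.pi * Real.exp 1)
/-- diagonal quadratic form -/
def dq (p : Fin n → ℝ) (ξ : E n) : ℝ := ∑ i, p i * ξ i ^ 2
/-- the moment inequality -/
def MI (W : E n → ℝ) (p : Fin n → ℝ) : Prop :=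
  ∀ (a : Fin n → ℝ) (k : Fin n → Fin n → Fin n → ℝ), (∀ i, 0 ≤ a i) →
    ∑ i, ∑ j, (1 + 2 * p i * a i) * (m2 W i j ^ 2 + ∑ c, k i j c * m3 W i j c -
      ∑ c, ∑ d, k i j c * k i j d * m2 W c d) ≤
    2 * ∑ i, ∑ j, m2 W i j ^ 2 + ∑ i, p i * a i ^ 2 * m2 W i i
def aff (a : E n) (S : Mat n) (y : E n) : E n := a + lin S y
/-- state potential -/
def St (V : E n → ℝ) (P : Mat n) (θ : E n) : E n → ℝ := fun x => V x + 1 / 2 * qf P x - ⟪θ, x⟫
/-- second order expansion at `0` -/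
def Jet (f : ℝ → ℝ) (c₁ c₂ : ℝ) : Prop :=
  Asymptotics.IsLittleO (𝓝 0) (fun t => f t - f 0 - c₁ * t - c₂ * t ^ 2) fun t : ℝ => t ^ 2
/-- the test curve of potentials -/
def cur (U : E n → ℝ) (s : ℝ) (k : Fin n) (t : ℝ) : E n → ℝ :=
  fun y => U y - t * (s * y k) + t ^ 2 * (‖y‖ ^ 2 / 2)
/-- Gaussian weighted integral over a set -/
def Kx (K : Set (E n)) (b : ℝ) (g : E n → ℝ) : ℝ :=
  ∫ x in K, g x * Real.exp (-(b / 2 * ‖x‖ ^ 2))
def cvK (K : Set (E n)) (b : ℝ) : Mat n := Matrix.of fun i j =>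
  Kx K b (fun x => x i * x j) / Kx K b (fun _ => 1) -
    Kx K b (fun x => x i) / Kx K b (fun _ => 1) * (Kx K b (fun x => x j) / Kx K b (fun _ => 1))

end

end Vale.Agent.P254B
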