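import Vale.Agent.P254B.Cen

/-! The bound for nearly Gaussian potentials. -/

namespace Vale.Agent.P254B

open Vale.Agent.P227
open scoped ContDiff Matrix RealInnerProductSpace Topology
open MeasureTheory Filter

variable {n : ℕ}

theorem end_sq {U : E n → ℝ} (hi : Iso U) (i : Fin n) : nm U (fun x => x i ^ 2) = 1 := by
  have h := hi.2 i i
  rw [Matrix.one_apply_eq, m2] at h
  simpa only [sq] using h

theorem end_dq (ρ : Fin n → ℝ) (i : Fin n) : dq ρ (ev i) = ρ i := by
  simp [dq, ev]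

theorem cramer {U : E n → ℝ} (h : Good U) (hi : Iso U) {γ : ℝ} {ρ : Fin n → ℝ}
    (hu : ∀ x ξ, qf (hess U x) ξ ≤ γ * dq ρ ξ) (i : Fin n) : 1 ≤ γ * ρ i := by
  have h1 := cr_lower (K := γ * ρ i) h (ev i) fun x => by
    have := hu x (ev i)
    rwa [end_dq] at this
  have h2 : (fun x : E n => ⟪ev i, x⟫ ^ 2) = fun x => x i ^ 2 := by
    funext x
    simp [ev, EuclideanSpace.inner_single_left]
  have h3 : ‖(ev i : E n)‖ = 1 := by simp [ev]
  rwa [h2, end_sq hi, h3, one_pow, mul_one] at h1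

theorem end_cpb (g : Fin n → ℝ) : CPB fun x : E n => ∑ i, g i * x i :=
  cpb_sum Finset.univ fun i _ => (cpb_coord i).const_mul (g i)

theorem end_low {U : E n → ℝ} (h : Good U) (hi : Iso U) {ρ : Fin n → ℝ}
    (hl : ∀ x ξ, dq ρ ξ ≤ qf (hess U x) ξ) : U 0 + 1 / 2 * ∑ i, ρ i ≤ nm U U := by
  have c1 := end_cpb fun i => D i U 0
  have c2 : ∀ i ∈ (Finset.univ : Finset (Fin n)), CPB fun x : E n => ρ i * x i ^ 2 :=
    fun i _ => ((cpb_coord i).pow 2).const_mul (ρ i)
  have c3 := (cpb_sum Finset.univ c2).const_mul (1 / 2)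
  have h1 := nm_mono h.coer h.cont (((cpb_const (U 0)).add c1).add c3) h.sm.pg.cpb fun x => by
    have := tay_lower (P := Matrix.diagonal ρ) h.smo (fun x ξ => by
      rw [qf_diagonal]
      exact hl x ξ) x
    rwa [qf_diagonal] at this
  rw [nm_add h.coer h.cont ((cpb_const (U 0)).add c1) c3, nm_add h.coer h.cont (cpb_const _) c1,
    nm_const h.coer h.cont, nm_const_mul, nm_sum h.coer h.cont _ c2,
    nm_sum h.coer h.cont _ fun i _ => (cpb_coord i).const_mul (D i U 0)] at h1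
  have e1 : ∑ i, nm U (fun x => D i U 0 * x i) = 0 :=
    Finset.sum_eq_zero fun i _ => by
      rw [nm_const_mul]
      exact mul_eq_zero_of_right _ (hi.1 i)
  have e2 : ∑ i, nm U (fun x => ρ i * x i ^ 2) = ∑ i, ρ i :=
    Finset.sum_congr rfl fun i _ => by rw [nm_const_mul, end_sq hi, mul_one]
  rwa [e1, e2, add_zero] at h1

theorem end_Z {U : E n → ℝ} (h : Good U) {b : ℝ} (hb : 0 < b)
    (hu : ∀ x ξ, qf (hess U x) ξ ≤ 2 * b * ‖ξ‖ ^ 2) :
    -U 0 + n / 2 * Real.log (Real.pi / b) ≤ Real.log (Zf U) := by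
  have cG : Continuous fun x : E n => b * ‖x‖ ^ 2 := by fun_prop
  have hG : Coer fun x : E n => b * ‖x‖ ^ 2 := ⟨b, 0, hb, fun x => by rw [sub_zero]⟩
  have eG : Ev fun x : E n => b * ‖x‖ ^ 2 := fun x => by simp only [norm_neg]
  have c1 := end_cpb fun i => D i U 0
  have e1 : Ex (fun x : E n => b * ‖x‖ ^ 2) (fun x => ∑ i, D i U 0 * x i) = 0 := by
    have h1 := Ex_neg_arg _ (fun x : E n => ∑ i, D i U 0 * x i) eG
    simp only [PiLp.neg_apply, mul_neg, Finset.sum_neg_distrib] at h1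
    rw [Ex_neg] at h1
    linarith
  have e2 : Ex (fun x : E n => b * ‖x‖ ^ 2) (fun _ => 1) = (Real.pi / b) ^ (n / 2 : ℝ) := by
    have h1 := GaussianFourier.integral_rexp_neg_mul_sq_norm (V := E n) hb
    rw [finrank_euclideanSpace_fin] at h1
    simpa only [Ex, one_mul, neg_mul] using h1
  have c2 := ((cpb_const 1).sub c1).const_mul (Real.exp (-U 0))
  have h2 : Ex (fun x : E n => b * ‖x‖ ^ 2)
      (fun x => Real.exp (-U 0) * (1 - ∑ i, D i U 0 * x i)) ≤ Zf U := by
    refine integral_mono (integrable_Ex hG cG c2) (integrable_Ex h.coer h.cont (cpb_const 1))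
      fun x => ?_
    have t1 := tay_upper (P := (2 * b) • (1 : Mat n)) h.smo (fun x ξ => by
      rw [qf_smul, qf_one]
      exact hu x ξ) x
    rw [qf_smul, qf_one] at t1
    have t2 := Real.add_one_le_exp (-∑ i, D i U 0 * x i)
    show Real.exp (-U 0) * (1 - ∑ i, D i U 0 * x i) * Real.exp (-(b * ‖x‖ ^ 2)) ≤
      1 * Real.exp (-U x)
    calc Real.exp (-U 0) * (1 - ∑ i, D i U 0 * x i) * Real.exp (-(b * ‖x‖ ^ 2))
        ≤ Real.exp (-U 0) * Real.exp (-∑ i, D i U 0 * x i) * Real.exp (-(b * ‖x‖ ^ 2)) :=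
          mul_le_mul_of_nonneg_right
            (mul_le_mul_of_nonneg_left (by linarith) (Real.exp_pos _).le) (Real.exp_pos _).le
      _ ≤ 1 * Real.exp (-U x) := by
          rw [one_mul, ← Real.exp_add, ← Real.exp_add]
          exact Real.exp_le_exp.2 (by linarith)
  rw [Ex_const_mul, Ex_sub hG cG (cpb_const 1) c1, e1, e2, sub_zero] at h2
  have hp : 0 < Real.pi / b := div_pos Real.pi_pos hb
  have h3 := Real.log_le_log (by positivity) h2
  rwa [Real.log_mul (Real.exp_pos _).ne' (by positivity), Real.log_exp, Real.log_rpow hp] at h3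

theorem end_iso {U : E n → ℝ} (h : Good U) (hi : Iso U) {γ : ℝ} (hγ : 0 ≤ γ) {ρ : Fin n → ℝ}
    (h0 : ∀ i, 0 < ρ i) (h1 : ∀ i, ρ i ≤ 1) (hl : ∀ x ξ, dq ρ ξ ≤ qf (hess U x) ξ)
    (hu : ∀ x ξ, qf (hess U x) ξ ≤ (1 + γ) * dq ρ ξ) :
    Phi U (Matrix.diagonal ρ) ≤ cst n + n * γ := by
  have hg : 0 < 1 + γ := by linarith
  have a1 := end_low h hi hl
  have a2 := end_Z h (b := (1 + γ) / 2) (by positivity) fun x ξ => (hu x ξ).trans (by
    rw [show 2 * ((1 + γ) / 2) = 1 + γ by ring, normsq_eq]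
    exact mul_le_mul_of_nonneg_left (Finset.sum_le_sum fun i _ =>
      mul_le_of_le_one_left (sq_nonneg _) (h1 i)) hg.le)
  have a3 : Real.log (1 + (1 : Mat n) * Matrix.diagonal ρ).det ≤ n * Real.log 2 := by
    rw [Matrix.one_mul, ← Matrix.diagonal_one, Matrix.diagonal_add, Matrix.det_diagonal,
      Real.log_prod fun i _ => by linarith [h0 i]]
    refine (Finset.sum_le_card_nsmul _ _ (Real.log 2) fun i _ =>
      Real.log_le_log (by linarith [h0 i]) (by linarith [h1 i])).trans_eq ?_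
    rw [Finset.card_univ, Fintype.card_fin, nsmul_eq_mul]
  have a4 : n * (1 - γ) ≤ ∑ i, ρ i := by
    refine Eq.trans_le ?_ (Finset.card_nsmul_le_sum Finset.univ ρ (1 - γ) fun i _ => ?_)
    · rw [Finset.card_univ, Fintype.card_fin, nsmul_eq_mul]
    · have := cramer h hi hu i
      nlinarith [h1 i, h0 i]
  have a5 : Real.log (1 + γ) ≤ γ := by
    have := Real.log_le_sub_one_of_pos hg
    linarith
  have a6 : Real.log (Real.pi / ((1 + γ) / 2)) = Real.log (2 * Real.pi) - Real.log (1 + γ) := by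
    rw [← Real.log_div (by positivity) hg.ne']
    congr 1
    field_simp
  have a7 : Real.log (2 * Real.pi * Real.exp 1) = Real.log (2 * Real.pi) + 1 := by
    rw [Real.log_mul (by positivity) (Real.exp_pos _).ne', Real.log_exp]
  have a8 : (n : ℝ) / 2 * Real.log (1 + γ) ≤ n / 2 * γ :=
    mul_le_mul_of_nonneg_left a5 (by positivity)
  rw [a6] at a2
  rw [Phi, DD, hi.cv, Matrix.det_one, Real.log_one, en, cst, a7]
  linarith

end Vale.Agent.P254B
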