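import Vale.Agent.P254B.Base

/-! Smooth convex potentials of a convex body. -/

namespace Vale.Agent.P254B

open Vale.Agent.P227
open scoped ContDiff Matrix RealInnerProductSpace Topology
open MeasureTheory Filter

variable {n : ℕ}

theorem fina_sep {K : Set (E n)} (hK : IsClosed K) (hc : Convex ℝ K) :
    ∃ (w : ℕ → E n) (α : ℕ → ℝ), (∀ m, ∀ y ∈ K, ⟪w m, y⟫ ≤ α m) ∧
      ∀ x ∉ K, ∃ m, α m < ⟪w m, x⟫ := by
  let ι := {p : E n × ℝ // ∀ y ∈ K, ⟪p.1, y⟫ ≤ p.2}
  let s : ι → Set (E n) := fun p => {x | p.1.2 < ⟪p.1.1, x⟫}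
  have hs : ∀ p, IsOpen (s p) := fun p =>
    isOpen_lt continuous_const (continuous_const.inner continuous_id)
  obtain ⟨T, hT, hU⟩ := TopologicalSpace.isOpen_iUnion_countable s hs
  let p0 : ι := ⟨(0, 0), fun y _ => by simp⟩
  obtain ⟨f, hf⟩ := (hT.insert p0).exists_eq_range (Set.insert_nonempty p0 T)
  refine ⟨fun m => (f m).1.1, fun m => (f m).1.2, fun m => (f m).2, fun x hx => ?_⟩
  obtain ⟨g, u, h1, h2⟩ := geometric_hahn_banach_point_closed hc hK hx
  have e : ∀ y : E n, ⟪-(InnerProductSpace.toDual ℝ (E n)).symm g, y⟫ = -g y := fun y => by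
    rw [inner_neg_left, InnerProductSpace.toDual_symm_apply]
  let p : ι := ⟨(-(InnerProductSpace.toDual ℝ (E n)).symm g, -u), fun y hy => by
    show ⟪-(InnerProductSpace.toDual ℝ (E n)).symm g, y⟫ ≤ -u
    rw [e]
    linarith [h2 y hy]⟩
  have hp : x ∈ ⋃ i, s i := Set.mem_iUnion.2 ⟨p, by
    show -u < ⟪-(InnerProductSpace.toDual ℝ (E n)).symm g, x⟫
    rw [e]
    linarith⟩
  rw [← hU] at hp
  obtain ⟨q, hq, hxq⟩ := Set.mem_iUnion₂.1 hp
  have hq' : q ∈ Set.range f := hf ▸ Set.mem_insert_of_mem p0 hq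
  obtain ⟨m, rfl⟩ := hq'
  exact ⟨m, hxq⟩

theorem fina_dd (G : ℝ → ℝ) (a s : ℝ) :
    deriv (deriv fun s => G (s - a)) s = deriv (deriv G) (s - a) := by
  have e : (deriv fun s => G (s - a)) = fun s => deriv G (s - a) :=
    funext fun s => deriv_comp_sub_const G a s
  rw [e]
  exact deriv_comp_sub_const (deriv G) a s

theorem fina_zero {G : ℝ → ℝ} (h0 : ∀ s, s ≤ 0 → G s = 0) (h1 : ∀ s, 1 ≤ s → deriv G s = 1)
    (s : ℝ) (hs : s ∉ Set.Icc (0 : ℝ) 1) : deriv (deriv G) s = 0 := by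
  rcases lt_or_ge s 0 with h | h
  · have e1 : ∀ r < 0, deriv G r = 0 := fun r hr => by
      have : G =ᶠ[𝓝 r] fun _ => 0 :=
        (eventually_lt_nhds hr).mono fun y hy => h0 y hy.le
      rw [this.deriv_eq]
      simp
    have : deriv G =ᶠ[𝓝 s] fun _ => 0 := (eventually_lt_nhds h).mono e1
    rw [this.deriv_eq]
    simp
  · have h2 : 1 < s := by
      by_contra h3
      exact hs ⟨h, not_lt.1 h3⟩
    have : deriv G =ᶠ[𝓝 s] fun _ => 1 := (eventually_gt_nhds h2).mono fun y hy => h1 y hy.le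
    rw [this.deriv_eq]
    simp

theorem exists_pot {K : Set (E n)} (hK : IsClosed K) (hc : Convex ℝ K) :
    ∃ (V : ℕ → E n → ℝ) (Λ : ℕ → ℝ), (∀ j, Cvx (Λ j) (V j)) ∧ (∀ j x, 0 ≤ V j x) ∧
      (∀ j, ∀ x ∈ K, V j x = 0) ∧ ∀ x ∉ K, Tendsto (fun j => V j x) atTop atTop := by
  obtain ⟨w, α, hin, hout⟩ := fina_sep hK hc
  obtain ⟨G, hG, h0, hpos, -, hcv, h1⟩ := exists_G
  have hnn : ∀ s, 0 ≤ G s := fun s => by
    rcases le_or_gt s 0 with h | h
    · exact (h0 s h).ge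
    · exact (hpos s h).le
  have hsupp : HasCompactSupport (deriv (deriv G)) :=
    HasCompactSupport.intro isCompact_Icc (fina_zero h0 h1)
  obtain ⟨C, hC⟩ :=
    (Ridge.smo_deriv (Ridge.smo_deriv hG)).continuous.bounded_above_of_compact_support hsupp
  have hC0 : 0 ≤ C := (norm_nonneg _).trans (hC 0)
  have hsm : ∀ a : ℝ, ContDiff ℝ ∞ fun s => G (s - a) := fun a =>
    hG.comp (contDiff_id.sub contDiff_const)
  have hSm : ∀ m, Sm (ridge (w m) fun s => G (s - α m)) := fun m => by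
    refine sm_ridge (w m) (hsm _) (HasCompactSupport.intro
      (isCompact_Icc (a := α m) (b := α m + 1)) fun s hs => ?_)
    rw [fina_dd]
    refine fina_zero h0 h1 _ fun h => hs ⟨?_, ?_⟩
    · linarith [h.1]
    · linarith [h.2]
  refine ⟨fun j x => (j : ℝ) * ∑ m ∈ Finset.range j, ridge (w m) (fun s => G (s - α m)) x,
    fun j => (j : ℝ) * ∑ m ∈ Finset.range j, C * ‖w m‖ ^ 2, fun j => ⟨?_, ?_, fun x ξ => ?_⟩,
    fun j x => ?_, fun j x hx => ?_, fun x hx => ?_⟩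
  · exact (sm_sum (Finset.range j) fun m _ => hSm m).const_mul _
  · positivity
  · rw [hess_const_mul _ (sm_sum (Finset.range j) fun m _ => hSm m).1,
      hess_sum (Finset.range j) fun m _ => (hSm m).1, qf_smul, qf_sum]
    simp only [qf_hess_ridge _ (hsm _), fina_dd]
    refine ⟨mul_nonneg (Nat.cast_nonneg j)
      (Finset.sum_nonneg fun m _ => mul_nonneg (hcv _) (sq_nonneg _)), ?_⟩
    rw [mul_assoc, Finset.sum_mul]
    refine mul_le_mul_of_nonneg_left (Finset.sum_le_sum fun m _ => ?_) (Nat.cast_nonneg j)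
    rw [mul_assoc, ← mul_pow, ← sq_abs]
    exact mul_le_mul ((le_abs_self _).trans (hC _))
      (pow_le_pow_left₀ (abs_nonneg _) (abs_real_inner_le_norm _ _) 2) (sq_nonneg _) hC0
  · exact mul_nonneg (Nat.cast_nonneg j) (Finset.sum_nonneg fun m _ => hnn _)
  · have : ∑ m ∈ Finset.range j, ridge (w m) (fun s => G (s - α m)) x = 0 :=
      Finset.sum_eq_zero fun m _ => h0 _ (sub_nonpos.2 (hin m x hx))
    simp only [this, mul_zero]
  · obtain ⟨m, hm⟩ := hout x hx
    have hp : 0 < G (⟪w m, x⟫ - α m) := hpos _ (sub_pos.2 hm)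
    refine tendsto_atTop_mono' atTop ?_
      (tendsto_natCast_atTop_atTop.atTop_mul_const hp)
    filter_upwards [eventually_gt_atTop m] with j hj
    refine mul_le_mul_of_nonneg_left ?_ (Nat.cast_nonneg j)
    exact Finset.single_le_sum (f := fun m => ridge (w m) (fun s => G (s - α m)) x)
      (fun i _ => hnn _) (Finset.mem_range.2 hj)

end Vale.Agent.P254B
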