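import Vale.Agent.P254B.Main
import Vale.Agent.P254B.FinA

/-! The bound for a Gaussian weight on a convex body. -/

namespace Vale.Agent.P254B

open Vale.Agent.P227
open scoped ContDiff Matrix RealInnerProductSpace Topology
open MeasureTheory Filter

variable {n : ℕ}

theorem finb_St (V : E n → ℝ) (b : ℝ) :
    St V (b • (1 : Mat n)) 0 = fun x => V x + b / 2 * ‖x‖ ^ 2 := by
  funext x
  simp only [St, qf_smul, qf_one, inner_zero_left]
  ring

theorem finb_coer {b : ℝ} (hb : 0 < b) : Coer fun x : E n => b / 2 * ‖x‖ ^ 2 :=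
  ⟨b / 2, 0, by positivity, fun x => by simp⟩

theorem finb_int {b : ℝ} (hb : 0 < b) {g : E n → ℝ} (hg : CPB g) :
    Integrable fun x : E n => g x * Real.exp (-(b / 2 * ‖x‖ ^ 2)) :=
  integrable_Ex (W := fun x : E n => b / 2 * ‖x‖ ^ 2) (finb_coer hb) (by fun_prop) hg

theorem finb_lim {K : Set (E n)} (hK : MeasurableSet K) {b : ℝ} (hb : 0 < b)
    {V : ℕ → E n → ℝ} (cV : ∀ j, Continuous (V j)) (h0 : ∀ j x, 0 ≤ V j x)
    (hz : ∀ j, ∀ x ∈ K, V j x = 0) (ht : ∀ x ∉ K, Tendsto (fun j => V j x) atTop atTop)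
    {g : E n → ℝ} (hg : CPB g) :
    Tendsto (fun j => Ex (fun x => V j x + b / 2 * ‖x‖ ^ 2) g) atTop (𝓝 (Kx K b g)) := by
  rw [Kx, ← integral_indicator hK]
  have cg := hg.1
  refine tendsto_integral_of_dominated_convergence
    (fun x => |g x| * Real.exp (-(b / 2 * ‖x‖ ^ 2))) (fun j => ?_) (finb_int hb hg.abs)
    (fun j => ae_of_all _ fun x => ?_) (ae_of_all _ fun x => ?_)
  · have := cV j
    exact Continuous.aestronglyMeasurable (by fun_prop)
  · rw [Real.norm_eq_abs, abs_mul, abs_of_pos (Real.exp_pos _)]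
    refine mul_le_mul_of_nonneg_left (Real.exp_le_exp.2 ?_) (abs_nonneg _)
    linarith [h0 j x]
  · by_cases hx : x ∈ K
    · simp only [Set.indicator_of_mem hx, hz _ x hx, zero_add]
      exact tendsto_const_nhds
    · rw [Set.indicator_of_notMem hx]
      have h1 : Tendsto (fun j => Real.exp (-(V j x + b / 2 * ‖x‖ ^ 2))) atTop (𝓝 0) :=
        Real.tendsto_exp_neg_atTop_nhds_zero.comp (tendsto_atTop_add_const_right _ _ (ht x hx))
      simpa using h1.const_mul (g x)

theorem finb_limV {K : Set (E n)} {b : ℝ} (hb : 0 < b)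
    {V : ℕ → E n → ℝ} (cV : ∀ j, Continuous (V j)) (h0 : ∀ j x, 0 ≤ V j x)
    (hz : ∀ j, ∀ x ∈ K, V j x = 0) (ht : ∀ x ∉ K, Tendsto (fun j => V j x) atTop atTop) :
    Tendsto (fun j => Ex (fun x => V j x + b / 2 * ‖x‖ ^ 2) (V j)) atTop (𝓝 0) := by
  have e : (0 : ℝ) = ∫ _x : E n, (0 : ℝ) := by simp
  rw [e]
  refine tendsto_integral_of_dominated_convergence
    (fun x => 1 * Real.exp (-(b / 2 * ‖x‖ ^ 2))) (fun j => ?_) (finb_int hb (cpb_const 1))
    (fun j => ae_of_all _ fun x => ?_) (ae_of_all _ fun x => ?_)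
  · have := cV j
    exact Continuous.aestronglyMeasurable (by fun_prop)
  · rw [Real.norm_eq_abs, abs_of_nonneg (mul_nonneg (h0 j x) (Real.exp_pos _).le), neg_add,
      Real.exp_add, ← mul_assoc]
    refine mul_le_mul_of_nonneg_right ?_ (Real.exp_pos _).le
    rw [Real.exp_neg, ← div_eq_mul_inv, div_le_one (Real.exp_pos _)]
    linarith [Real.add_one_le_exp (V j x)]
  · by_cases hx : x ∈ K
    · simp only [hz _ x hx, zero_mul]
      exact tendsto_const_nhds
    · have h1 : Tendsto (fun j => V j x ^ 1 * Real.exp (-V j x)) atTop (𝓝 0) :=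
        (Real.tendsto_pow_mul_exp_neg_atTop_nhds_zero 1).comp (ht x hx)
      have h2 := h1.mul_const (Real.exp (-(b / 2 * ‖x‖ ^ 2)))
      rw [zero_mul] at h2
      refine h2.congr fun j => ?_
      rw [pow_one, neg_add, Real.exp_add, mul_assoc]

theorem finb_pos {K : Set (E n)} (hi : (interior K).Nonempty) {b : ℝ} (hb : 0 < b) :
    0 < Kx K b fun _ => 1 := by
  rw [Kx, setIntegral_pos_iff_support_of_nonneg_ae
    (ae_of_all _ fun x => by positivity) (finb_int hb (cpb_const 1)).integrableOn]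
  have e : Function.support (fun x : E n => (1 : ℝ) * Real.exp (-(b / 2 * ‖x‖ ^ 2))) =
      Set.univ := by
    ext x
    simp [(Real.exp_pos _).ne']
  rw [e, Set.univ_inter]
  exact (isOpen_interior.measure_pos volume hi).trans_le (measure_mono interior_subset)

theorem finb_cst (n : ℕ) : Real.exp (2 * cst n) = (2 / (Real.pi * Real.exp 1)) ^ n := by
  have hp : 0 < Real.pi * Real.exp 1 := by positivity
  have e : 2 * cst n = n * Real.log (2 / (Real.pi * Real.exp 1)) := by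
    rw [cst, mul_assoc 2 Real.pi, Real.log_mul two_ne_zero hp.ne', Real.log_div two_ne_zero hp.ne']
    ring
  rw [e, Real.exp_nat_mul, Real.exp_log (by positivity)]

theorem finb_step {W : E n → ℝ} (hW : Coer W) (cW : Continuous W) (h : DD W ≤ cst n) :
    (cv W).det ≤ (2 / (Real.pi * Real.exp 1)) ^ n * Zf W ^ 2 * Real.exp (2 * nm W W) := by
  have hd := (cv_posDef hW cW).det_pos
  have hZ := Zf_pos hW cW
  have e : Zf W ^ 2 = Real.exp (2 * Real.log (Zf W)) := by
    rw [two_mul, Real.exp_add, Real.exp_log hZ, sq]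
  rw [← finb_cst, e, ← Real.exp_add, ← Real.exp_add, ← Real.exp_log hd, Real.exp_le_exp]
  simp only [DD, en] at h
  linarith

theorem det_le_gauss (hn : 1 ≤ n) {K : Set (E n)} (hK : IsCompact K) (hc : Convex ℝ K)
    (hi : (interior K).Nonempty) {b : ℝ} (hb : 0 < b) :
    (cvK K b).det ≤ (2 / (Real.pi * Real.exp 1)) ^ n * Kx K b (fun _ => 1) ^ 2 *
      Real.exp (2 * (Kx K b (fun x => b / 2 * ‖x‖ ^ 2) / Kx K b fun _ => 1)) := by
  obtain ⟨V, Λ, hV, h0, hz, ht⟩ := exists_pot hK.isClosed hc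
  have cV : ∀ j, Continuous (V j) := fun j => (hV j).sm.smo.continuous
  have pV : ∀ j, CPB (V j) := fun j => (hV j).sm.pg.cpb
  have hm : MeasurableSet K := hK.isClosed.measurableSet
  have hp := finb_pos hi hb
  have pq : CPB fun x : E n => b / 2 * ‖x‖ ^ 2 := (cpb_norm.pow 2).const_mul _
  have hco : ∀ j, Coer fun x => V j x + b / 2 * ‖x‖ ^ 2 := fun j =>
    ⟨b / 2, 0, by positivity, fun x => by linarith [h0 j x]⟩
  have hct : ∀ j, Continuous fun x => V j x + b / 2 * ‖x‖ ^ 2 := fun j => (cV j).add pq.1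
  have L : ∀ {g : E n → ℝ}, CPB g →
      Tendsto (fun j => Ex (fun x => V j x + b / 2 * ‖x‖ ^ 2) g) atTop (𝓝 (Kx K b g)) :=
    fun hg => finb_lim hm hb cV h0 hz ht hg
  have LZ : Tendsto (fun j => Zf fun x => V j x + b / 2 * ‖x‖ ^ 2) atTop
      (𝓝 (Kx K b fun _ => 1)) := L (cpb_const 1)
  have LN : ∀ {g : E n → ℝ}, CPB g →
      Tendsto (fun j => nm (fun x => V j x + b / 2 * ‖x‖ ^ 2) g) atTop
        (𝓝 (Kx K b g / Kx K b fun _ => 1)) := fun hg => (L hg).div LZ hp.ne'
  have LC : Tendsto (fun j => cv fun x => V j x + b / 2 * ‖x‖ ^ 2) atTop (𝓝 (cvK K b)) := by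
    refine tendsto_pi_nhds.2 fun i => tendsto_pi_nhds.2 fun k => ?_
    exact (LN ((cpb_coord' i).mul (cpb_coord' k))).sub
      ((LN (cpb_coord' i)).mul (LN (cpb_coord' k)))
  have LD : Tendsto (fun j => (cv fun x => V j x + b / 2 * ‖x‖ ^ 2).det) atTop
      (𝓝 (cvK K b).det) :=
    ((continuous_id.matrix_det (R := ℝ) (n := Fin n)).tendsto _).comp LC
  have LW : Tendsto (fun j => nm (fun x => V j x + b / 2 * ‖x‖ ^ 2)
      fun x => V j x + b / 2 * ‖x‖ ^ 2) atTop
      (𝓝 (Kx K b (fun x => b / 2 * ‖x‖ ^ 2) / Kx K b fun _ => 1)) := by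
    have h1 := ((finb_limV hb cV h0 hz ht).add (L pq)).div LZ hp.ne'
    rw [zero_add] at h1
    refine h1.congr fun j => ?_
    rw [nm, Ex_add (hco j) (hct j) (pV j) pq]
    rfl
  refine le_of_tendsto_of_tendsto' LD
    (((LZ.pow 2).const_mul _).mul ((Real.continuous_exp.tendsto _).comp (LW.const_mul 2)))
    fun j => ?_
  have h1 := main_dd hn (hV j) hb
  rw [finb_St] at h1
  exact finb_step (hco j) (hct j) h1

end Vale.Agent.P254B
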