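import Vale.Agent.P254B.FinB
import Vale.Agent.P254.Defs
import Vale.Agent.P254.FSBase

/-! The bound for convex bodies. -/

namespace Vale.Agent.P254B

open Vale.Agent.P227
open scoped ContDiff Matrix RealInnerProductSpace Topology
open MeasureTheory Filter

variable {n : ℕ}

theorem finc_cont {K : Set (E n)} (hK : IsCompact K) {g : ℝ → E n → ℝ}
    (hg : Continuous g.uncurry) : Continuous fun b => Kx K b (g b) :=
  continuous_parametric_integral_of_continuous
    (f := fun b x => g b x * Real.exp (-(b / 2 * ‖x‖ ^ 2))) (hg.mul (by fun_prop)) hK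

theorem finc_zero (K : Set (E n)) (g : E n → ℝ) : Kx K 0 g = ∫ x in K, g x := by
  simp [Kx]

theorem det_le_body (hn : 1 ≤ n) {K : Set (E n)} (hK : IsCompact K) (hc : Convex ℝ K)
    (hi : (interior K).Nonempty) :
    (cvK K 0).det ≤ (2 / (Real.pi * Real.exp 1)) ^ n * Kx K 0 (fun _ => 1) ^ 2 := by
  have h0 : Kx K 0 (fun _ => 1) ≠ 0 := by
    rw [finc_zero, setIntegral_const, smul_eq_mul, mul_one]
    exact ENNReal.toReal_ne_zero.2
      ⟨(Measure.measure_pos_of_nonempty_interior _ hi).ne', hK.measure_lt_top.ne⟩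
  have c0 : ContinuousAt (fun b => Kx K b fun _ => 1) 0 :=
    (finc_cont hK (g := fun _ _ => 1) continuous_const).continuousAt
  have c1 : ∀ i, ContinuousAt (fun b => Kx K b fun x => x i) 0 := fun i =>
    (finc_cont hK (g := fun _ x => x i) (by fun_prop)).continuousAt
  have c2 : ∀ i j, ContinuousAt (fun b => Kx K b fun x => x i * x j) 0 := fun i j =>
    (finc_cont hK (g := fun _ x => x i * x j) (by fun_prop)).continuousAt
  have c3 : ContinuousAt (fun b => Kx K b fun x => b / 2 * ‖x‖ ^ 2) 0 :=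
    (finc_cont hK (g := fun b x => b / 2 * ‖x‖ ^ 2) (by fun_prop)).continuousAt
  have d1 : ContinuousAt (fun b => (cvK K b).det) 0 :=
    (continuous_id.matrix_det).continuousAt.comp (f := fun b => cvK K b)
      (continuousAt_pi.2 fun i => continuousAt_pi.2 fun j =>
        ((c2 i j).div c0 h0).sub (((c1 i).div c0 h0).mul ((c1 j).div c0 h0)))
  have d2 := ((c0.pow 2).const_mul ((2 / (Real.pi * Real.exp 1)) ^ n)).mul
    ((c3.div c0 h0).const_mul 2).rexp
  have := le_of_tendsto_of_tendsto (d1.tendsto.mono_left (nhdsWithin_le_nhds (s := Set.Ioi 0)))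
    (d2.tendsto.mono_left nhdsWithin_le_nhds)
    (eventually_mem_nhdsWithin.mono fun b hb => det_le_gauss hn hK hc hi hb)
  simpa [finc_zero] using this

theorem iso_le (hn : 1 ≤ n) {K : Set (Fin n → ℝ)} (hK : IsCompact K) (hc : Convex ℝ K)
    (hi : (interior K).Nonempty) :
    Vale.Agent.P254.isoConst K ≤ Real.sqrt (2 / (Real.pi * Real.exp 1)) := by
  have hb : P254.FS.Body K := ⟨hK, hc, hi⟩
  let e := EuclideanSpace.equiv (Fin n) ℝ
  have h := det_le_body hn (K := e ⁻¹' K) (e.toHomeomorph.isCompact_preimage.2 hK)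
    (hc.linear_preimage e.toLinearEquiv.toLinearMap) (by
      have := e.toHomeomorph.preimage_interior K
      exact this ▸ hi.preimage e.surjective)
  have hI : ∀ g : (Fin n → ℝ) → ℝ, Kx (e ⁻¹' K) 0 (fun x => g (e x)) = ∫ x in K, g x := fun g => by
    rw [finc_zero]
    exact (PiLp.volume_preserving_ofLp (Fin n)).setIntegral_preimage_emb
      e.toHomeomorph.measurableEmbedding g K
  have h1 : Kx (e ⁻¹' K) 0 (fun _ => 1) = (volume K).toReal :=
    (hI fun _ => 1).trans (P254.FS.int_one K)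
  have h2 : cvK (e ⁻¹' K) 0 = P254.FS.cv K := by
    ext i j
    rw [hb.cv_eq, cvK, Matrix.of_apply, h1, P254.FS.cen, P254.FS.cen, ← hI, ← hI, ← hI]
    rfl
  rw [h1, h2, ← div_le_iff₀ (pow_pos hb.vpos 2)] at h
  refine (Real.rpow_le_rpow (div_pos hb.det_pos (pow_pos hb.vpos 2)).le h (by positivity)).trans
    (le_of_eq ?_)
  have hn' : (n : ℝ) ≠ 0 := by positivity
  rw [Real.sqrt_eq_rpow, ← Real.rpow_natCast, ← Real.rpow_mul (by positivity)]
  congr 1
  field_simp

end Vale.Agent.P254B
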