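import Vale.Agent.P254B.FinB

/-! The bound for a general weight on a closed convex set. -/

namespace Vale.Agent.P254B

open Vale.Agent.P227
open scoped ContDiff Matrix RealInnerProductSpace Topology
open MeasureTheory Filter

variable {n : ℕ}

/-- weighted integral over a set -/
noncomputable def Lx (K : Set (E n)) (q g : E n → ℝ) : ℝ := ∫ x in K, g x * Real.exp (-q x)

theorem find_lim {K : Set (E n)} (hK : MeasurableSet K) {q : E n → ℝ} (hq : Coer q)
    (cq : Continuous q) {V : ℕ → E n → ℝ} (cV : ∀ j, Continuous (V j)) (h0 : ∀ j x, 0 ≤ V j x)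
    (hz : ∀ j, ∀ x ∈ K, V j x = 0) (ht : ∀ x ∉ K, Tendsto (fun j => V j x) atTop atTop)
    {g : E n → ℝ} (hg : CPB g) :
    Tendsto (fun j => Ex (fun x => V j x + q x) g) atTop (𝓝 (Lx K q g)) := by
  rw [Lx, ← integral_indicator hK]
  have cg := hg.1
  refine tendsto_integral_of_dominated_convergence
    (fun x => |g x| * Real.exp (-q x)) (fun j => ?_) (integrable_Ex hq cq hg.abs)
    (fun j => ae_of_all _ fun x => ?_) (ae_of_all _ fun x => ?_)
  · have := cV j
    exact Continuous.aestronglyMeasurable (by fun_prop)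
  · rw [Real.norm_eq_abs, abs_mul, abs_of_pos (Real.exp_pos _)]
    refine mul_le_mul_of_nonneg_left (Real.exp_le_exp.2 ?_) (abs_nonneg _)
    linarith [h0 j x]
  · by_cases hx : x ∈ K
    · simp only [Set.indicator_of_mem hx, hz _ x hx, zero_add]
      exact tendsto_const_nhds
    · rw [Set.indicator_of_notMem hx]
      have h1 : Tendsto (fun j => Real.exp (-(V j x + q x))) atTop (𝓝 0) :=
        Real.tendsto_exp_neg_atTop_nhds_zero.comp (tendsto_atTop_add_const_right _ _ (ht x hx))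
      simpa using h1.const_mul (g x)

theorem find_limV {K : Set (E n)} {q : E n → ℝ} (hq : Coer q) (cq : Continuous q)
    {V : ℕ → E n → ℝ} (cV : ∀ j, Continuous (V j)) (h0 : ∀ j x, 0 ≤ V j x)
    (hz : ∀ j, ∀ x ∈ K, V j x = 0) (ht : ∀ x ∉ K, Tendsto (fun j => V j x) atTop atTop) :
    Tendsto (fun j => Ex (fun x => V j x + q x) (V j)) atTop (𝓝 0) := by
  have e : (0 : ℝ) = ∫ _x : E n, (0 : ℝ) := by simp
  rw [e]
  refine tendsto_integral_of_dominated_convergence
    (fun x => 1 * Real.exp (-q x)) (fun j => ?_) (integrable_Ex hq cq (cpb_const 1))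
    (fun j => ae_of_all _ fun x => ?_) (ae_of_all _ fun x => ?_)
  · have := cV j
    exact Continuous.aestronglyMeasurable (by fun_prop)
  · rw [Real.norm_eq_abs, abs_of_nonneg (mul_nonneg (h0 j x) (Real.exp_pos _).le), neg_add,
      Real.exp_add, ← mul_assoc]
    refine mul_le_mul_of_nonneg_right ?_ (Real.exp_pos _).le
    rw [Real.exp_neg, ← div_eq_mul_inv, div_le_one (Real.exp_pos _)]
    linarith [Real.add_one_le_exp (V j x)]
  · by_cases hx : x ∈ K
    · simp only [hz _ x hx, zero_mul]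
      exact tendsto_const_nhds
    · have h1 : Tendsto (fun j => V j x ^ 1 * Real.exp (-V j x)) atTop (𝓝 0) :=
        (Real.tendsto_pow_mul_exp_neg_atTop_nhds_zero 1).comp (ht x hx)
      have h2 := h1.mul_const (Real.exp (-q x))
      rw [zero_mul] at h2
      refine h2.congr fun j => ?_
      rw [pow_one, neg_add, Real.exp_add, mul_assoc]

/-- linear plus Gaussian weight -/
noncomputable def qb (o : E n) (b : ℝ) : E n → ℝ := fun x => ⟪o, x⟫ + b / 2 * ‖x‖ ^ 2

theorem find_coer (o : E n) {b : ℝ} (hb : 0 < b) : Coer (qb o b) := by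
  refine ⟨b / 4, ‖o‖ ^ 2 / b, by positivity, fun x => ?_⟩
  have h1 := (abs_le.1 (abs_real_inner_le_norm o x)).1
  have h2 : ‖o‖ * ‖x‖ ≤ b / 4 * ‖x‖ ^ 2 + ‖o‖ ^ 2 / b := by
    have e : b / 4 * ‖x‖ ^ 2 + ‖o‖ ^ 2 / b - ‖o‖ * ‖x‖ = (b / 2 * ‖x‖ - ‖o‖) ^ 2 / b := by
      field_simp
      ring
    have : 0 ≤ (b / 2 * ‖x‖ - ‖o‖) ^ 2 / b := by positivity
    linarith
  rw [qb]
  linarith

theorem det_le_weight (hn : 1 ≤ n) {K : Set (E n)} (hK : IsClosed K) (hc : Convex ℝ K) (o : E n)
    {b : ℝ} (hb : 0 < b) (hp : 0 < Lx K (qb o b) fun _ => 1) :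
    (Matrix.of fun i j => Lx K (qb o b) (fun x => x i * x j) / Lx K (qb o b) (fun _ => 1) -
      Lx K (qb o b) (fun x => x i) / Lx K (qb o b) (fun _ => 1) *
        (Lx K (qb o b) (fun x => x j) / Lx K (qb o b) (fun _ => 1))).det ≤
      (2 / (Real.pi * Real.exp 1)) ^ n * Lx K (qb o b) (fun _ => 1) ^ 2 *
        Real.exp (2 * (Lx K (qb o b) (qb o b) / Lx K (qb o b) fun _ => 1)) := by
  obtain ⟨V, Λ, hV, h0, hz, ht⟩ := exists_pot hK hc
  have cV : ∀ j, Continuous (V j) := fun j => (hV j).sm.smo.continuous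
  have pV : ∀ j, CPB (V j) := fun j => (hV j).sm.pg.cpb
  have hm : MeasurableSet K := hK.measurableSet
  have pq : CPB (qb o b) := (sm_inner o).pg.cpb.add ((cpb_norm.pow 2).const_mul _)
  have hq := find_coer o hb
  have hco : ∀ j, Coer fun x => V j x + qb o b x := fun j => by
    obtain ⟨κ, C, hκ, h⟩ := hq
    exact ⟨κ, C, hκ, fun x => by linarith [h0 j x, h x]⟩
  have hct : ∀ j, Continuous fun x => V j x + qb o b x := fun j => (cV j).add pq.1
  have L : ∀ {g : E n → ℝ}, CPB g →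
      Tendsto (fun j => Ex (fun x => V j x + qb o b x) g) atTop (𝓝 (Lx K (qb o b) g)) :=
    fun hg => find_lim hm hq pq.1 cV h0 hz ht hg
  have LZ : Tendsto (fun j => Zf fun x => V j x + qb o b x) atTop
      (𝓝 (Lx K (qb o b) fun _ => 1)) := L (cpb_const 1)
  have LN : ∀ {g : E n → ℝ}, CPB g →
      Tendsto (fun j => nm (fun x => V j x + qb o b x) g) atTop
        (𝓝 (Lx K (qb o b) g / Lx K (qb o b) fun _ => 1)) := fun hg => (L hg).div LZ hp.ne'
  have LC : Tendsto (fun j => cv fun x => V j x + qb o b x) atTop (𝓝 (Matrix.of fun i j =>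
      Lx K (qb o b) (fun x => x i * x j) / Lx K (qb o b) (fun _ => 1) -
      Lx K (qb o b) (fun x => x i) / Lx K (qb o b) (fun _ => 1) *
        (Lx K (qb o b) (fun x => x j) / Lx K (qb o b) (fun _ => 1)))) := by
    refine tendsto_pi_nhds.2 fun i => tendsto_pi_nhds.2 fun k => ?_
    exact (LN ((cpb_coord' i).mul (cpb_coord' k))).sub
      ((LN (cpb_coord' i)).mul (LN (cpb_coord' k)))
  have LD := ((continuous_id.matrix_det (R := ℝ) (n := Fin n)).tendsto _).comp LC
  have LW : Tendsto (fun j => nm (fun x => V j x + qb o b x) fun x => V j x + qb o b x) atTop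
      (𝓝 (Lx K (qb o b) (qb o b) / Lx K (qb o b) fun _ => 1)) := by
    have h1 := ((find_limV hq pq.1 cV h0 hz ht).add (L pq)).div LZ hp.ne'
    rw [zero_add] at h1
    refine h1.congr fun j => ?_
    rw [nm, Ex_add (hco j) (hct j) (pV j) pq]
    rfl
  refine le_of_tendsto_of_tendsto' LD
    (((LZ.pow 2).const_mul _).mul ((Real.continuous_exp.tendsto _).comp (LW.const_mul 2)))
    fun j => ?_
  have hV' : Cvx (Λ j) fun x => V j x + ⟪o, x⟫ := by
    refine ⟨(hV j).sm.add (sm_inner o), (hV j).nn, fun x ξ => ?_⟩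
    rw [hess_add (hV j).sm.smo (sm_inner o).smo, hess_inner, add_zero]
    exact (hV j).bd x ξ
  have h1 := main_dd hn hV' hb
  rw [finb_St] at h1
  simp only [add_assoc] at h1
  exact finb_step (hco j) (hct j) h1

end Vale.Agent.P254B
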