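import Vale.Agent.P254B.FinD
import Vale.Agent.P254.AFinal

/-! Comparison with the simplex. -/

open MeasureTheory Set Matrix Filter
open scoped Topology RealInnerProductSpace

namespace Vale.Agent.P254B

open Vale.Agent.P254

variable {m n : ℕ}

/-- damped exponential integral over a cone -/
noncomputable def Eb (C : Set (V m)) (b : ℝ) (g : V m → ℝ) : ℝ :=
  E (C.indicator fun x => g x * Real.exp (-(b / 2 * ∑ i, x i ^ 2)))

theorem fine_lim {C : Set (V m)} (hC : Cone C) {g : V m → ℝ} (hg : PG g) :
    Tendsto (fun b => Eb C b g) (𝓝[>] 0) (𝓝 (E (C.indicator g))) := by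
  have hm := hC.closed.measurableSet
  have hi := (hg.indicator hm).integrable
  refine tendsto_integral_filter_of_dominated_convergence (fun x => ‖wt x * C.indicator g x‖)
    (Eventually.of_forall fun b => ?_) ?_ hi.norm (ae_of_all _ fun x => ?_)
  · exact (measurable_wt.mul ((hg.1.mul (by fun_prop)).indicator hm)).aestronglyMeasurable
  · filter_upwards [self_mem_nhdsWithin] with b hb
    refine ae_of_all _ fun x => ?_
    by_cases hx : x ∈ C
    · simp only [indicator_of_mem hx, ← mul_assoc]
      rw [norm_mul]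
      refine mul_le_of_le_one_right (norm_nonneg _) ?_
      rw [Real.norm_eq_abs, abs_of_pos (Real.exp_pos _), Real.exp_le_one_iff, neg_nonpos]
      have : 0 < b := hb
      positivity
    · simp [indicator_of_notMem hx]
  · by_cases hx : x ∈ C
    · simp only [indicator_of_mem hx]
      have c : Continuous fun b : ℝ => wt x * (g x * Real.exp (-(b / 2 * ∑ i, x i ^ 2))) := by
        fun_prop
      simpa using (c.tendsto 0).mono_left nhdsWithin_le_nhds
    · simp [indicator_of_notMem hx]

theorem fine_tr {C : Set (V m)} (hC : Cone C) (b : ℝ) (g : V m → ℝ) :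
    Lx (EuclideanSpace.equiv (Fin m) ℝ ⁻¹' C) (qb (WithLp.toLp 2 fun _ => 1) b)
      (fun x => g (EuclideanSpace.equiv (Fin m) ℝ x)) = Eb C b g := by
  have hm := hC.closed.measurableSet
  have h1 := (PiLp.volume_preserving_ofLp (Fin m)).setIntegral_preimage_emb
    (EuclideanSpace.equiv (Fin m) ℝ).toHomeomorph.measurableEmbedding
    (fun x => g x * Real.exp (-(R x + b / 2 * ∑ i, x i ^ 2))) C
  have h2 : Eb C b g = ∫ x in C, g x * Real.exp (-(R x + b / 2 * ∑ i, x i ^ 2)) := by
    rw [Eb, E, ← integral_indicator hm]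
    refine integral_congr_ae (ae_of_all _ fun x => ?_)
    by_cases hx : x ∈ C
    · simp only [indicator_of_mem hx, wt_of_mem (hC.sub hx), neg_add, Real.exp_add]
      ring
    · simp [indicator_of_notMem hx]
  rw [h2, ← h1, Lx]
  refine integral_congr_ae (ae_of_all _ fun x => ?_)
  simp only [qb, EuclideanSpace.real_norm_sq_eq, PiLp.inner_apply, R]
  simp
  rfl

theorem fine_hom {C : Set (V m)} (hC : Cone C) (i : Fin m) :
    ∑ j, MM C i j = ((m : ℝ) + 1) * E (C.indicator fun x => x i) := by
  have hm := hC.closed.measurableSet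
  have h1 := E_hom (f := C.indicator fun x : V m => x i) ((PG.coord i).indicator hm)
    (fun x hx => indicator_nonneg (fun y hy => hC.sub hy i) x) (d := 1) (fun a ha x => by
      by_cases hx : x ∈ C
      · rw [indicator_of_mem hx, indicator_of_mem ((acore_smul_iff hC ha x).2 hx), pow_one]
        rfl
      · rw [indicator_of_notMem hx,
          indicator_of_notMem fun h => hx ((acore_smul_iff hC ha x).1 h), mul_zero])
  rw [Nat.cast_one] at h1
  rw [← h1]
  simp only [MM]
  rw [← E_sum _ fun j _ => acore_pg hm i j]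
  refine E_congr fun x _ => ?_
  by_cases hx : x ∈ C
  · simp only [indicator_of_mem hx, R, Finset.mul_sum]
  · simp [indicator_of_notMem hx]

theorem fine_cov (hm1 : 1 ≤ m) {C : Set (V m)} (hC : Cone C) (h0 : 0 < ph C) :
    (Matrix.of fun i j => MM C i j / ph C - E (C.indicator fun x => x i) / ph C *
      (E (C.indicator fun x => x j) / ph C)).det ≤
      (2 / (Real.pi * Real.exp 1)) ^ m * ph C ^ 2 * Real.exp (2 * m) := by
  let e := EuclideanSpace.equiv (Fin m) ℝ
  have l0 : Tendsto (fun b => Eb C b fun _ => 1) (𝓝[>] 0) (𝓝 (ph C)) := fine_lim hC (PG.const 1)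
  have l1 := fun i => fine_lim hC (PG.coord i)
  have l2 : ∀ i j, Tendsto (fun b => Eb C b fun x => x i * x j) (𝓝[>] 0) (𝓝 (MM C i j)) :=
    fun i j => fine_lim hC ((PG.coord i).mul (PG.coord j))
  have p2 : PG fun x : V m => ∑ i, x i ^ 2 := PG.sum _ fun i _ => by
    simpa only [sq] using (PG.coord i).mul (PG.coord i)
  have l3 := fine_lim hC (PG.R (m := m))
  rw [acore_R1 hC] at l3
  have l4 : Tendsto (fun b : ℝ => b / 2 * Eb C b fun x => ∑ i, x i ^ 2) (𝓝[>] 0) (𝓝 0) := by
    have c : Tendsto (fun b : ℝ => b / 2) (𝓝[>] 0) (𝓝 (0 / 2)) :=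
      ((continuous_id.div_const 2).tendsto 0).mono_left nhdsWithin_le_nhds
    simpa using c.mul (fine_lim hC p2)
  have lc : Tendsto (fun b => Matrix.of fun i j => (Eb C b fun x => x i * x j) / (Eb C b fun _ => 1) -
      (Eb C b fun x => x i) / (Eb C b fun _ => 1) * ((Eb C b fun x => x j) / (Eb C b fun _ => 1)))
      (𝓝[>] 0) (𝓝 (Matrix.of fun i j => MM C i j / ph C - E (C.indicator fun x => x i) / ph C *
        (E (C.indicator fun x => x j) / ph C))) :=
    tendsto_pi_nhds.2 fun i => tendsto_pi_nhds.2 fun j =>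
      ((l2 i j).div l0 h0.ne').sub (((l1 i).div l0 h0.ne').mul ((l1 j).div l0 h0.ne'))
  have ld := ((continuous_id.matrix_det (R := ℝ) (n := Fin m)).tendsto _).comp lc
  have lr := ((l0.pow 2).const_mul ((2 / (Real.pi * Real.exp 1)) ^ m)).mul
    ((Real.continuous_exp.tendsto _).comp (((l3.add l4).div l0 h0.ne').const_mul 2))
  rw [add_zero, mul_div_cancel_right₀ _ h0.ne'] at lr
  refine le_of_tendsto_of_tendsto ld lr ?_
  filter_upwards [self_mem_nhdsWithin, l0.eventually (lt_mem_nhds h0)] with b hb hp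
  have t0 := fine_tr hC b fun _ => 1
  have t1 := fun i => fine_tr hC b fun x => x i
  have t2 := fun i j => fine_tr hC b fun x => x i * x j
  have t3 := fine_tr hC b fun x => R x + b / 2 * ∑ i, x i ^ 2
  have t4 : (Eb C b fun x => R x + b / 2 * ∑ i, x i ^ 2) =
      Eb C b R + b / 2 * Eb C b fun x => ∑ i, x i ^ 2 := by
    have hm := hC.closed.measurableSet
    have hb' : 0 < b := hb
    have pe : PG fun x : V m => Real.exp (-(b / 2 * ∑ i, x i ^ 2)) :=
      PG.of_le (by fun_prop) (PG.const 1) fun x _ => by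
        rw [abs_of_pos (Real.exp_pos _), Real.exp_le_one_iff, neg_nonpos]
        positivity
    rw [Eb, Eb, Eb, ← E_mul_left, ← E_add ((PG.R.mul pe).indicator hm)
      ((PG.const _).mul ((p2.mul pe).indicator hm))]
    refine E_congr fun x _ => ?_
    by_cases hx : x ∈ C
    · simp only [indicator_of_mem hx]
      ring
    · simp [indicator_of_notMem hx]
  have t5 : qb (WithLp.toLp 2 fun _ : Fin m => (1 : ℝ)) b =
      fun x => R (e x) + b / 2 * ∑ i, e x i ^ 2 := by
    funext x
    simp only [qb, EuclideanSpace.real_norm_sq_eq, PiLp.inner_apply, R]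
    simp [e]
  have h := det_le_weight hm1 (K := e ⁻¹' C) (hC.closed.preimage e.continuous)
    (hC.conv.linear_preimage e.toLinearEquiv.toLinearMap) (WithLp.toLp 2 fun _ => 1) hb
    (by rw [show Lx _ _ _ = _ from t0]; exact hp)
  have t6 : Lx (e ⁻¹' C) (qb (WithLp.toLp 2 fun _ => 1) b) (qb (WithLp.toLp 2 fun _ => 1) b) =
      Eb C b R + b / 2 * Eb C b fun x => ∑ i, x i ^ 2 := by
    rw [← t4, ← t3, ← t5]
  rw [t6, show Lx (e ⁻¹' C) _ (fun _ => 1) = _ from t0] at h
  simp only [show ∀ i, Lx (e ⁻¹' C) _ (fun x => x i) = _ from t1,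
    show ∀ i j, Lx (e ⁻¹' C) _ (fun x => x i * x j) = _ from t2] at h
  exact h

theorem fine_det (hm1 : 1 ≤ m) {C : Set (V m)} (hC : Cone C) (h0 : 0 < ph C) :
    (MM C).det ≤ ((m : ℝ) + 1) * (2 * Real.exp 1 / Real.pi) ^ m * ph C ^ (m + 2) := by
  have h := fine_cov hm1 hC h0
  have hm : (0 : ℝ) < (m : ℝ) + 1 := by positivity
  have e : (Matrix.of fun i j => MM C i j / ph C - E (C.indicator fun x => x i) / ph C *
      (E (C.indicator fun x => x j) / ph C)) = ((ph C)⁻¹ • MM C) * (1 + replicateCol Unit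
        (fun _ => -((m : ℝ) + 1)⁻¹) * replicateRow Unit
          fun j => E (C.indicator fun x => x j) / ph C) := by
    ext i j
    rw [← vecMulVec_eq, Matrix.mul_add, Matrix.mul_one]
    simp only [of_apply, Matrix.add_apply, Matrix.smul_apply, smul_eq_mul, mul_apply,
      vecMulVec_apply, ← Finset.sum_mul, ← Finset.mul_sum, fine_hom hC]
    field_simp
    ring
  have s : ∑ j, E (C.indicator fun x : V m => x j) = m * ph C := by
    have := acore_R2 hC
    simp only [fine_hom hC, ← Finset.mul_sum] at this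
    exact mul_left_cancel₀ hm.ne' this
  rw [e, det_mul, det_one_add_replicateCol_mul_replicateRow, det_smul, Fintype.card_fin] at h
  have d : 1 + (fun j => E (C.indicator fun x : V m => x j) / ph C) ⬝ᵥ
      (fun _ => -((m : ℝ) + 1)⁻¹) = ((m : ℝ) + 1)⁻¹ := by
    simp only [dotProduct, ← Finset.sum_mul, ← Finset.sum_div, s]
    field_simp
    ring
  have c : (2 / (Real.pi * Real.exp 1)) ^ m * Real.exp (2 * m) =
      (2 * Real.exp 1 / Real.pi) ^ m := by
    rw [mul_comm 2 (m : ℝ), Real.exp_nat_mul, ← mul_pow, show (2 : ℝ) = 1 + 1 by norm_num,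
      Real.exp_add]
    congr 1
    field_simp
  rw [d, mul_right_comm _ (ph C ^ 2), c] at h
  have h2 := mul_le_mul_of_nonneg_left h (mul_pos hm (pow_pos h0 m)).le
  refine le_of_eq_of_le ?_ (h2.trans_eq (by ring))
  rw [inv_pow]
  field_simp

theorem fine_simplex {K : Set (V n)} (hK : IsCompact K) :
    ∃ v : Fin (n + 1) → V n, AffineIndependent ℝ v ∧ K ⊆ convexHull ℝ (range v) := by
  obtain ⟨r, hr, h⟩ := hK.isBounded.exists_pos_norm_le
  have hc : 0 < 2 * r * ((n : ℝ) + 1) := by positivity
  refine ⟨Fin.cons (fun _ => -r) fun k i => -r + if i = k then 2 * r * (n + 1) else 0,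
    asim_ind.2 fun w h0 h1 => ?_, fun x hx => ?_⟩
  · have a : ∀ i : Fin n, w i.succ = 0 := fun i => by
      have := congrFun h1 i
      simp only [Fin.sum_univ_succ, Finset.sum_apply, Pi.smul_apply, Fin.cons_zero,
        Fin.cons_succ, smul_eq_mul, mul_add, Finset.sum_add_distrib, mul_ite, mul_zero,
        Finset.sum_ite_eq, Finset.mem_univ, if_true, ← Finset.sum_mul, Pi.zero_apply] at this h0
      have h2 : w i.succ * (2 * r * (n + 1)) = 0 := by
        have h3 : w 0 = -∑ k : Fin n, w k.succ := by linarith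
        rw [h3] at this
        linarith
      exact (mul_eq_zero.1 h2).resolve_right hc.ne'
    funext k
    refine Fin.cases ?_ a k
    simpa [Fin.sum_univ_succ, a] using h0
  · have b : ∀ i, |x i| ≤ r := fun i => (norm_le_pi_norm x i).trans (h x hx)
    have s : ∑ i, (x i + r) / (2 * r * (n + 1)) ≤ 1 := by
      refine (Finset.sum_le_sum (g := fun _ => 1 / ((n : ℝ) + 1)) fun i _ => ?_).trans ?_
      · rw [div_le_div_iff₀ hc (by positivity)]
        nlinarith [(abs_le.1 (b i)).2]
      · rw [Finset.sum_const, Finset.card_univ, Fintype.card_fin, nsmul_eq_mul, mul_one_div,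
          div_le_one (by positivity)]
        linarith
    refine mem_convexHull_of_exists_fintype
      (Fin.cons (1 - ∑ i, (x i + r) / (2 * r * (n + 1))) fun i => (x i + r) / (2 * r * (n + 1)) :
        Fin (n + 1) → ℝ) _ (fun k => ?_) ?_ (fun k => mem_range_self k) ?_
    · refine Fin.cases ?_ (fun i => ?_) k
      · simpa using s
      · exact div_nonneg (by linarith [(abs_le.1 (b i)).1]) hc.le
    · simp [Fin.sum_univ_succ]
    · funext i
      simp only [Fin.sum_univ_succ, Finset.sum_apply, Pi.smul_apply, Fin.cons_zero,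
        Fin.cons_succ, smul_eq_mul, mul_add _ (-r), Finset.sum_add_distrib, mul_ite, mul_zero,
        Finset.sum_ite_eq, Finset.mem_univ, if_true, ← Finset.sum_mul,
        div_mul_cancel₀ _ hc.ne']
      ring

theorem iso_ratio (hn : 1 ≤ n) {K T : Set (V n)} (hK : IsCompact K) (hc : Convex ℝ K)
    (hi : (interior K).Nonempty) (hT : IsSimplex T) :
    isoConst K ≤ (2 * Real.exp 1 / Real.pi) ^ (((n : ℝ) + 1) / (2 * n)) * isoConst T := by
  obtain ⟨v, hv, hs⟩ := fine_simplex hK
  have hv' := Vm_det_ne.2 hv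
  have h0 : 0 < (volume K).toReal := ENNReal.toReal_pos
    (Measure.measure_pos_of_nonempty_interior _ hi).ne' hK.measure_lt_top.ne
  have hC := cone_CV hv' hK hc hs
  have hp : 0 < ph (CV v K) := by
    have h1 := vol_eq hv' hK hc hs
    have h2 : (0 : ℝ) < n.factorial * (volume K).toReal := by positivity
    rw [h1] at h2
    exact (pos_iff_pos_of_mul_pos h2).1 (abs_pos.2 hv')
  have h := fine_det (Nat.le_add_left 1 n) hC hp
  rw [← div_le_iff₀ (pow_pos hp _)] at h
  have hk := kap_pos n
  have hq : 0 < 2 * Real.exp 1 / Real.pi := by positivity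
  have h1 : (cov K).det / (volume K).toReal ^ 2 ≤
      (2 * Real.exp 1 / Real.pi) ^ (n + 1) * (kap n * ((n : ℝ) + 2)) := by
    rw [ratio_eq hv' hK hc hs h0]
    refine (mul_le_mul_of_nonneg_left h hk.le).trans_eq ?_
    push_cast
    ring
  rw [isoConst_simplex hT, isoConst]
  refine (Real.rpow_le_rpow (div_nonneg (det_cov_nonneg hK) (sq_nonneg _)) h1
    (by positivity)).trans_eq ?_
  rw [Real.mul_rpow (by positivity) (by positivity), ← Real.rpow_natCast,
    ← Real.rpow_mul hq.le]
  congr 2
  push_cast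
  ring

end Vale.Agent.P254B
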