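import Vale.Agent.P254B.Defs

/-! Second order expansions. -/

namespace Vale.Agent.P254B

open Vale.Agent.P227
open scoped ContDiff Matrix RealInnerProductSpace Topology
open MeasureTheory Filter

variable {n : ℕ}

variable {f g : ℝ → ℝ} {a₁ a₂ b₁ b₂ : ℝ}

theorem Jet.of_eq (h : Jet f a₁ a₂) (h1 : a₁ = b₁) (h2 : a₂ = b₂) : Jet f b₁ b₂ := h1 ▸ h2 ▸ h

theorem jet_iff : Jet f a₁ a₂ ↔ ∃ ε : ℝ → ℝ, Tendsto ε (𝓝 0) (𝓝 0) ∧
    ∀ᶠ t in 𝓝 (0 : ℝ), f t = f 0 + a₁ * t + a₂ * t ^ 2 + ε t * t ^ 2 := by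
  unfold Jet
  rw [Asymptotics.isLittleO_iff_exists_eq_mul]
  constructor
  · rintro ⟨ε, h1, h2⟩
    refine ⟨ε, h1, ?_⟩
    filter_upwards [h2] with t ht
    simp only [Pi.mul_apply] at ht
    linarith
  · rintro ⟨ε, h1, h2⟩
    refine ⟨ε, h1, ?_⟩
    filter_upwards [h2] with t ht
    simp only [Pi.mul_apply]
    linarith

theorem jet_const (c : ℝ) : Jet (fun _ => c) 0 0 := by
  exact jet_iff.2 ⟨fun _ => 0, tendsto_const_nhds, Eventually.of_forall fun t => by ring⟩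

theorem jet_id : Jet (fun t => t) 1 0 := by
  exact jet_iff.2 ⟨fun _ => 0, tendsto_const_nhds, Eventually.of_forall fun t => by ring⟩

theorem jet_sq : Jet (fun t => t ^ 2) 0 1 := by
  exact jet_iff.2 ⟨fun _ => 0, tendsto_const_nhds, Eventually.of_forall fun t => by ring⟩

theorem Jet.congr (h : Jet f a₁ a₂) (e : f =ᶠ[𝓝 0] g) : Jet g a₁ a₂ := by
  obtain ⟨ε, h1, h2⟩ := jet_iff.1 h
  refine jet_iff.2 ⟨ε, h1, ?_⟩
  filter_upwards [h2, e] with t ht he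
  rw [← he, ← e.eq_of_nhds]
  exact ht

theorem Jet.tendsto (h : Jet f a₁ a₂) : Tendsto f (𝓝 0) (𝓝 (f 0)) := by
  obtain ⟨ε, h1, h2⟩ := jet_iff.1 h
  have hi : Tendsto (fun t : ℝ => t) (𝓝 0) (𝓝 0) := tendsto_id
  have h3 := (((tendsto_const_nhds (x := f 0)).add (hi.const_mul a₁)).add
    ((hi.pow 2).const_mul a₂)).add (h1.mul (hi.pow 2))
  simp only [mul_zero, add_zero, ne_eq, OfNat.ofNat_ne_zero, not_false_eq_true,
    zero_pow] at h3
  exact h3.congr' (h2.mono fun t ht => ht.symm)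

theorem Jet.add (hf : Jet f a₁ a₂) (hg : Jet g b₁ b₂) :
    Jet (fun t => f t + g t) (a₁ + b₁) (a₂ + b₂) := by
  obtain ⟨ε, h1, h2⟩ := jet_iff.1 hf
  obtain ⟨δ, h3, h4⟩ := jet_iff.1 hg
  refine jet_iff.2 ⟨fun t => ε t + δ t, by simpa using h1.add h3, ?_⟩
  filter_upwards [h2, h4] with t ht hs
  rw [ht, hs]
  ring

theorem Jet.sub (hf : Jet f a₁ a₂) (hg : Jet g b₁ b₂) :
    Jet (fun t => f t - g t) (a₁ - b₁) (a₂ - b₂) := by
  obtain ⟨ε, h1, h2⟩ := jet_iff.1 hf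
  obtain ⟨δ, h3, h4⟩ := jet_iff.1 hg
  refine jet_iff.2 ⟨fun t => ε t - δ t, by simpa using h1.sub h3, ?_⟩
  filter_upwards [h2, h4] with t ht hs
  rw [ht, hs]
  ring

theorem Jet.const_mul (hf : Jet f a₁ a₂) (c : ℝ) : Jet (fun t => c * f t) (c * a₁) (c * a₂) := by
  obtain ⟨ε, h1, h2⟩ := jet_iff.1 hf
  refine jet_iff.2 ⟨fun t => c * ε t, by simpa using h1.const_mul c, ?_⟩
  filter_upwards [h2] with t ht
  rw [ht]
  ring

theorem Jet.sum {ι : Type*} (s : Finset ι) {F : ι → ℝ → ℝ} {c₁ c₂ : ι → ℝ}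
    (h : ∀ i ∈ s, Jet (F i) (c₁ i) (c₂ i)) :
    Jet (fun t => ∑ i ∈ s, F i t) (∑ i ∈ s, c₁ i) (∑ i ∈ s, c₂ i) := by
  classical
  induction s using Finset.induction_on with
  | empty => simpa using jet_const 0
  | insert i s hi ih =>
    simp only [Finset.sum_insert hi]
    exact (h i (Finset.mem_insert_self i s)).add
      (ih fun j hj => h j (Finset.mem_insert_of_mem hj))

theorem Jet.mul (hf : Jet f a₁ a₂) (hg : Jet g b₁ b₂) :
    Jet (fun t => f t * g t) (f 0 * b₁ + a₁ * g 0) (f 0 * b₂ + a₁ * b₁ + a₂ * g 0) := by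
  obtain ⟨ε, h1, h2⟩ := jet_iff.1 hf
  obtain ⟨δ, h3, h4⟩ := jet_iff.1 hg
  have hi : Tendsto (fun t : ℝ => t) (𝓝 0) (𝓝 0) := tendsto_id
  have hc : Tendsto (fun t : ℝ => f 0 + a₁ * t + a₂ * t ^ 2) (𝓝 0)
      (𝓝 (f 0 + a₁ * 0 + a₂ * 0 ^ 2)) :=
    (tendsto_const_nhds.add (hi.const_mul a₁)).add ((hi.pow 2).const_mul a₂)
  have h5 := (((h1.mul hg.tendsto).add (h3.mul hc)).add (hi.const_mul (a₁ * b₂ + a₂ * b₁))).add
    ((hi.pow 2).const_mul (a₂ * b₂))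
  simp only [mul_zero, add_zero, zero_mul, ne_eq, OfNat.ofNat_ne_zero, not_false_eq_true,
    zero_pow] at h5
  refine jet_iff.2 ⟨_, h5, ?_⟩
  filter_upwards [h2, h4] with t ht hs
  rw [ht, hs]
  ring

theorem jet_comp {φ : ℝ → ℝ} {p₁ p₂ : ℝ} (hφ : Jet φ p₁ p₂) (hf : Jet f a₁ a₂) :
    Jet (fun t => φ (f t - f 0)) (p₁ * a₁) (p₁ * a₂ + p₂ * a₁ ^ 2) := by
  obtain ⟨ε, h1, h2⟩ := jet_iff.1 hf
  obtain ⟨ρ, h3, h4⟩ := jet_iff.1 hφ
  have hi : Tendsto (fun t : ℝ => t) (𝓝 0) (𝓝 0) := tendsto_id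
  have hu : Tendsto (fun t => f t - f 0) (𝓝 0) (𝓝 0) := by
    simpa using hf.tendsto.sub_const (f 0)
  have h5 : Tendsto (fun t : ℝ => p₁ * ε t +
      (p₂ + ρ (f t - f 0)) * (a₁ + a₂ * t + ε t * t) ^ 2 - p₂ * a₁ ^ 2) (𝓝 0)
      (𝓝 (p₁ * 0 + (p₂ + 0) * (a₁ + a₂ * 0 + 0 * 0) ^ 2 - p₂ * a₁ ^ 2)) :=
    ((h1.const_mul p₁).add ((tendsto_const_nhds.add (h3.comp hu)).mul
      (((tendsto_const_nhds.add (hi.const_mul a₂)).add (h1.mul hi)).pow 2))).sub_const _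
  simp only [mul_zero, add_zero, zero_add, sub_self] at h5
  refine jet_iff.2 ⟨_, h5, ?_⟩
  filter_upwards [h2, hu.eventually h4] with t ht hs
  have e : f t - f 0 = (a₁ + a₂ * t + ε t * t) * t := by rw [ht]; ring
  rw [hs, sub_self]
  generalize ρ (f t - f 0) = r
  rw [e]
  ring

theorem jet_inv0 {y : ℝ} (hy : y ≠ 0) : Jet (fun u => (y + u)⁻¹) (-1 / y ^ 2) (1 / y ^ 3) := by
  have hi : Tendsto (fun t : ℝ => t) (𝓝 0) (𝓝 0) := tendsto_id
  have h1 : Tendsto (fun u : ℝ => y + u) (𝓝 0) (𝓝 y) := by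
    simpa using hi.const_add y
  have h2 := (hi.mul (h1.inv₀ hy)).mul_const (-1 / y ^ 3)
  simp only [zero_mul] at h2
  refine jet_iff.2 ⟨_, h2, ?_⟩
  filter_upwards [h1.eventually_ne hy] with u hu
  rw [add_zero]
  field_simp
  ring

theorem jet_log0 {y : ℝ} (hy : 0 < y) :
    Jet (fun u => Real.log (y + u)) (1 / y) (-1 / (2 * y ^ 2)) := by
  unfold Jet
  refine Asymptotics.IsBigO.trans_isLittleO (g := fun u : ℝ => u ^ 3) ?_
    (Asymptotics.isLittleO_pow_pow (by norm_num))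
  refine Asymptotics.IsBigO.of_bound (2 / y ^ 3) ?_
  have hev : ∀ᶠ u in 𝓝 (0 : ℝ), |u| < y / 2 := by
    have : Tendsto (fun u : ℝ => |u|) (𝓝 0) (𝓝 0) := by
      simpa using (continuous_abs.tendsto (0 : ℝ))
    exact this.eventually_lt_const (by positivity)
  filter_upwards [hev] with u hu
  have hx : |-u / y| ≤ 1 / 2 := by
    rw [abs_div, abs_neg, abs_of_pos hy, div_le_iff₀ hy]
    linarith
  have h := Real.abs_log_sub_add_sum_range_le (x := -u / y) (by linarith) 2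
  have hpos : 0 < y + u := by linarith [neg_abs_le u]
  have e1 : Real.log (1 - -u / y) = Real.log (y + u) - Real.log y := by
    rw [← Real.log_div hpos.ne' hy.ne']
    congr 1
    field_simp
    ring
  have e2 : Real.log (y + u) - Real.log (y + 0) - 1 / y * u - -1 / (2 * y ^ 2) * u ^ 2 =
      (∑ i ∈ Finset.range 2, (-u / y) ^ (i + 1) / ((i : ℝ) + 1)) + Real.log (1 - -u / y) := by
    rw [e1, add_zero, Finset.sum_range_succ, Finset.sum_range_one]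
    push_cast
    field_simp
    ring
  rw [Real.norm_eq_abs, e2]
  refine h.trans ?_
  have e3 : 2 / y ^ 3 * ‖u ^ 3‖ = 2 * |-u / y| ^ (2 + 1) := by
    rw [Real.norm_eq_abs, abs_pow, abs_div, abs_neg, abs_of_pos hy, div_pow]
    ring
  rw [e3, div_le_iff₀ (by linarith)]
  have hp : 0 ≤ |-u / y| ^ (2 + 1) := by positivity
  nlinarith

theorem Jet.inv (hf : Jet f a₁ a₂) (h0 : f 0 ≠ 0) :
    Jet (fun t => (f t)⁻¹) (-a₁ / f 0 ^ 2) (a₁ ^ 2 / f 0 ^ 3 - a₂ / f 0 ^ 2) := by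
  have h := jet_comp (jet_inv0 h0) hf
  simp only [add_sub_cancel] at h
  exact h.of_eq (by ring) (by ring)

theorem Jet.log (hf : Jet f a₁ a₂) (h0 : 0 < f 0) :
    Jet (fun t => Real.log (f t)) (a₁ / f 0) (a₂ / f 0 - a₁ ^ 2 / (2 * f 0 ^ 2)) := by
  have h := jet_comp (jet_log0 h0) hf
  simp only [add_sub_cancel] at h
  exact h.of_eq (by ring) (by ring)

theorem Jet.nonpos (hf : Jet f a₁ a₂) (h : IsLocalMax f 0) : a₂ ≤ 0 := by
  obtain ⟨ε, h1, h2⟩ := jet_iff.1 hf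
  have hn : Tendsto (fun t : ℝ => -t) (𝓝 0) (𝓝 0) := by
    simpa using (continuous_neg.tendsto (0 : ℝ))
  have h3 : Tendsto (fun t : ℝ => 2 * a₂ + ε t + ε (-t)) (𝓝[≠] 0) (𝓝 (2 * a₂ + 0 + 0)) :=
    ((tendsto_const_nhds.add h1).add (h1.comp hn)).mono_left nhdsWithin_le_nhds
  have h4 : ∀ᶠ t in 𝓝[≠] (0 : ℝ), 2 * a₂ + ε t + ε (-t) ≤ 0 := by
    have hm : ∀ᶠ t in 𝓝 (0 : ℝ), f t ≤ f 0 := h
    filter_upwards [nhdsWithin_le_nhds h2, nhdsWithin_le_nhds (hn.eventually h2),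
      nhdsWithin_le_nhds hm, nhdsWithin_le_nhds (hn.eventually hm), self_mem_nhdsWithin]
      with t e1 e2 e3 e4 e5
    have ht : 0 < t ^ 2 := by
      have : t ≠ 0 := e5
      positivity
    have e1' : f t = f 0 + a₁ * t + a₂ * t ^ 2 + ε t * t ^ 2 := e1
    have e2' : f (-t) = f 0 + a₁ * (-t) + a₂ * (-t) ^ 2 + ε (-t) * (-t) ^ 2 := e2
    have e3' : f t ≤ f 0 := e3
    have e4' : f (-t) ≤ f 0 := e4
    have h5 : (2 * a₂ + ε t + ε (-t)) * t ^ 2 ≤ 0 := by nlinarith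
    by_contra hc
    have := mul_pos (not_le.1 hc) ht
    linarith
  have := le_of_tendsto h3 h4
  linarith

end Vale.Agent.P254B
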