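import Vale.Agent.P254B.Jet

/-! Expansion of the logarithm of a determinant. -/

namespace Vale.Agent.P254B

open Vale.Agent.P227
open scoped ContDiff Matrix RealInnerProductSpace Topology
open MeasureTheory Filter

variable {n : ℕ}

theorem jetdet_spec {N : Mat n} (hN : N.IsSymm) : ∃ l : Fin n → ℝ,
    (1 + N).det = ∏ i, (1 + l i) ∧ ∑ i, N i i = ∑ i, l i ∧
      ∑ i, ∑ j, N i j * N i j = ∑ i, l i ^ 2 := by
  have hH : N.IsHermitian := by
    simpa [Matrix.IsHermitian, Matrix.IsSymm] using hN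
  obtain ⟨U, V, l, h1, h2, h3⟩ : ∃ (U V : Mat n) (l : Fin n → ℝ), U * V = 1 ∧ V * U = 1 ∧
      N = U * Matrix.diagonal l * V := by
    refine ⟨hH.eigenvectorUnitary, star (hH.eigenvectorUnitary : Mat n), hH.eigenvalues,
      Unitary.coe_mul_star_self _, Unitary.coe_star_mul_self _, ?_⟩
    have := hH.spectral_theorem
    rw [Unitary.conjStarAlgAut_apply] at this
    simpa using this
  refine ⟨l, ?_, ?_, ?_⟩
  · have e : 1 + N = U * Matrix.diagonal (fun i => 1 + l i) * V := by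
      rw [← Matrix.diagonal_add, Matrix.diagonal_one, mul_add, add_mul, mul_one, h1, ← h3]
    have e2 : U.det * V.det = 1 := by rw [← Matrix.det_mul, h1, Matrix.det_one]
    rw [e, Matrix.det_mul, Matrix.det_mul, Matrix.det_diagonal]
    linear_combination (∏ i, (1 + l i)) * e2
  · have : N.trace = ∑ i, l i := by
      rw [h3, Matrix.trace_mul_cycle, h2, one_mul, Matrix.trace_diagonal]
    exact this
  · have e : N * N = U * Matrix.diagonal (fun i => l i * l i) * V := by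
      rw [← Matrix.diagonal_mul_diagonal]
      calc N * N = U * Matrix.diagonal l * (V * U) * Matrix.diagonal l * V := by
            rw [h3]; simp only [mul_assoc]
        _ = _ := by rw [h2]; simp only [mul_assoc, mul_one]
    have : (N * N).trace = ∑ i, l i * l i := by
      rw [e, Matrix.trace_mul_cycle, h2, one_mul, Matrix.trace_diagonal]
    simp only [sq]
    rw [← this]
    simp only [Matrix.trace, Matrix.diag, Matrix.mul_apply]
    exact Finset.sum_congr rfl fun i _ => Finset.sum_congr rfl fun j _ => by rw [hN.apply j i]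

theorem jetdet_one {x : ℝ} (h : |x| ≤ 1 / 2) :
    |Real.log (1 + x) - x + x ^ 2 / 2| ≤ 2 * |x| * x ^ 2 := by
  have h1 := Real.abs_log_sub_add_sum_range_le (x := -x) (by rw [abs_neg]; linarith) 2
  simp only [Finset.sum_range_succ, Finset.range_zero, Finset.sum_empty, abs_neg,
    sub_neg_eq_add] at h1
  have e : Real.log (1 + x) - x + x ^ 2 / 2 =
      0 + (-x) ^ (0 + 1) / (((0 : ℕ) : ℝ) + 1) + (-x) ^ (1 + 1) / (((1 : ℕ) : ℝ) + 1) +
        Real.log (1 + x) := by
    norm_num; ring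
  rw [e]
  refine h1.trans ?_
  rw [div_le_iff₀ (by linarith), ← sq_abs x]
  have h0 := abs_nonneg x
  have h3 := mul_nonneg (pow_nonneg h0 3) (sub_nonneg.2 h)
  have e2 : 2 * |x| * |x| ^ 2 * (1 - |x|) = |x| ^ (2 + 1) + 2 * (|x| ^ 3 * (1 / 2 - |x|)) := by
    ring
  rw [e2]
  linarith

theorem jetdet_est {N : Mat n} (hN : N.IsSymm) (hF : ∑ i, ∑ j, N i j * N i j ≤ 1 / 4) :
    0 < (1 + N).det ∧ |Real.log (1 + N).det - ∑ i, N i i + (∑ i, ∑ j, N i j * N i j) / 2| ≤
      2 * √(∑ i, ∑ j, N i j * N i j) * ∑ i, ∑ j, N i j * N i j := by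
  obtain ⟨l, h1, h2, h3⟩ := jetdet_spec hN
  rw [h3] at hF
  rw [h1, h2, h3]
  have hl : ∀ i, l i ^ 2 ≤ ∑ i, l i ^ 2 := fun i =>
    Finset.single_le_sum (f := fun i => l i ^ 2) (fun _ _ => sq_nonneg _) (Finset.mem_univ i)
  have hs : ∀ i, |l i| ≤ √(∑ i, l i ^ 2) := fun i => Real.abs_le_sqrt (hl i)
  have hh : ∀ i, |l i| ≤ 1 / 2 := fun i =>
    abs_le_of_sq_le_sq (((hl i).trans hF).trans (by norm_num)) (by norm_num)
  have hp : ∀ i, 0 < 1 + l i := fun i => by linarith [(abs_le.1 (hh i)).1]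
  refine ⟨Finset.prod_pos fun i _ => hp i, ?_⟩
  rw [Real.log_prod fun i _ => (hp i).ne', Finset.sum_div, ← Finset.sum_sub_distrib,
    ← Finset.sum_add_distrib, Finset.mul_sum]
  refine (Finset.abs_sum_le_sum_abs _ _).trans (Finset.sum_le_sum fun i _ => ?_)
  refine (jetdet_one (hh i)).trans ?_
  gcongr
  exact hs i

theorem jetdet_unit {N : ℝ → Mat n} {N₁ N₂ : Mat n} (h0 : N 0 = 0) (hs : ∀ t, (N t).IsSymm)
    (hj : ∀ i j, Jet (fun t => N t i j) (N₁ i j) (N₂ i j)) :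
    (∀ᶠ t in 𝓝 (0 : ℝ), 0 < (1 + N t).det) ∧
    Jet (fun t => Real.log (1 + N t).det) (∑ i, N₁ i i)
      (∑ i, N₂ i i - 1 / 2 * ∑ i, ∑ j, N₁ i j * N₁ i j) := by
  obtain ⟨F, hF⟩ : ∃ F : ℝ → ℝ, F = fun t => ∑ i, ∑ j, N t i j * N t i j := ⟨_, rfl⟩
  have F0 : F 0 = 0 := by simp [hF, h0]
  have jF : Jet F 0 (∑ i, ∑ j, N₁ i j * N₁ i j) := by
    rw [hF]
    refine (Jet.sum Finset.univ fun i _ => Jet.sum Finset.univ fun j _ =>
      (hj i j).mul (hj i j)).of_eq ?_ ?_ <;> simp [h0]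
  have tF : Tendsto F (𝓝 0) (𝓝 0) := by simpa only [F0] using jF.tendsto
  have sm : ∀ᶠ t in 𝓝 (0 : ℝ), ∑ i, ∑ j, N t i j * N t i j ≤ 1 / 4 := by
    have := tF.eventually (eventually_le_nhds (show (0 : ℝ) < 1 / 4 by norm_num))
    rwa [hF] at this
  refine ⟨sm.mono fun t ht => (jetdet_est (hs t) ht).1, ?_⟩
  have jG := ((Jet.sum Finset.univ fun i _ => hj i i).sub (jF.const_mul (1 / 2)))
  have oF : Asymptotics.IsBigO (𝓝 0) F fun t : ℝ => t ^ 2 := by
    have := jF.isBigO.add ((Asymptotics.isBigO_refl (fun t : ℝ => t ^ 2) (𝓝 0)).const_mul_left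
      (∑ i, ∑ j, N₁ i j * N₁ i j))
    refine this.congr_left fun t => ?_
    rw [F0]; ring
  have o1 : Asymptotics.IsLittleO (𝓝 0) (fun t => 2 * √(F t)) fun _ : ℝ => (1 : ℝ) := by
    rw [Asymptotics.isLittleO_one_iff]
    simpa using tF.sqrt.const_mul 2
  have o2 := o1.mul_isBigO oF
  have o3 : Asymptotics.IsBigO (𝓝 0)
      (fun t => Real.log (1 + N t).det - ∑ i, N t i i + F t / 2) fun t => 2 * √(F t) * F t := by
    refine Asymptotics.IsBigO.of_bound 1 (sm.mono fun t ht => ?_)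
    rw [one_mul, Real.norm_eq_abs, Real.norm_eq_abs, hF]
    exact (jetdet_est (hs t) ht).2.trans (le_abs_self _)
  have o4 := (o3.trans_isLittleO (o2.congr_right fun t => one_mul _)).add jG
  refine o4.congr_left fun t => ?_
  simp only [h0, F0, add_zero, Matrix.det_one, Real.log_one, Matrix.zero_apply,
    Finset.sum_const_zero]
  ring

theorem jet_logdet {M : ℝ → Mat n} {M₁ M₂ : Mat n} {d : Fin n → ℝ} (hd : ∀ i, 0 < d i)
    (h0 : M 0 = Matrix.diagonal d) (hs : ∀ t, (M t).IsSymm)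
    (hj : ∀ i j, Jet (fun t => M t i j) (M₁ i j) (M₂ i j)) :
    Jet (fun t => Real.log (M t).det) (∑ i, M₁ i i / d i)
      (∑ i, M₂ i i / d i - 1 / 2 * ∑ i, ∑ j, M₁ i j ^ 2 / (d i * d j)) := by
  obtain ⟨s, hs0, hs1⟩ : ∃ s : Fin n → ℝ, (∀ i, 0 < s i) ∧ ∀ i, s i * s i = (d i)⁻¹ :=
    ⟨fun i => √(d i)⁻¹, fun i => Real.sqrt_pos.2 (inv_pos.2 (hd i)),
      fun i => Real.mul_self_sqrt (inv_pos.2 (hd i)).le⟩
  obtain ⟨N, hN⟩ : ∃ N : ℝ → Mat n,
      N = fun t => Matrix.diagonal s * M t * Matrix.diagonal s - 1 := ⟨_, rfl⟩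
  have eN : ∀ t i j, N t i j = s i * s j * M t i j - (1 : Mat n) i j := fun t i j => by
    simp only [hN, Matrix.sub_apply, Matrix.mul_diagonal, Matrix.diagonal_mul]
    ring
  have N0 : N 0 = 0 := by
    ext i j
    rw [eN, h0]
    by_cases h : i = j
    · subst h
      simp [hs1, (hd i).ne']
    · simp [h]
  have sN : ∀ t, (N t).IsSymm := fun t => Matrix.IsSymm.ext fun i j => by
    rw [eN, eN, (hs t).apply i j, Matrix.isSymm_one.apply i j, mul_comm (s j)]
  obtain ⟨hp, hJ⟩ := jetdet_unit (N₁ := Matrix.of fun i j => s i * s j * M₁ i j)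
    (N₂ := Matrix.of fun i j => s i * s j * M₂ i j) N0 sN fun i j => by
      simp only [eN, Matrix.of_apply]
      exact (((hj i j).const_mul _).sub (jet_const _)).of_eq (sub_zero _) (sub_zero _)
  have hP : 0 < ∏ i, s i := Finset.prod_pos fun i _ => hs0 i
  have eD : ∀ t, (1 + N t).det = (∏ i, s i) * (∏ i, s i) * (M t).det := fun t => by
    simp only [hN, add_sub_cancel, Matrix.det_mul, Matrix.det_diagonal]
    ring
  refine ((hJ.sub (jet_const (Real.log ((∏ i, s i) * ∏ i, s i)))).congr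
    (hp.mono fun t ht => ?_)).of_eq ?_ ?_
  · have : (M t).det ≠ 0 := fun h => by simp [eD, h] at ht
    simp only [eD]
    rw [Real.log_mul (mul_pos hP hP).ne' this]
    ring
  · simp only [Matrix.of_apply, hs1, sub_zero]
    exact Finset.sum_congr rfl fun i _ => by ring
  · simp only [Matrix.of_apply, hs1, sub_zero]
    congr 1
    · exact Finset.sum_congr rfl fun i _ => by ring
    · congr 1
      refine Finset.sum_congr rfl fun i _ => Finset.sum_congr rfl fun j _ => ?_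
      rw [div_eq_mul_inv, mul_inv, ← hs1, ← hs1]
      ring

end Vale.Agent.P254B
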