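import Vale.Agent.P254B.Jet
import Vale.Agent.P254B.Base

/-! Expansion of integrals along the test curves. -/

namespace Vale.Agent.P254B

open Vale.Agent.P227
open scoped ContDiff Matrix RealInnerProductSpace Topology
open MeasureTheory Filter

variable {n : ℕ}

theorem jetex_exp (x : ℝ) : |Real.exp x - (1 + x + x ^ 2 / 2)| ≤ |x| ^ 3 * Real.exp |x| := by
  have h := Complex.norm_exp_sub_sum_le_norm_mul_exp (x : ℂ) 3
  have e : Complex.exp x - ∑ m ∈ Finset.range 3, (x : ℂ) ^ m / m.factorial =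
      ((Real.exp x - (1 + x + x ^ 2 / 2) : ℝ) : ℂ) := by
    simp [Finset.sum_range_succ, Nat.factorial]
  rwa [e, Complex.norm_real, Complex.norm_real] at h

theorem jetex_pt {a b t κ : ℝ} (hb : 0 ≤ b) (h1 : |t| ≤ 1) (h2 : |t| ≤ κ) :
    |Real.exp (t * a - t ^ 2 * b) - 1 - a * t - (a ^ 2 / 2 - b) * t ^ 2| ≤
      |t| ^ 3 * (((|a| + b) ^ 3 + (|a| * b + b ^ 2)) * Real.exp (|a| + κ * b)) := by
  have t0 := abs_nonneg t
  have a0 := abs_nonneg a
  have k0 : 0 ≤ κ := t0.trans h2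
  have p0 : |t * a - t ^ 2 * b| ≤ |t| * |a| + |t| * (|t| * b) := by
    refine (abs_sub _ _).trans (le_of_eq ?_)
    rw [abs_mul, abs_mul, abs_pow, abs_of_nonneg hb]
    ring
  have q1 : |t| * b ≤ b := mul_le_of_le_one_left hb h1
  have p1 : |t * a - t ^ 2 * b| ≤ |t| * (|a| + b) := by
    have := mul_le_mul_of_nonneg_left q1 t0
    linarith
  have p2 : |t * a - t ^ 2 * b| ≤ |a| + κ * b := by
    have := mul_le_mul_of_nonneg_right h2 hb
    have := mul_le_of_le_one_left a0 h1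
    have := mul_le_of_le_one_left (mul_nonneg t0 hb) h1
    linarith
  have e1 : 1 ≤ Real.exp (|a| + κ * b) := Real.one_le_exp (by positivity)
  have h := (jetex_exp (t * a - t ^ 2 * b)).trans (mul_le_mul (pow_le_pow_left₀ (abs_nonneg _) p1 3)
    (Real.exp_le_exp.2 p2) (Real.exp_pos _).le (by positivity))
  have r : |t ^ 3 * (t * b ^ 2 / 2 - a * b)| ≤ |t| ^ 3 * (|a| * b + b ^ 2) := by
    rw [abs_mul, abs_pow]
    refine mul_le_mul_of_nonneg_left ((abs_sub _ _).trans ?_) (by positivity)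
    rw [abs_div, abs_mul, abs_mul, abs_pow, abs_of_nonneg hb, abs_two]
    have := mul_le_of_le_one_left (sq_nonneg b) h1
    have := sq_nonneg b
    linarith
  have r2 := le_mul_of_one_le_right (show 0 ≤ |t| ^ 3 * (|a| * b + b ^ 2) by positivity) e1
  rw [show Real.exp (t * a - t ^ 2 * b) - 1 - a * t - (a ^ 2 / 2 - b) * t ^ 2 =
    (Real.exp (t * a - t ^ 2 * b) - (1 + (t * a - t ^ 2 * b) + (t * a - t ^ 2 * b) ^ 2 / 2)) +
      t ^ 3 * (t * b ^ 2 / 2 - a * b) by ring]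
  refine (abs_add_le _ _).trans ((add_le_add h (r.trans r2)).trans (le_of_eq ?_))
  ring

theorem jetex_lin {κ : ℝ} (hκ : 0 < κ) (s : ℝ) (k : Fin n) (y : E n) :
    |s * y k| ≤ κ / 4 * ‖y‖ ^ 2 + s ^ 2 / κ := by
  have h1 : |y k| ≤ ‖y‖ := PiLp.norm_apply_le y k
  have h2 : |s * y k| ≤ |s| * ‖y‖ := by
    rw [abs_mul]
    exact mul_le_mul_of_nonneg_left h1 (abs_nonneg s)
  have h3 : κ / 4 * ‖y‖ ^ 2 + s ^ 2 / κ - |s| * ‖y‖ = (κ / 2 * ‖y‖ - |s|) ^ 2 / κ := by
    rw [← sq_abs s]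
    field_simp
    ring
  have h4 : 0 ≤ (κ / 2 * ‖y‖ - |s|) ^ 2 / κ := by positivity
  linarith

theorem coer_cur {U : E n → ℝ} (hU : Coer U) (s : ℝ) (k : Fin n) (t : ℝ) :
    Coer (cur U s k t) := by
  obtain ⟨κ, C, hκ, h⟩ := hU
  refine ⟨κ / 2, C + (t * s) ^ 2 / κ, by positivity, fun y => ?_⟩
  have h1 := jetex_lin hκ (t * s) k y
  have h2 := le_abs_self (t * s * y k)
  have h3 : 0 ≤ t ^ 2 * (‖y‖ ^ 2 / 2) := by positivity
  have h4 : 0 ≤ κ * ‖y‖ ^ 2 := by positivity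
  have h5 := h y
  unfold cur
  linarith

theorem cont_cur {U : E n → ℝ} (cU : Continuous U) (s : ℝ) (k : Fin n) (t : ℝ) :
    Continuous (cur U s k t) := by
  unfold cur
  fun_prop

theorem jet_Ex {U g : E n → ℝ} (hU : Coer U) (cU : Continuous U) (hg : CPB g) (s : ℝ)
    (k : Fin n) : Jet (fun t => Ex (cur U s k t) g) (Ex U fun y => g y * (s * y k))
      (Ex U fun y => g y * ((s * y k) ^ 2 / 2 - ‖y‖ ^ 2 / 2)) := by
  obtain ⟨κ, C, hκ, h⟩ := id hU
  have ca : CPB fun y : E n => s * y k := (cpb_coord k).const_mul s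
  have cb : CPB fun y : E n => ‖y‖ ^ 2 / 2 := by
    simpa [div_eq_inv_mul] using (cpb_norm.pow 2).const_mul (2⁻¹ : ℝ)
  have ca2 : CPB fun y : E n => (s * y k) ^ 2 / 2 := by
    simpa [div_eq_inv_mul] using (ca.pow 2).const_mul (2⁻¹ : ℝ)
  have hV : Coer fun y : E n => U y - (|s * y k| + κ * (‖y‖ ^ 2 / 2)) := by
    refine ⟨κ / 4, C + s ^ 2 / κ, by positivity, fun y => ?_⟩
    have h1 := jetex_lin hκ s k y
    have h2 := h y
    linarith
  have iV := integrable_Ex hV (by fun_prop) (hg.abs.mul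
    (((ca.abs.add cb).pow 3).add ((ca.abs.mul cb).add (cb.pow 2))))
  have i0 := integrable_Ex hU cU hg
  have i1 := integrable_Ex hU cU (hg.mul ca)
  have i2 := integrable_Ex hU cU (hg.mul (ca2.sub cb))
  refine Asymptotics.IsBigO.trans_isLittleO (g := fun t : ℝ => t ^ 3) ?_
    (Asymptotics.isLittleO_pow_pow (by norm_num))
  refine Asymptotics.IsBigO.of_bound (∫ y : E n, |g y| * ((|s * y k| + ‖y‖ ^ 2 / 2) ^ 3 +
    (|s * y k| * (‖y‖ ^ 2 / 2) + (‖y‖ ^ 2 / 2) ^ 2)) *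
      Real.exp (-(U y - (|s * y k| + κ * (‖y‖ ^ 2 / 2))))) ?_
  have ev : ∀ᶠ t : ℝ in 𝓝 0, |t| < min 1 κ :=
    (continuous_abs.tendsto' 0 0 abs_zero).eventually (gt_mem_nhds (lt_min one_pos hκ))
  filter_upwards [ev] with t ht
  have it := integrable_Ex (coer_cur hU s k t) (cont_cur cU s k t) hg
  rw [cur_zero]
  simp only [Ex]
  rw [← integral_mul_const, ← integral_mul_const, ← integral_mul_const, ← integral_sub it i0,
    ← integral_sub (it.sub' i0) (i1.mul_const t),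
    ← integral_sub ((it.sub' i0).sub' (i1.mul_const t)) (i2.mul_const _)]
  refine norm_integral_le_of_norm_le (iV.mul_const _) (ae_of_all _ fun y => ?_)
  have p := jetex_pt (a := s * y k) (b := ‖y‖ ^ 2 / 2) (by positivity)
    (ht.le.trans (min_le_left _ _)) (ht.le.trans (min_le_right _ _))
  have e1 : Real.exp (-cur U s k t y) =
      Real.exp (-U y) * Real.exp (t * (s * y k) - t ^ 2 * (‖y‖ ^ 2 / 2)) := by
    rw [← Real.exp_add, cur]
    exact congrArg Real.exp (by ring)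
  have e2 : Real.exp (-(U y - (|s * y k| + κ * (‖y‖ ^ 2 / 2)))) =
      Real.exp (-U y) * Real.exp (|s * y k| + κ * (‖y‖ ^ 2 / 2)) := by
    rw [← Real.exp_add]
    exact congrArg Real.exp (by ring)
  have q := mul_le_mul_of_nonneg_left p (abs_nonneg (g y * Real.exp (-U y)))
  rw [← abs_mul] at q
  simp only [Real.norm_eq_abs]
  rw [e1, e2, abs_pow]
  refine (le_of_eq (congrArg abs (by ring))).trans (q.trans (le_of_eq ?_))
  rw [abs_mul (g y), abs_of_pos (Real.exp_pos _)]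
  ring

end Vale.Agent.P254B
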