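import Vale.Agent.P254B.JetEx

/-! Expansion of moments and entropy along the test curves. -/

namespace Vale.Agent.P254B

open Vale.Agent.P227
open scoped ContDiff Matrix RealInnerProductSpace Topology
open MeasureTheory Filter

variable {n : ℕ}

variable {U g : E n → ℝ} {s : ℝ}

theorem jetn_lin (hi : Iso U) (s : ℝ) (i k : Fin n) :
    nm U (fun y => y i * (s * y k)) = s * (1 : Mat n) i k := by
  rw [← hi.2 i k, m2, ← nm_const_mul]
  simp only [mul_left_comm]

theorem jetn_cq : CPB fun y : E n => ‖y‖ ^ 2 / 2 := by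
  simpa only [div_eq_inv_mul] using (cpb_norm.pow 2).const_mul (2 : ℝ)⁻¹

theorem jetn_cm (s : ℝ) (k : Fin n) : CPB fun y : E n => (s * y k) ^ 2 / 2 := by
  simpa only [div_eq_inv_mul] using (((cpb_coord k).const_mul s).pow 2).const_mul (2 : ℝ)⁻¹

theorem jetn_nsq (h : Good U) (hi : Iso U) : nm U (fun y => ‖y‖ ^ 2 / 2) = n / 2 := by
  have e : (fun y : E n => ‖y‖ ^ 2 / 2) = fun y => (2 : ℝ)⁻¹ * ∑ i, y i * y i := funext fun y => by
    rw [EuclideanSpace.real_norm_sq_eq, div_eq_inv_mul]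
    simp only [pow_two]
  have e2 : ∀ i, nm U (fun y => y i * y i) = 1 := fun i => (hi.2 i i).trans (Matrix.one_apply_eq i)
  rw [e, nm_const_mul, nm_sum h.coer h.cont _ fun i _ => (cpb_coord i).mul (cpb_coord i)]
  simp only [e2, Finset.sum_const, Finset.card_univ, Fintype.card_fin, nsmul_eq_mul, mul_one]
  ring

theorem jetn_ex (h : Good U) (hg : nm U g = 0) : Ex U g = 0 :=
  (div_eq_zero_iff.1 hg).resolve_right (Zf_pos h.coer h.cont).ne'

theorem jet_Z (h : Good U) (hi : Iso U) (hs : s ^ 2 = n) (k : Fin n) :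
    Jet (fun t => Zf (cur U s k t)) 0 0 := by
  refine (jet_Ex h.coer h.cont (cpb_const 1) s k).of_eq (jetn_ex h ?_) (jetn_ex h ?_)
  · simp only [one_mul]
    rw [nm_const_mul]
    exact mul_eq_zero_of_right _ (hi.1 k)
  · simp only [one_mul]
    have e : (fun y : E n => (s * y k) ^ 2 / 2) = fun y => s / 2 * (y k * (s * y k)) :=
      funext fun y => by ring
    rw [nm_sub h.coer h.cont (jetn_cm s k) jetn_cq, jetn_nsq h hi, e, nm_const_mul, jetn_lin hi,
      Matrix.one_apply_eq, ← hs]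
    ring

theorem jet_nm (h : Good U) (hi : Iso U) (hs : s ^ 2 = n) (hg : CPB g) (k : Fin n) :
    Jet (fun t => nm (cur U s k t) g) (nm U fun y => g y * (s * y k))
      (nm U fun y => g y * ((s * y k) ^ 2 / 2 - ‖y‖ ^ 2 / 2)) := by
  have z : Zf (cur U s k 0) ≠ 0 := by
    rw [cur_zero]
    exact (Zf_pos h.coer h.cont).ne'
  have k1 := (jet_Ex h.coer h.cont hg s k).mul ((jet_Z h hi hs k).inv z)
  simp only [nm, div_eq_mul_inv (Ex _ _)]
  refine k1.of_eq ?_ ?_
  · simp only [cur_zero]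
    ring
  · simp only [cur_zero]
    ring

theorem sum_mart (h : Good U) (hs : s ^ 2 = n) (hg : CPB g) :
    ∑ k, (nm U fun y => g y * ((s * y k) ^ 2 / 2 - ‖y‖ ^ 2 / 2)) = 0 := by
  rw [← nm_sum h.coer h.cont _ fun k _ => hg.mul ((jetn_cm s k).sub jetn_cq)]
  refine Eq.trans (congrArg (nm U) (funext fun y => ?_)) (nm_const h.coer h.cont 0)
  rw [← Finset.mul_sum, Finset.sum_sub_distrib, Finset.sum_const, Finset.card_univ,
    Fintype.card_fin, nsmul_eq_mul, ← Finset.sum_div]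
  simp only [mul_pow, ← Finset.mul_sum, hs, ← EuclideanSpace.real_norm_sq_eq]
  ring

theorem jet_cv (h : Good U) (hi : Iso U) (hs : s ^ 2 = n) : ∃ e : Fin n → Mat n,
    (∀ k i j, Jet (fun t => cv (cur U s k t) i j) (s * m3 U i j k) (e k i j)) ∧
      ∀ i j, ∑ k, e k i j = -(n : ℝ) * (1 : Mat n) i j := by
  refine ⟨fun k => Matrix.of fun i j =>
    (nm U fun y => y i * y j * ((s * y k) ^ 2 / 2 - ‖y‖ ^ 2 / 2))
      - s ^ 2 * ((1 : Mat n) i k * (1 : Mat n) j k), fun k i j => ?_, fun i j => ?_⟩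
  · have z : ∀ i, nm U (fun y => y i) = 0 := hi.1
    refine ((jet_nm h hi hs ((cpb_coord i).mul (cpb_coord j)) k).sub
      ((jet_nm h hi hs (cpb_coord i) k).mul (jet_nm h hi hs (cpb_coord j) k))).of_eq ?_ ?_
    · simp only [cur_zero, z, zero_mul, mul_zero, add_zero, sub_zero]
      rw [m3, ← nm_const_mul]
      simp only [mul_left_comm]
    · simp only [cur_zero, z, zero_mul, mul_zero, add_zero, zero_add, jetn_lin hi, Matrix.of_apply]
      ring
  · simp only [Matrix.of_apply]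
    rw [Finset.sum_sub_distrib, sum_mart h hs ((cpb_coord i).mul (cpb_coord j)), ← Finset.mul_sum,
      hs]
    simp only [Matrix.one_apply, ite_mul, one_mul, zero_mul, Finset.sum_ite_eq, Finset.mem_univ,
      if_true, eq_comm (a := j) (b := i)]
    ring

theorem jetn_en (h : Good U) (s : ℝ) (k : Fin n) (t : ℝ) : en (cur U s k t) =
    nm (cur U s k t) U - t * (s * nm (cur U s k t) fun y => y k)
      + t ^ 2 * nm (cur U s k t) (fun y => ‖y‖ ^ 2 / 2) + Real.log (Zf (cur U s k t)) := by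
  have c1 := coer_cur h.coer s k t
  have c2 := cont_cur h.cont s k t
  have p1 := ((cpb_coord k).const_mul s).const_mul t
  rw [← nm_const_mul, ← nm_const_mul, ← nm_const_mul, ← nm_sub c1 c2 h.sm.pg.cpb p1,
    ← nm_add c1 c2 (h.sm.pg.cpb.sub p1) (jetn_cq.const_mul _)]
  rfl

theorem jet_en (h : Good U) (hi : Iso U) (hs : s ^ 2 = n) : ∃ c₁ c₂ : Fin n → ℝ,
    (∀ k, Jet (fun t => en (cur U s k t)) (c₁ k) (c₂ k)) ∧ ∑ k, c₂ k = -(n : ℝ) ^ 2 / 2 := by
  have z : ∀ k, 0 < Zf (cur U s k 0) := fun k => by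
    rw [cur_zero]
    exact Zf_pos h.coer h.cont
  have k1 := fun k => ((((jet_nm h hi hs h.sm.pg.cpb k).sub
    (jet_id.mul ((jet_nm h hi hs (cpb_coord k) k).const_mul s))).add
    (jet_sq.mul (jet_nm h hi hs jetn_cq k))).add ((jet_Z h hi hs k).log (z k)))
  simp only [jetn_en h]
  refine ⟨_, _, k1, ?_⟩
  simp only [cur_zero, jetn_lin hi, jetn_nsq h hi, Matrix.one_apply_eq]
  refine Eq.trans (Finset.sum_congr rfl (g := fun k =>
    (nm U fun y => U y * ((s * y k) ^ 2 / 2 - ‖y‖ ^ 2 / 2)) - n / 2) fun k _ => ?_) ?_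
  · linear_combination -hs
  · rw [Finset.sum_sub_distrib, sum_mart h hs h.sm.pg.cpb, Finset.sum_const, Finset.card_univ,
      Fintype.card_fin, nsmul_eq_mul]
    ring

end Vale.Agent.P254B
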