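import Vale.Agent.P254B.MIg
import Vale.Agent.P254B.AffB

/-! Weighted bound on third moments. -/

namespace Vale.Agent.P254B

open Vale.Agent.P227
open scoped ContDiff Matrix RealInnerProductSpace Topology
open MeasureTheory Filter

variable {n : ℕ}

theorem k3a_alg {t ρ : Fin n → ℝ} (ht : ∀ i, 0 < t i) (M : Fin n → Fin n → Fin n → ℝ)
    (w2 : Fin n → Fin n → ℝ) (w3 : Fin n → Fin n → Fin n → ℝ)
    (h2 : ∀ i j, w2 i j = if i = j then t i ^ 2 else 0)
    (h3 : ∀ i j c, w3 i j c = t i * t j * t c * M i j c)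
    (H : ∑ i, ∑ j, (1 + 2 * (ρ i / t i ^ 2) * t i ^ 2) * (w2 i j ^ 2 +
      ∑ c, w3 i j c / (2 * t c ^ 2) * w3 i j c -
      ∑ c, ∑ d, w3 i j c / (2 * t c ^ 2) * (w3 i j d / (2 * t d ^ 2)) * w2 c d) ≤
      2 * ∑ i, ∑ j, w2 i j ^ 2 + ∑ i, ρ i / t i ^ 2 * (t i ^ 2) ^ 2 * w2 i i) :
    ∑ i, ∑ j, (1 + 2 * ρ i) * (t i ^ 2 * t j ^ 2) * ∑ c, M i j c ^ 2 / 4 ≤
      ∑ i, (t i ^ 2) ^ 2 * (1 - ρ i) := by
  have e1 : ∀ i, ∑ j, w2 i j ^ 2 = (t i ^ 2) ^ 2 := fun i => by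
    simp only [h2, ite_pow, ne_eq, OfNat.ofNat_ne_zero, not_false_eq_true, zero_pow,
      Finset.sum_ite_eq, Finset.mem_univ, if_true]
  have e2 : ∀ i j, ∑ c, w3 i j c / (2 * t c ^ 2) * w3 i j c -
      ∑ c, ∑ d, w3 i j c / (2 * t c ^ 2) * (w3 i j d / (2 * t d ^ 2)) * w2 c d =
      t i ^ 2 * t j ^ 2 * ∑ c, M i j c ^ 2 / 4 := fun i j => by
    rw [Finset.mul_sum, ← Finset.sum_sub_distrib]
    refine Finset.sum_congr rfl fun c _ => ?_
    simp only [h2, mul_ite, mul_zero, Finset.sum_ite_eq, Finset.mem_univ, if_true, h3]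
    have := (ht c).ne'
    field_simp
    ring
  have e3 : ∀ i, 1 + 2 * (ρ i / t i ^ 2) * t i ^ 2 = 1 + 2 * ρ i := fun i => by
    have := (ht i).ne'
    field_simp
  have e4 : ∀ i, ρ i / t i ^ 2 * (t i ^ 2) ^ 2 * w2 i i = ρ i * (t i ^ 2) ^ 2 := fun i => by
    have := (ht i).ne'
    rw [h2, if_pos rfl]
    field_simp
  have e5 : ∀ i, ∑ j, (1 + 2 * ρ i) * (w2 i j ^ 2 + t i ^ 2 * t j ^ 2 * ∑ c, M i j c ^ 2 / 4) =
      (1 + 2 * ρ i) * (t i ^ 2) ^ 2 +
        ∑ j, (1 + 2 * ρ i) * (t i ^ 2 * t j ^ 2) * ∑ c, M i j c ^ 2 / 4 := fun i => by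
    rw [← e1, Finset.mul_sum, ← Finset.sum_add_distrib]
    exact Finset.sum_congr rfl fun j _ => by ring
  simp only [add_sub_assoc, e2, e3, e4, e5, e1, Finset.sum_add_distrib] at H
  have e6 : ∑ i, (t i ^ 2) ^ 2 * (1 - ρ i) = 2 * ∑ i, (t i ^ 2) ^ 2 + ∑ i, ρ i * (t i ^ 2) ^ 2 -
      ∑ i, (1 + 2 * ρ i) * (t i ^ 2) ^ 2 := by
    rw [Finset.mul_sum, ← Finset.sum_add_distrib, ← Finset.sum_sub_distrib]
    exact Finset.sum_congr rfl fun i _ => by ring
  rw [e6]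
  linarith

theorem k3_weight {U : E n → ℝ} (h : Good U) (hi : Iso U) {ρ : Fin n → ℝ} (hρ : ∀ i, 0 ≤ ρ i)
    (hd : ∀ x ξ, dq ρ ξ ≤ qf (hess U x) ξ) {m : Fin n → ℝ} (hm : ∀ i, 0 < m i) :
    ∑ i, ∑ j, (1 + 2 * ρ i) * (m i * m j) * ∑ c, m3 U i j c ^ 2 / 4 ≤
      ∑ i, m i ^ 2 * (1 - ρ i) := by
  obtain ⟨t, ht, rfl⟩ : ∃ t : Fin n → ℝ, (∀ i, 0 < t i) ∧ m = fun i => t i ^ 2 :=
    ⟨fun i => √(m i), fun i => Real.sqrt_pos.2 (hm i),
      funext fun i => (Real.sq_sqrt (hm i).le).symm⟩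
  set S : Mat n := Matrix.diagonal fun i => (t i)⁻¹ with hS
  have hdet : IsUnit S.det := by
    rw [hS, Matrix.det_diagonal]
    exact (Finset.prod_ne_zero_iff.2 fun i _ => inv_ne_zero (ht i).ne').isUnit
  have hl : ∀ (y : E n) i, lin S y i = (t i)⁻¹ * y i := fun y i => by
    simp [lin_apply, hS, Matrix.diagonal_apply]
  have ha : ∀ (y : E n) i, t i * aff 0 S y i = y i := fun y i => by
    rw [aff, zero_add, hl, mul_inv_cancel_left₀ (ht i).ne']
  have w1 : ∀ i, m1 (fun y => U (aff 0 S y)) i = 0 := fun i => by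
    have := nm_aff U (fun x => t i * x i) 0 hdet
    simp only [ha] at this
    rw [m1, this, nm_const_mul]
    exact mul_eq_zero_of_right _ (hi.1 i)
  have w2 : ∀ i j, m2 (fun y => U (aff 0 S y)) i j = if i = j then t i ^ 2 else 0 := fun i j => by
    have := nm_aff U (fun x => t i * x i * (t j * x j)) 0 hdet
    simp only [ha] at this
    have e : (fun x : E n => t i * x i * (t j * x j)) = fun x => t i * t j * (x i * x j) :=
      funext fun x => by ring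
    rw [m2, this, e, nm_const_mul]
    have h2 := hi.2 i j
    rw [m2] at h2
    rw [h2, Matrix.one_apply]
    split_ifs with hij
    · rw [hij]; ring
    · ring
  have w3 : ∀ i j c, m3 (fun y => U (aff 0 S y)) i j c = t i * t j * t c * m3 U i j c :=
    fun i j c => by
      have := nm_aff U (fun x => t i * x i * (t j * x j) * (t c * x c)) 0 hdet
      simp only [ha] at this
      have e : (fun x : E n => t i * x i * (t j * x j) * (t c * x c)) =
          fun x => t i * t j * t c * (x i * x j * x c) := funext fun x => by ring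
      rw [m3, this, e, nm_const_mul, m3]
  have hmi := mi_good (good_aff h 0 hdet) w1 (p := fun i => ρ i / t i ^ 2)
    (fun i => div_nonneg (hρ i) (sq_nonneg _)) (fun x ξ => by
      rw [hess_aff h.smo, qf_conj]
      refine le_trans (le_of_eq ?_) (hd _ _)
      refine Finset.sum_congr rfl fun i _ => ?_
      rw [hl, mul_pow, inv_pow, ← mul_assoc, ← div_eq_mul_inv])
  exact k3a_alg ht (m3 U) _ _ w2 w3 (hmi (fun i => t i ^ 2)
    (fun i j c => m3 (fun y => U (aff 0 S y)) i j c / (2 * t c ^ 2)) fun i => sq_nonneg _)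

end Vale.Agent.P254B
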