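import Vale.Agent.P254B.K3a

/-! The bound on third moments in final form. -/

namespace Vale.Agent.P254B

open Vale.Agent.P227
open scoped ContDiff Matrix RealInnerProductSpace Topology
open MeasureTheory Filter

variable {n : ℕ}

theorem rho_le {U : E n → ℝ} (h : Good U) (hi : Iso U) {ρ : Fin n → ℝ} (hρ : ∀ i, 0 ≤ ρ i)
    (hd : ∀ x ξ, dq ρ ξ ≤ qf (hess U x) ξ) (i : Fin n) : ρ i ≤ 1 := by
  by_contra q
  have q1 : 0 < ρ i - 1 := sub_pos.2 (not_le.1 q)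
  obtain ⟨M, M1, M2⟩ : ∃ M : ℝ, 1 ≤ M ∧ (n : ℝ) < M * (ρ i - 1) :=
    ⟨1 + n / (ρ i - 1), le_add_of_nonneg_right (by positivity), by
      rw [add_mul, div_mul_cancel₀ _ q1.ne']
      linarith⟩
  have hm : ∀ j, 0 < (if j = i then M else 1) := fun j => by split_ifs <;> linarith
  have k := k3_weight h hi hρ hd hm
  have k0 : 0 ≤ ∑ a, ∑ j, (1 + 2 * ρ a) * ((if a = i then M else 1) * if j = i then M else 1) *
      ∑ c, m3 U a j c ^ 2 / 4 :=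
    Finset.sum_nonneg fun a _ => Finset.sum_nonneg fun j _ => by
      have := hρ a
      have := hm a
      have := hm j
      positivity
  have k1 : ∑ j, (if j = i then M else 1) ^ 2 * (1 - ρ j) ≤
      ∑ j : Fin n, (1 + if j = i then M ^ 2 * (1 - ρ i) else 0) :=
    Finset.sum_le_sum fun j _ => by
      have := hρ j
      split_ifs with e
      · rw [e]
        linarith
      · linarith
  rw [Finset.sum_add_distrib, Finset.sum_ite_eq' Finset.univ i, if_pos (Finset.mem_univ _),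
    Finset.sum_const, Finset.card_univ, Fintype.card_fin, nsmul_eq_mul, mul_one] at k1
  nlinarith [mul_nonneg (mul_nonneg (sub_nonneg.2 M1) (zero_le_one.trans M1)) q1.le]

theorem k3b_pt {r s : ℝ} (r0 : 0 ≤ r) (r1 : r ≤ 1) (s0 : 0 ≤ s) (s1 : s ≤ 1) :
    1 + 2 * (r * s) / ((1 + r) * (1 + s)) ≤ (1 + r + s) * ((√(1 + r))⁻¹ * (√(1 + s))⁻¹) := by
  obtain ⟨u, hu, u1, e1⟩ : ∃ u : ℝ, √(1 + r) = u ∧ 1 ≤ u ∧ r = u ^ 2 - 1 :=
    ⟨_, rfl, Real.one_le_sqrt.2 (by linarith), by rw [Real.sq_sqrt (by linarith)]; ring⟩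
  obtain ⟨v, hv, v1, e2⟩ : ∃ v : ℝ, √(1 + s) = v ∧ 1 ≤ v ∧ s = v ^ 2 - 1 :=
    ⟨_, rfl, Real.one_le_sqrt.2 (by linarith), by rw [Real.sq_sqrt (by linarith)]; ring⟩
  rw [hu, hv, ← mul_inv]
  have x1 : 1 ≤ u * v := one_le_mul_of_one_le_of_one_le u1 v1
  have e3 : (1 + r) * (1 + s) = (u * v) ^ 2 := by rw [e1, e2]; ring
  have x2 : u * v ≤ 2 := by
    refine (abs_le_of_sq_le_sq' ?_ (by norm_num)).2
    rw [← e3]
    nlinarith
  have q1 : r * s ≤ (u * v - 1) ^ 2 := by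
    rw [e1, e2]
    nlinarith [sq_nonneg (u - v)]
  have e4 : 1 + r + s = (u * v) ^ 2 - r * s := by rw [← e3]; ring
  rw [e3, e4]
  generalize u * v = x at x1 x2 q1 ⊢
  generalize r * s = q at q1 ⊢
  have x0 : 0 < x := by linarith
  have k : q * (x + 2) ≤ x ^ 2 * (x - 1) := by
    have := mul_le_mul_of_nonneg_right q1 (show 0 ≤ x + 2 by linarith)
    nlinarith [mul_nonneg (sub_nonneg.2 x1) (sub_nonneg.2 x2)]
  have e5 : (x ^ 2 - q) * x⁻¹ - (1 + 2 * q / x ^ 2) = (x ^ 2 * (x - 1) - q * (x + 2)) / x ^ 2 := by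
    field_simp
    ring
  rw [← sub_nonneg, e5]
  exact div_nonneg (sub_nonneg.2 k) (sq_nonneg _)

theorem k3_fin {U : E n → ℝ} (h : Good U) (hi : Iso U) {ρ : Fin n → ℝ} (hρ : ∀ i, 0 ≤ ρ i)
    (hd : ∀ x ξ, dq ρ ξ ≤ qf (hess U x) ξ) :
    ∑ i, ∑ j, (∑ c, m3 U i j c ^ 2 / 4) * (1 + 2 * (ρ i * ρ j) / ((1 + ρ i) * (1 + ρ j))) ≤
      ∑ i, (1 - ρ i) / (1 + ρ i) := by
  have p : ∀ i, 0 < 1 + ρ i := fun i => by linarith [hρ i]
  have k := k3_weight h hi hρ hd (m := fun i => (√(1 + ρ i))⁻¹)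
    fun i => inv_pos.2 (Real.sqrt_pos.2 (p i))
  have e1 : ∑ i, (√(1 + ρ i))⁻¹ ^ 2 * (1 - ρ i) = ∑ i, (1 - ρ i) / (1 + ρ i) :=
    Finset.sum_congr rfl fun i _ => by rw [inv_pow, Real.sq_sqrt (p i).le, inv_mul_eq_div]
  have e2 : ∑ i, ∑ j, (1 + 2 * ρ i) * ((√(1 + ρ i))⁻¹ * (√(1 + ρ j))⁻¹) * ∑ c, m3 U i j c ^ 2 / 4 =
      ∑ i, ∑ j, (1 + 2 * ρ j) * ((√(1 + ρ i))⁻¹ * (√(1 + ρ j))⁻¹) * ∑ c, m3 U i j c ^ 2 / 4 := by
    rw [Finset.sum_comm]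
    refine Finset.sum_congr rfl fun i _ => Finset.sum_congr rfl fun j _ => ?_
    simp only [m3_symm U j i]
    ring
  have k2 := add_le_add k (e2 ▸ k)
  rw [e1, ← Finset.sum_add_distrib] at k2
  refine le_of_mul_le_mul_left (le_trans ?_ (k2.trans_eq (two_mul _).symm)) two_pos
  rw [Finset.mul_sum]
  refine Finset.sum_le_sum fun i _ => ?_
  rw [Finset.mul_sum, ← Finset.sum_add_distrib]
  refine Finset.sum_le_sum fun j _ => ?_
  have t0 : 0 ≤ ∑ c, m3 U i j c ^ 2 / 4 := Finset.sum_nonneg fun c _ => by positivity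
  have := mul_le_mul_of_nonneg_left
    (k3b_pt (hρ i) (rho_le h hi hρ hd i) (hρ j) (rho_le h hi hρ hd j)) t0
  linarith

end Vale.Agent.P254B
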