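import Vale.Agent.P254B.JetN
import Vale.Agent.P254B.JetDet
import Vale.Agent.P254B.Aff

/-! Second variation of the two functionals. -/

namespace Vale.Agent.P254B

open Vale.Agent.P227
open scoped ContDiff Matrix RealInnerProductSpace Topology
open MeasureTheory Filter

variable {n : ℕ}

variable {U : E n → ℝ} {s : ℝ}

theorem loc_sum (F : Fin n → Fin n → Fin n → ℝ) :
    ∑ k, ∑ i, ∑ j, F i j k = ∑ i, ∑ j, ∑ k, F i j k :=
  Finset.sum_comm.trans (Finset.sum_congr rfl fun _ _ => Finset.sum_comm)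

theorem loc_sq (r : ℝ) : Jet (fun t => r + t ^ 2) 0 1 :=
  ((jet_const r).add jet_sq).of_eq (add_zero _) (zero_add _)

theorem loc_inv {r : ℝ} (hr : 0 < r) : Jet (fun t => (r + t ^ 2)⁻¹) 0 (-(r ^ 2)⁻¹) :=
  ((loc_sq r).inv (by simpa using hr.ne')).of_eq (by simp) (by simp)

theorem loc_log {r : ℝ} (hr : 0 < r) : Jet (fun t => Real.log (r + t ^ 2)) 0 r⁻¹ :=
  ((loc_sq r).log (by simpa using hr)).of_eq (by simp) (by simp)

theorem loc_det {C : Mat n} (hC : C.PosDef) {r : Fin n → ℝ} (hr : ∀ i, 0 < r i) :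
    Real.log (1 + C * Matrix.diagonal r).det =
      Real.log (C + Matrix.diagonal fun i => (r i)⁻¹).det + ∑ i, Real.log (r i) := by
  have e : 1 + C * Matrix.diagonal r =
      (C + Matrix.diagonal fun i => (r i)⁻¹) * Matrix.diagonal r := by
    rw [Matrix.add_mul, Matrix.diagonal_mul_diagonal, add_comm]
    simp only [inv_mul_cancel₀ (hr _).ne', Matrix.diagonal_one]
  have hp : (C + Matrix.diagonal fun i => (r i)⁻¹).PosDef :=
    hC.add (Matrix.PosDef.diagonal fun i => inv_pos.2 (hr i))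
  rw [e, Matrix.det_mul, Matrix.det_diagonal, Real.log_mul hp.det_pos.ne'
    (Finset.prod_ne_zero_iff.2 fun i _ => (hr i).ne'), Real.log_prod fun i _ => (hr i).ne']

theorem jet_DD (h : Good U) (hi : Iso U) (hs : s ^ 2 = n) : ∃ c₁ c₂ : Fin n → ℝ,
    (∀ k, Jet (fun t => DD (cur U s k t)) (c₁ k) (c₂ k)) ∧
      ∑ k, c₂ k = -(n : ℝ) * ∑ i, ∑ j, ∑ c, m3 U i j c ^ 2 / 4 := by
  obtain ⟨e, he, he'⟩ := jet_cv h hi hs
  obtain ⟨a₁, a₂, ha, ha'⟩ := jet_en h hi hs
  have key := fun k => ((jet_logdet (M := fun t => cv (cur U s k t))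
    (M₁ := Matrix.of fun i j => s * m3 U i j k) (M₂ := e k) (d := fun _ => 1) (fun _ => one_pos)
    (by rw [cur_zero, hi.cv, Matrix.diagonal_one]) (fun t => cv_symm _) (he k)).const_mul
      (1 / 2)).sub (ha k)
  refine ⟨_, _, key, ?_⟩
  have e1 : ∑ k, ∑ i, e k i i = -(n : ℝ) * n := by
    rw [Finset.sum_comm]
    simp [he']
  simp only [Matrix.of_apply, div_one, mul_one, mul_pow, hs, Finset.sum_sub_distrib,
    ← Finset.mul_sum, ← Finset.sum_div, ha', e1, loc_sum fun i j k => m3 U i j k ^ 2]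
  ring

theorem jet_ld (h : Good U) (hi : Iso U) (hs : s ^ 2 = n) {ρ : Fin n → ℝ} (hρ : ∀ i, 0 < ρ i) :
    ∃ c₁ c₂ : Fin n → ℝ, (∀ k, Jet (fun t => Real.log (1 + cv (cur U s k t) *
      (Matrix.diagonal ρ + t ^ 2 • (1 : Mat n))).det) (c₁ k) (c₂ k)) ∧
      ∑ k, c₂ k = n * (∑ i, (1 - ρ i) / (1 + ρ i) - ∑ i, ∑ j, (∑ c, m3 U i j c ^ 2 / 4) *
        (2 * (ρ i * ρ j) / ((1 + ρ i) * (1 + ρ j)))) := by
  obtain ⟨e, he, he'⟩ := jet_cv h hi hs
  have key := fun k => (jet_logdet
    (M := fun t => cv (cur U s k t) + Matrix.diagonal fun i => (ρ i + t ^ 2)⁻¹)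
    (M₁ := Matrix.of fun i j => s * m3 U i j k)
    (M₂ := e k + Matrix.diagonal fun i => -(ρ i ^ 2)⁻¹) (d := fun i => 1 + (ρ i)⁻¹)
    (fun i => by have := hρ i; positivity)
    (by rw [cur_zero, hi.cv, ← Matrix.diagonal_one, Matrix.diagonal_add]; simp)
    (fun t => (cv_symm _).add (Matrix.isSymm_diagonal _)) fun i j => by
      rcases eq_or_ne i j with rfl | hij
      · simp only [Matrix.add_apply, Matrix.diagonal_apply_eq, Matrix.of_apply]
        exact ((he k i i).add (loc_inv (hρ i))).of_eq (add_zero _) rfl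
      · simp only [Matrix.add_apply, Matrix.diagonal_apply_ne _ hij, Matrix.of_apply, add_zero]
        exact he k i j).add (Jet.sum Finset.univ fun i _ => loc_log (hρ i))
  refine ⟨_, _, fun k => (key k).congr (Eventually.of_forall fun t => ?_), ?_⟩
  · have e0 : Matrix.diagonal ρ + t ^ 2 • (1 : Mat n) = Matrix.diagonal fun i => ρ i + t ^ 2 := by
      rw [Matrix.smul_one_eq_diagonal, Matrix.diagonal_add]
    dsimp only
    rw [e0, loc_det (cv_posDef (coer_cur h.coer s k t) (cont_cur h.cont s k t))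
      fun i => by have := hρ i; positivity]
  · simp only [Matrix.of_apply, Matrix.add_apply, Matrix.diagonal_apply_eq, mul_pow, hs,
      Finset.sum_add_distrib, Finset.sum_sub_distrib, ← Finset.mul_sum]
    rw [loc_sum fun i j k => n * m3 U i j k ^ 2 / ((1 + (ρ i)⁻¹) * (1 + (ρ j)⁻¹)),
      Finset.sum_comm, Finset.sum_comm (f := fun _ i => (ρ i)⁻¹), sub_add_eq_add_sub,
      ← Finset.sum_add_distrib, mul_sub, Finset.mul_sum, Finset.mul_sum, Finset.mul_sum]
    refine congrArg₂ _ (Finset.sum_congr rfl fun i _ => ?_) (Finset.sum_congr rfl fun i _ => ?_)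
    · have := hρ i
      rw [← Finset.sum_div, Finset.sum_add_distrib, he']
      simp only [Finset.sum_const, Finset.card_univ, Fintype.card_fin, nsmul_eq_mul,
        Matrix.one_apply_eq]
      field_simp
      ring
    · rw [Finset.mul_sum, Finset.mul_sum]
      refine Finset.sum_congr rfl fun j _ => ?_
      have := hρ i
      have := hρ j
      rw [← Finset.sum_div, ← Finset.sum_div, ← Finset.mul_sum]
      field_simp
      ring

end Vale.Agent.P254B
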