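import Vale.Agent.P254B.Loc
import Vale.Agent.P254B.K3b

/-! No local maximum in normal coordinates. -/

namespace Vale.Agent.P254B

open Vale.Agent.P227
open scoped ContDiff Matrix RealInnerProductSpace Topology
open MeasureTheory Filter

variable {n : ℕ}

theorem not_max (hn : 1 ≤ n) {U g : E n → ℝ} (h : Good U) (hi : Iso U) {ρ : Fin n → ℝ}
    (hρ : ∀ i, 0 < ρ i) (hd : ∀ x ξ, dq ρ ξ ≤ qf (hess U x) ξ) (hg : CPB g) {s η σ : ℝ}
    (hs : s ^ 2 = n) (hη : 0 < η) (hσ : 0 < σ) : ∃ k, ¬IsLocalMax (fun t =>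
      Phi (cur U s k t) (Matrix.diagonal ρ + t ^ 2 • (1 : Mat n)) - η * nm (cur U s k t) g +
        η * (σ * (1 + t ^ 2))) 0 := by
  by_contra hc
  have hm := fun k => not_not.1 (not_exists.1 hc k)
  obtain ⟨a₁, a₂, ha, sa⟩ := jet_DD h hi hs
  obtain ⟨b₁, b₂, hb, sb⟩ := jet_ld h hi hs hρ
  have sd := sum_mart h hs hg
  have k3 := k3_fin h hi (fun i => (hρ i).le) hd
  have hk := fun k => ((((ha k).add (hb k)).sub ((jet_nm h hi hs hg k).const_mul η)).add
    ((((jet_const 1).add jet_sq).const_mul σ).const_mul η)).nonpos (hm k)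
  have hsum := Finset.sum_nonpos (s := Finset.univ) fun k _ => hk k
  rw [Finset.sum_add_distrib, Finset.sum_sub_distrib, Finset.sum_add_distrib, ← Finset.mul_sum,
    sa, sb, sd, Finset.sum_const, Finset.card_univ, Fintype.card_fin, nsmul_eq_mul] at hsum
  simp only [mul_one_add (∑ c, m3 U _ _ c ^ 2 / 4), Finset.sum_add_distrib] at k3
  have hn' : (0 : ℝ) < n := by exact_mod_cast hn
  have e := mul_le_mul_of_nonneg_left k3 hn'.le
  have p := mul_pos hn' (mul_pos hη hσ)
  linarith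

end Vale.Agent.P254B
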