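import Vale.Agent.P254B.Base
import Vale.Agent.P227.Ident2

/-! Pointwise algebra for the Bochner formula of the Stein kernel. -/

namespace Vale.Agent.P254B

open Vale.Agent.P227
open scoped ContDiff Matrix RealInnerProductSpace Topology
open MeasureTheory Filter

variable {n : ℕ}

theorem mia_one {τ S : Mat n} (hτ : τ.PosSemidef) (hS : S.IsSymm) :
    (τ * S * τ * (τ * S * τ)).trace ≤ (τ * (τ * (S * τ * S) * τ)).trace := by
  have h := trace_mul_nonneg hτ (hτ.mul_mul_conjTranspose_same (τ * S - S * τ))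
  rw [Matrix.conjTranspose_sub, Matrix.conjTranspose_mul, Matrix.conjTranspose_mul,
    show Sᴴ = S from hS, hτ.1.eq] at h
  simp only [Matrix.mul_sub, Matrix.sub_mul, Matrix.trace_sub, Matrix.mul_assoc] at h ⊢
  have e1 : (τ * (S * (τ * (τ * (τ * S))))).trace = (τ * (τ * (S * (τ * (S * τ))))).trace := by
    rw [← Matrix.mul_assoc, ← Matrix.mul_assoc, Matrix.trace_mul_comm]
    simp only [Matrix.mul_assoc]
  have e2 : (τ * (τ * (S * (τ * (τ * S))))).trace = (τ * (S * (τ * (τ * (S * τ))))).trace := by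
    rw [Matrix.trace_mul_comm]
    simp only [Matrix.mul_assoc]
  linarith

theorem mia_alg {τ : Mat n} {T : Fin n → Mat n} (hτ : τ.PosSemidef) (hT : ∀ k, (T k).IsSymm) :
    ∑ k, ∑ l, τ k l * (τ * T k * τ * (τ * T l * τ)).trace ≤
      ∑ k, ∑ l, τ k l * (τ * (τ * (T k * τ * T l) * τ)).trace := by
  have hs := psd_isSymm hτ
  have h := sum_mul_nonpos (A := Matrix.of fun k l => (τ * T k * τ * (τ * T l * τ)).trace -
    (τ * (τ * (T k * τ * T l) * τ)).trace) hτ (Matrix.IsSymm.ext fun k l => ?_) fun ξ => ?_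
  · simp only [Matrix.of_apply, mul_sub, Finset.sum_sub_distrib] at h
    linarith
  · rw [Matrix.of_apply, Matrix.of_apply, Matrix.trace_mul_comm (τ * T l * τ),
      ← Matrix.trace_transpose (τ * (τ * (T l * τ * T k) * τ))]
    simp only [Matrix.transpose_mul, hs.eq, (hT k).eq, (hT l).eq]
    rw [Matrix.trace_mul_comm (τ * (T k * (τ * T l) * τ))]
    simp only [Matrix.mul_assoc]
  · have h1 : (∑ a, ξ a • T a).IsSymm := by
      rw [Matrix.IsSymm, Matrix.transpose_sum]
      exact Finset.sum_congr rfl fun a _ => by rw [Matrix.transpose_smul, (hT a).eq]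
    refine le_of_eq_of_le ?_ (sub_nonpos.2 (mia_one hτ h1))
    simp only [qf, Matrix.of_apply, Finset.mul_sum, Finset.sum_mul, Matrix.trace_sum,
      Matrix.mul_smul, Matrix.smul_mul, Matrix.trace_smul, smul_eq_mul, ← Finset.sum_sub_distrib]
    rw [Finset.sum_comm]
    exact Finset.sum_congr rfl fun a _ => Finset.sum_congr rfl fun b _ => by ring

theorem mia_conj {τ S : Mat n} (hτ : τ.IsSymm) (hS : S.IsSymm) : (τ * S * τ).IsSymm := by
  rw [Matrix.IsSymm, Matrix.transpose_mul, Matrix.transpose_mul, hτ.eq, hS.eq, Matrix.mul_assoc]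

theorem gam_le_Q {Θ W : E n → ℝ} (h : LPot Θ W) (x : E n) :
    ∑ i, ∑ j, Gam (tau Θ) (ent (tau Θ) i j) (ent (tau Θ) i j) x ≤
      ∑ i, ∑ j, tau Θ x i j * (tau Θ x * Qm Θ x * tau Θ x) i j := by
  have hs := h.tau_symm x
  have hT : ∀ k, (hess (D k Θ) x).IsSymm := fun k => hess_symm (smo_D k h.sT) x
  have e1 : ∀ k i j, D k (ent (tau Θ) i j) x = -(tau Θ x * hess (D k Θ) x * tau Θ x) i j :=
    fun k i j => by rw [← MD_apply, h.MD_tau, Matrix.neg_apply]
  have hQ : ∑ k, ∑ l, tau Θ x k l • (hess (D k Θ) x * tau Θ x * hess (D l Θ) x) = Qm Θ x :=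
    Ident2Aux.sumQ hs (hessD_sym h.sT x)
  rw [sum_mul_eq_trace (mia_conj hs (psd_isSymm (h.Q_psd x))), ← hQ]
  refine le_of_eq_of_le ?_ ((mia_alg (h.tau_posDef x).posSemidef hT).trans_eq ?_)
  · simp only [Gam, e1, ← sum_mul_eq_trace (mia_conj hs (hT _)), Finset.mul_sum]
    rw [Finset.sum_congr rfl fun i _ => Finset.sum_comm, Finset.sum_comm]
    refine Finset.sum_congr rfl fun k _ => ?_
    rw [Finset.sum_congr rfl fun i _ => Finset.sum_comm, Finset.sum_comm]
    exact Finset.sum_congr rfl fun l _ => Finset.sum_congr rfl fun i _ =>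
      Finset.sum_congr rfl fun j _ => by ring
  · simp only [Finset.mul_sum, Finset.sum_mul, Matrix.trace_sum, Matrix.mul_smul,
      Matrix.smul_mul, Matrix.trace_smul, smul_eq_mul]

theorem cub_le {τ H : Mat n} (hτ : τ.PosSemidef) (hH : H.IsSymm) {p : Fin n → ℝ}
    (hp : ∀ i, 0 ≤ p i) (hd : ∀ ξ, dq p ξ ≤ qf H ξ) (a : Fin n → ℝ) :
    ∑ i, p i * (2 * a i * ∑ j, τ i j ^ 2 - a i ^ 2 * τ i i) ≤
      ∑ i, ∑ j, τ i j * (τ * H * τ) i j := by
  have hs := psd_isSymm hτ
  have h1 : (H - Matrix.diagonal p).PosSemidef :=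
    psd_of_qf (hH.sub (Matrix.isSymm_diagonal p)) fun ξ => by
      rw [qf_sub, qf_diagonal]
      linarith [hd ξ]
  have h2 : (τ * τ * τ).PosSemidef := by
    have := hτ.mul_mul_conjTranspose_same τ
    rwa [hτ.1.eq] at this
  have h3 := trace_mul_nonneg h2 h1
  have h4 : (τ * (τ * H * τ)).trace = (τ * τ * τ * H).trace := by
    rw [← Matrix.mul_assoc, Matrix.trace_mul_comm]
    simp only [Matrix.mul_assoc]
  have h5 : (τ * τ * τ * Matrix.diagonal p).trace = ∑ i, p i * (τ * τ * τ) i i := by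
    simp only [Matrix.trace, Matrix.diag_apply, Matrix.mul_diagonal, mul_comm]
  rw [Matrix.mul_sub, Matrix.trace_sub, h5] at h3
  rw [sum_mul_eq_trace (mia_conj hs hH), h4]
  refine le_trans (Finset.sum_le_sum fun i _ => mul_le_mul_of_nonneg_left ?_ (hp i))
    (sub_nonneg.1 h3)
  have h6 := (hτ.mul_mul_conjTranspose_same (τ - a i • (1 : Mat n))).diag_nonneg (i := i)
  have h7 : (τ * τ) i i = ∑ j, τ i j ^ 2 := by
    rw [Matrix.mul_apply]
    exact Finset.sum_congr rfl fun j _ => by rw [hs.apply i j, sq]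
  rw [Matrix.conjTranspose_sub, hτ.1.eq, Matrix.conjTranspose_smul, Matrix.conjTranspose_one,
    star_trivial] at h6
  simp only [Matrix.mul_sub, Matrix.sub_mul, Matrix.smul_mul, Matrix.mul_smul, Matrix.one_mul,
    Matrix.mul_one, Matrix.sub_apply, Matrix.smul_apply, smul_eq_mul, h7] at h6
  linarith

end Vale.Agent.P254B
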