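import Vale.Agent.P254B.PortA

/-! Poincare inequality for the Stein kernel. -/

namespace Vale.Agent.P254B

open Vale.Agent.P227
open scoped ContDiff Matrix RealInnerProductSpace Topology
open MeasureTheory Filter

variable {n : ℕ}

theorem poi_gam {τ : E n → Mat n} {f g : E n → ℝ} {x : E n} (h1 : (τ x).PosSemidef)
    (h2 : (τ x).IsSymm) : 2 * Gam τ f g x ≤ Gam τ f f x + Gam τ g g x := by
  have h3 := sum_psd_nonneg h1 fun i => D i f x - D i g x
  have h4 : ∑ k, ∑ l, τ x k l * D k g x * D l f x = ∑ k, ∑ l, τ x k l * D k f x * D l g x := by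
    rw [Finset.sum_comm]
    refine Finset.sum_congr rfl fun k _ => Finset.sum_congr rfl fun l _ => ?_
    rw [h2.apply k l]
    ring
  simp only [mul_sub, sub_mul, Finset.sum_sub_distrib, h4] at h3
  unfold Gam
  linarith

theorem poi_core {Θ W G θ ρ : E n → ℝ} {k : ℝ} (h : Pot Θ W) (hW : Coer W) (hG : PG G)
    (hθ : PG θ) (hρ : PG ρ) (h0 : nm W G = 0)
    (hL : Lop (tau Θ) θ = fun x => -(G x + ρ x + k)) :
    nm W (fun x => G x ^ 2) ≤ nm W (Gam (tau Θ) G G) + nm W (fun x => ρ x ^ 2) := by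
  have cW := h.sW.continuous
  have hZ := Zf_pos hW cW
  have c1 := hG.cpb
  have c2 := hρ.cpb
  have g1 := (hG.Gam hθ h.mpg).cpb
  have g2 := (hG.Gam hG h.mpg).cpb
  have g3 := (hθ.Gam hθ h.mpg).cpb
  have e1 : nm W ρ + k = 0 := by
    have a : nm W (Lop (tau Θ) θ) = 0 := by rw [nm, h.Ex_L hW hθ, zero_div]
    rw [hL, nm_neg, nm_add hW cW (c1.add c2) (cpb_const k), nm_add hW cW c1 c2, h0,
      nm_const hW cW] at a
    linarith
  have e2 : nm W (fun x => G x ^ 2) + nm W (fun x => G x * ρ x) = nm W (Gam (tau Θ) G θ) := by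
    have a : nm W (fun x => G x * Lop (tau Θ) θ x) = -nm W (Gam (tau Θ) G θ) := by
      rw [nm, h.green hW hG hθ, neg_div, nm]
    have b : (fun x => G x * Lop (tau Θ) θ x) =
        fun x => -((G x ^ 2 + G x * ρ x) + k * G x) := by
      funext x
      rw [hL]
      ring
    rw [b, nm_neg, nm_add hW cW ((c1.pow 2).add (c1.mul c2)) (c1.const_mul k),
      nm_add hW cW (c1.pow 2) (c1.mul c2), nm_const_mul, h0] at a
    linarith
  have e3 : 2 * nm W (Gam (tau Θ) G θ) ≤ nm W (Gam (tau Θ) G G) + nm W (Gam (tau Θ) θ θ) := by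
    rw [← nm_const_mul, ← nm_add hW cW g2 g3]
    exact nm_mono hW cW (g1.const_mul 2) (g2.add g3) fun x =>
      poi_gam (h.toLPot.tau_posDef x).posSemidef (h.toLPot.tau_symm x)
  have e4 : nm W (Gam (tau Θ) θ θ) ≤ nm W (fun x => Lop (tau Θ) θ x ^ 2) := by
    refine div_le_div_of_nonneg_right ?_ hZ.le
    rw [h.bochner hW hθ]
    exact le_add_of_nonneg_left (Ex_nonneg W fun x =>
      trace_sq_nonneg (h.toLPot.tau_posDef x).posSemidef (hess_symm hθ.smo x))
  have b : (fun x => Lop (tau Θ) θ x ^ 2) = fun x => ((G x ^ 2 + 2 * (G x * ρ x)) + ρ x ^ 2) +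
      ((2 * k * G x + 2 * k * ρ x) + k ^ 2) := by
    funext x
    rw [hL]
    ring
  rw [b, nm_add hW cW (((c1.pow 2).add ((c1.mul c2).const_mul 2)).add (c2.pow 2))
      (((c1.const_mul _).add (c2.const_mul _)).add (cpb_const _)),
    nm_add hW cW ((c1.pow 2).add ((c1.mul c2).const_mul 2)) (c2.pow 2),
    nm_add hW cW (c1.pow 2) ((c1.mul c2).const_mul 2),
    nm_add hW cW ((c1.const_mul _).add (c2.const_mul _)) (cpb_const _),
    nm_add hW cW (c1.const_mul _) (c2.const_mul _), nm_const_mul, nm_const_mul, nm_const_mul,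
    nm_const hW cW, h0, show nm W ρ = -k by linarith] at e4
  nlinarith [sq_nonneg k]

theorem poincare {Θ W g : E n → ℝ} (h : Pot Θ W) (hW : Coer W) (h0 : ASolv (tau Θ) 0)
    (hg : Sm g) :
    nm W (fun x => g x ^ 2) - nm W g ^ 2 ≤ nm W (Gam (tau Θ) g g) := by
  have cW := h.sW.continuous
  have pg := hg.pg
  obtain ⟨c, hc⟩ : ∃ c, c = nm W g := ⟨_, rfl⟩
  have pG : PG fun x => g x - c := pg.sub (pg_const c)
  have hG0 : nm W (fun x => g x - c) = 0 := by
    rw [nm_sub hW cW pg.cpb (cpb_const c), nm_const hW cW, hc, sub_self]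
  have eG : Gam (tau Θ) (fun x => g x - c) (fun x => g x - c) = Gam (tau Θ) g g := by
    funext x
    simp only [Gam, D_sub _ pg.diff (pg_const c).diff, D_const, sub_zero]
  have e2 : nm W (fun x => (g x - c) ^ 2) = nm W (fun x => g x ^ 2) - c ^ 2 := by
    have b : (fun x => (g x - c) ^ 2) = fun x => (g x ^ 2 - 2 * c * g x) + c ^ 2 := by
      funext x
      ring
    rw [b, nm_add hW cW ((pg.cpb.pow 2).sub (pg.cpb.const_mul _)) (cpb_const _),
      nm_sub hW cW (pg.cpb.pow 2) (pg.cpb.const_mul _), nm_const_mul, nm_const hW cW, ← hc]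
    ring
  obtain ⟨M, hM⟩ : ∃ M, M = nm W fun x : E n => ((n : ℝ) ^ 2 * ‖x‖ ^ 2) ^ 2 := ⟨_, rfl⟩
  have M0 : 0 ≤ M := hM ▸ nm_nonneg W fun x => sq_nonneg _
  have key : ∀ ε : ℝ, 0 < ε →
      nm W (fun x => g x ^ 2) - c ^ 2 ≤ nm W (Gam (tau Θ) g g) + ε ^ 2 * M := by
    intro ε hε
    obtain ⟨θ, hθ, -, hr⟩ := h0 g hg ε hε
    have pr : PG fun x => Aop (tau Θ) 0 θ x - g x := (hθ.pg.Aop h.mpg 0).sub pg
    have hL : ∀ x, Lop (tau Θ) θ x = -((fun x => Aop (tau Θ) 0 θ x - g x) x + g x) := fun x => by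
      simp only [Aop]
      ring
    generalize (fun x => Aop (tau Θ) 0 θ x - g x) = r at hr pr hL
    have pl : PG fun x : E n => ∑ i, D i r 0 * x i :=
      pg_sum _ fun i _ => (pg_coord i).const_mul _
    have pρ : PG fun x => r x - r 0 - ∑ i, D i r 0 * x i := (pr.sub (pg_const _)).sub pl
    have h1 := poi_core (k := r 0 + c) h hW pG (hθ.pg.sub pl) pρ hG0 (by
      rw [Lop_sub _ hθ.smo pl.smo, Lop_sum _ _ fun i _ => ((pg_coord i).const_mul _).smo]
      funext x
      simp only [Lop_const_mul _ _ (pg_coord _).smo, Lop_coord, hL, mul_neg,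
        Finset.sum_neg_distrib]
      ring)
    rw [eG, e2] at h1
    refine h1.trans (add_le_add le_rfl ?_)
    rw [hM, ← nm_const_mul]
    have cq : CPB fun x : E n => ((n : ℝ) ^ 2 * ‖x‖ ^ 2) ^ 2 :=
      ((cpb_norm.pow 2).const_mul _).pow 2
    refine nm_mono hW cW (pρ.cpb.pow 2) (cq.const_mul _) fun x => ?_
    have h2 := abs_lin_le pr.smo hr.abs_le x
    rw [← mul_pow, ← sq_abs]
    exact pow_le_pow_left₀ (abs_nonneg _) (h2.trans_eq (by ring)) 2
  rw [← hc]
  refine le_of_forall_pos_le_add fun δ hδ => ?_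
  have hM1 : 0 < M + 1 := by linarith
  refine (key _ (Real.sqrt_pos.2 (div_pos hδ hM1))).trans (add_le_add le_rfl ?_)
  rw [Real.sq_sqrt (div_pos hδ hM1).le, div_mul_eq_mul_div, div_le_iff₀ hM1]
  nlinarith

end Vale.Agent.P254B
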