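import Vale.Agent.P254B.MIa
import Vale.Agent.P254B.Poi

/-! The moment inequality for a moment potential. -/

namespace Vale.Agent.P254B

open Vale.Agent.P227
open scoped ContDiff Matrix RealInnerProductSpace Topology
open MeasureTheory Filter

variable {n : ℕ}

theorem mib_green {Θ W f g : E n → ℝ} (h : Pot Θ W) (hW : Coer W) (hf : PG f) (hg : PG g) :
    nm W (fun x => f x * Lop (tau Θ) g x) = -nm W (Gam (tau Θ) f g) := by
  rw [nm, h.green hW hf hg, neg_div, nm]

theorem mib_stein {Θ W g : E n → ℝ} (h : Pot Θ W) (hW : Coer W) (hg : PG g) (a : Fin n) :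
    nm W (fun x => g x * x a) = nm W fun x => ∑ k, tau Θ x k a * D k g x := by
  have := mib_green h hW hg (pg_coord a)
  rw [Lop_coord] at this
  simp only [mul_neg, nm_neg, neg_inj] at this
  rw [this]
  refine congrArg (nm W) (funext fun x => ?_)
  simp [Gam, D_coord]

theorem mib_m2 {Θ W : E n → ℝ} (h : Pot Θ W) (hW : Coer W) (i j : Fin n) :
    nm W (ent (tau Θ) i j) = m2 W i j := by
  rw [m2, mib_stein h hW (pg_coord i)]
  refine congrArg (nm W) (funext fun x => ?_)
  simp [ent, D_coord]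

theorem mib_m3a {Θ W : E n → ℝ} (h : Pot Θ W) (hW : Coer W) (j c a : Fin n) :
    m3 W j c a = nm W (fun x => ent (tau Θ) j a x * x c)
      + nm W fun x => ent (tau Θ) c a x * x j := by
  rw [m3, mib_stein h hW ((pg_coord j).mul (pg_coord c)), ← nm_add hW h.sW.continuous
    ((h.mpg j a).cpb.mul (cpb_coord c)) ((h.mpg c a).cpb.mul (cpb_coord j))]
  refine congrArg (nm W) (funext fun x => ?_)
  simp [ent, D_mul _ (pg_coord j).diff (pg_coord c).diff, D_coord, mul_add,
    Finset.sum_add_distrib]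

theorem mib_m3 {Θ W : E n → ℝ} (h : Pot Θ W) (hW : Coer W) (i j c : Fin n) :
    2 * nm W (fun x => ent (tau Θ) i j x * x c) = m3 W i j c := by
  have s : ∀ a b, ent (tau Θ) a b = ent (tau Θ) b a := fun a b =>
    funext fun x => (h.toLPot.tau_symm x).apply b a
  have h1 := mib_m3a h hW i c j
  have h2 := mib_m3a h hW j c i
  have h3 := mib_m3a h hW i j c
  have e1 : m3 W i c j = m3 W i j c := congrArg (nm W) (funext fun x => by ring)
  have e2 : m3 W j c i = m3 W i j c := congrArg (nm W) (funext fun x => by ring)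
  rw [s j i, s c i] at h2
  rw [s c j] at h1
  linarith

theorem mib_bessel {Θ W : E n → ℝ} (h : Pot Θ W) (hW : Coer W) (i j : Fin n) (k : Fin n → ℝ) :
    m2 W i j ^ 2 + ∑ c, k c * m3 W i j c - ∑ c, ∑ d, k c * k d * m2 W c d ≤
      nm W fun x => ent (tau Θ) i j x ^ 2 := by
  have cW := h.sW.continuous
  have cf := (h.mpg i j).cpb
  have cl : CPB fun x : E n => ∑ c, k c * x c := cpb_sum _ fun c _ => (cpb_coord c).const_mul _
  have e1 : 2 * nm W (fun x => ent (tau Θ) i j x * ∑ c, k c * x c) = ∑ c, k c * m3 W i j c := by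
    have : (fun x => ent (tau Θ) i j x * ∑ c, k c * x c)
        = fun x => ∑ c, k c * (ent (tau Θ) i j x * x c) := by
      funext x
      rw [Finset.mul_sum]
      exact Finset.sum_congr rfl fun c _ => by ring
    rw [this, nm_sum hW cW _ fun c _ => (cf.mul (cpb_coord c)).const_mul _, Finset.mul_sum]
    exact Finset.sum_congr rfl fun c _ => by rw [nm_const_mul, ← mib_m3 h hW]; ring
  have e2 : nm W (fun x : E n => ∑ c, k c * x c) = 0 := by
    rw [nm_sum hW cW _ fun c _ => (cpb_coord c).const_mul _]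
    refine Finset.sum_eq_zero fun c _ => ?_
    rw [nm_const_mul]
    exact mul_eq_zero_of_right _ (h.cen hW c)
  have e3 : nm W (fun x : E n => (∑ c, k c * x c) ^ 2) = ∑ c, ∑ d, k c * k d * m2 W c d := by
    have : (fun x : E n => (∑ c, k c * x c) ^ 2)
        = fun x => ∑ c, ∑ d, k c * k d * (x c * x d) := by
      funext x
      rw [sq, Finset.sum_mul_sum]
      exact Finset.sum_congr rfl fun c _ => Finset.sum_congr rfl fun d _ => by ring
    rw [this, nm_sum hW cW _ fun c _ => cpb_sum _ fun d _ =>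
      ((cpb_coord c).mul (cpb_coord d)).const_mul _]
    refine Finset.sum_congr rfl fun c _ => ?_
    rw [nm_sum hW cW _ fun d _ => ((cpb_coord c).mul (cpb_coord d)).const_mul _]
    exact Finset.sum_congr rfl fun d _ => nm_const_mul _ _ _
  have key := nm_nonneg W (f := fun x => ent (tau Θ) i j x ^ 2 + (∑ c, k c * x c) ^ 2
    + m2 W i j ^ 2 - 2 * m2 W i j * ent (tau Θ) i j x
    - 2 * (ent (tau Θ) i j x * ∑ c, k c * x c) + 2 * m2 W i j * ∑ c, k c * x c) fun x => by
      nlinarith [sq_nonneg (ent (tau Θ) i j x - m2 W i j - ∑ c, k c * x c)]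
  have c1 := (cf.pow 2).add (cl.pow 2)
  have c2 := c1.add (cpb_const (m2 W i j ^ 2))
  have c3 := c2.sub (cf.const_mul (2 * m2 W i j))
  have c4 := c3.sub ((cf.mul cl).const_mul 2)
  rw [nm_add hW cW c4 (cl.const_mul _), nm_sub hW cW c3 ((cf.mul cl).const_mul 2),
    nm_sub hW cW c2 (cf.const_mul _), nm_add hW cW c1 (cpb_const _),
    nm_add hW cW (cf.pow 2) (cl.pow 2), nm_const_mul, nm_const_mul, nm_const_mul, nm_const hW cW,
    e1, e2, e3, mib_m2 h hW] at key
  linarith

theorem mi_pot {Θ W : E n → ℝ} (h : Pot Θ W) (hW : Coer W) (h0 : ASolv (tau Θ) 0)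
    {p : Fin n → ℝ} (hp : ∀ i, 0 ≤ p i) (hd : ∀ x ξ, dq p ξ ≤ qf (hess W x) ξ) : MI W p := by
  intro a k ha
  have cW := h.sW.continuous
  have pt := h.mpg
  have key := nm_nonneg W (f := fun x => ∑ i, (p i * a i ^ 2 * ent (tau Θ) i i x + ∑ j,
      (ent (tau Θ) i j x * Lop (tau Θ) (ent (tau Θ) i j) x
        - Gam (tau Θ) (ent (tau Θ) i j) (ent (tau Θ) i j) x
        - (2 * p i * a i - 1) * ent (tau Θ) i j x ^ 2))) fun x => by
    have h1 := gam_le_Q h.toLPot x
    have h2 := cub_le (h.toLPot.tau_posDef x).posSemidef (hess_symm h.sW x) hp (hd x) a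
    have h3 : ∀ i j, Lop (tau Θ) (ent (tau Θ) i j) x = (tau Θ x * hess W x * tau Θ x) i j
        - tau Θ x i j + (tau Θ x * Qm Θ x * tau Θ x) i j := fun i j =>
      congrFun (congrFun (h.toLPot.L_tau x) i) j
    refine le_of_le_of_eq (add_nonneg (sub_nonneg.2 h1) (sub_nonneg.2 h2)) ?_
    simp only [h3, ← Finset.sum_sub_distrib, ← Finset.sum_add_distrib]
    refine Finset.sum_congr rfl fun i _ => ?_
    simp only [ent, mul_add, mul_sub, sub_mul, Finset.sum_add_distrib, Finset.sum_sub_distrib,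
      ← Finset.mul_sum, ← sq]
    ring
  have c1 : ∀ i j, CPB fun x => ent (tau Θ) i j x * Lop (tau Θ) (ent (tau Θ) i j) x :=
    fun i j => ((pt i j).mul ((pt i j).Lop pt)).cpb
  have c2 : ∀ i j, CPB (Gam (tau Θ) (ent (tau Θ) i j) (ent (tau Θ) i j)) :=
    fun i j => ((pt i j).Gam (pt i j) pt).cpb
  have c3 : ∀ i j, CPB fun x => (2 * p i * a i - 1) * ent (tau Θ) i j x ^ 2 :=
    fun i j => ((pt i j).cpb.pow 2).const_mul _
  have c4 := fun i j => ((c1 i j).sub (c2 i j)).sub (c3 i j)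
  rw [nm_sum hW cW _ fun i _ =>
    ((pt i i).cpb.const_mul _).add (cpb_sum _ fun j _ => c4 i j)] at key
  rw [← sub_nonneg]
  refine key.trans ?_
  rw [Finset.mul_sum, ← Finset.sum_add_distrib, ← Finset.sum_sub_distrib]
  refine Finset.sum_le_sum fun i _ => ?_
  rw [nm_add hW cW ((pt i i).cpb.const_mul _) (cpb_sum _ fun j _ => c4 i j), nm_const_mul,
    mib_m2 h hW, nm_sum hW cW _ fun j _ => c4 i j, add_comm (2 * _), add_sub_assoc,
    Finset.mul_sum, ← Finset.sum_sub_distrib]
  refine add_le_add_right (Finset.sum_le_sum fun j _ => ?_) _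
  rw [nm_sub hW cW ((c1 i j).sub (c2 i j)) (c3 i j), nm_sub hW cW (c1 i j) (c2 i j), nm_const_mul,
    mib_green h hW (pt i j) (pt i j)]
  have q1 := poincare h hW h0 (h.mbinf i j).sm
  rw [mib_m2 h hW] at q1
  have q2 := mul_le_mul_of_nonneg_left (mib_bessel h hW i j (k i j))
    (show 0 ≤ 1 + 2 * p i * a i by have := hp i; have := ha i; positivity)
  linarith

end Vale.Agent.P254B
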