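import Vale.Agent.P254B.Base

/-! The centring tilt tends to zero. -/

namespace Vale.Agent.P254B

open Vale.Agent.P227
open scoped ContDiff Matrix RealInnerProductSpace Topology
open MeasureTheory Filter

variable {n : ℕ}

theorem tilt_low {W : E n → ℝ} {κ C r : ℝ} (hκ : 0 < κ) (hl : ∀ x, κ * ‖x‖ ^ 2 - C ≤ W x)
    {v : E n} (hv : ‖v‖ ≤ r) (x : E n) :
    κ / 2 * ‖x‖ ^ 2 - (C + r ^ 2 / (2 * κ)) ≤ W x + ⟪v, x⟫ := by
  have h1 := (abs_le.1 (abs_real_inner_le_norm v x)).1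
  have h2 := mul_le_mul_of_nonneg_right hv (norm_nonneg x)
  have h3 : 0 ≤ (κ * ‖x‖ - r) ^ 2 / (2 * κ) := by positivity
  have h4 : (κ * ‖x‖ - r) ^ 2 / (2 * κ) = κ / 2 * ‖x‖ ^ 2 - r * ‖x‖ + r ^ 2 / (2 * κ) := by
    field_simp
    ring
  linarith [hl x]

theorem tilt_coer {W : E n → ℝ} (hW : Coer W) (v : E n) : Coer fun x => W x + ⟪v, x⟫ := by
  obtain ⟨κ, C, hκ, hl⟩ := hW
  exact ⟨κ / 2, _, by positivity, tilt_low hκ hl le_rfl⟩

theorem tilt_inner (w x : E n) : ⟪w, x⟫ = ∑ i, w i * x i := by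
  simp only [PiLp.inner_apply, RCLike.inner_apply, conj_trivial]
  exact Finset.sum_congr rfl fun i _ => mul_comm _ _

theorem tilt_cpb (w : E n) : CPB fun x : E n => ⟪w, x⟫ := by
  refine ⟨by fun_prop, ‖w‖, 1, fun x => (abs_real_inner_le_norm w x).trans ?_⟩
  rw [pow_one]
  exact mul_le_mul_of_nonneg_left (by linarith) (norm_nonneg _)

theorem tilt_cen {W : E n → ℝ} (hW : Coer W) (cW : Continuous W) (hc : Cen W) (w : E n) :
    Ex W (fun x => ⟪w, x⟫) = 0 := by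
  simp only [tilt_inner]
  rw [Ex_sum hW cW _ fun i _ => (cpb_coord i).const_mul (w i)]
  refine Finset.sum_eq_zero fun i _ => ?_
  have h := hc i
  unfold m1 nm at h
  rw [Ex_const_mul, (div_eq_zero_iff.1 h).resolve_right (Zf_pos hW cW).ne', mul_zero]

theorem tilt_lt {W : E n → ℝ} (hW : Coer W) (cW : Continuous W) (hc : Cen W) {v : E n}
    (hv : v ≠ 0) : Zf W < Zf fun x => W x + ⟪v, x⟫ := by
  have i1 := integrable_Ex (tilt_coer hW v) (by fun_prop) (cpb_const 1)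
  have i2 := integrable_Ex hW cW (cpb_const 1)
  have i3 := integrable_Ex hW cW (tilt_cpb v)
  have e : ∀ x : E n, 1 * Real.exp (-(W x + ⟪v, x⟫)) - 1 * Real.exp (-W x) +
      ⟪v, x⟫ * Real.exp (-W x) = Real.exp (-W x) * (Real.exp (-⟪v, x⟫) - (-⟪v, x⟫ + 1)) := by
    intro x
    rw [neg_add, Real.exp_add]
    ring
  have h1 : 0 < ∫ x : E n, (1 * Real.exp (-(W x + ⟪v, x⟫)) - 1 * Real.exp (-W x) +
      ⟪v, x⟫ * Real.exp (-W x)) := by
    refine integral_pos_of_integrable_nonneg_nonzero (x := v) (by fun_prop) ((i1.sub i2).add i3)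
      (fun x => ?_) ?_
    · simp only [e]
      exact mul_nonneg (Real.exp_pos _).le (sub_nonneg.2 (Real.add_one_le_exp _))
    · rw [e]
      refine (mul_pos (Real.exp_pos _) (sub_pos.2 (Real.add_one_lt_exp ?_))).ne'
      exact neg_ne_zero.2 (by simpa using hv)
  have i4 : Integrable fun x : E n =>
      1 * Real.exp (-(W x + ⟪v, x⟫)) - 1 * Real.exp (-W x) := i1.sub i2
  rw [integral_add i4 i3, integral_sub i1 i2] at h1
  have h2 := tilt_cen hW cW hc v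
  unfold Zf
  unfold Ex at h2 ⊢
  linarith

theorem tilt_cvx {W : E n → ℝ} (hW : Coer W) (cW : Continuous W) (v : E n) {a : ℝ}
    (h0 : 0 ≤ a) (h1 : a ≤ 1) : (Zf fun x => W x + ⟪a • v, x⟫) ≤
      (1 - a) * Zf W + a * Zf fun x => W x + ⟪v, x⟫ := by
  have i0 := integrable_Ex (tilt_coer hW (a • v)) (by fun_prop) (cpb_const 1)
  have i1 := integrable_Ex (tilt_coer hW v) (by fun_prop) (cpb_const 1)
  have i2 := integrable_Ex hW cW (cpb_const 1)
  unfold Zf Ex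
  rw [← integral_const_mul, ← integral_const_mul,
    ← integral_add (i2.const_mul _) (i1.const_mul _)]
  refine integral_mono i0 ((i2.const_mul _).add (i1.const_mul _)) fun x => ?_
  have h := convexOn_exp.2 (Set.mem_univ (-W x)) (Set.mem_univ (-(W x + ⟪v, x⟫)))
    (sub_nonneg.2 h1) h0 (by ring)
  simp only [smul_eq_mul] at h
  have e : -(W x + ⟪a • v, x⟫) = (1 - a) * -W x + a * -(W x + ⟪v, x⟫) := by
    rw [real_inner_smul_left]
    ring
  simp only [one_mul]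
  rw [e]
  exact h

theorem tilt_zero {U : E n → ℝ} {V : ℕ → E n → ℝ} {l : ℕ → E n} {κ C : ℝ} (hκ : 0 < κ)
    (cU : Continuous U) (cV : ∀ j, Continuous (V j)) (hl : ∀ j x, κ * ‖x‖ ^ 2 - C ≤ V j x)
    (ht : ∀ x, Tendsto (fun j => V j x) atTop (𝓝 (U x))) (hc : Cen U)
    (hcV : ∀ j, Cen fun x => V j x + ⟪l j, x⟫) : Tendsto l atTop (𝓝 0) := by
  have hV : ∀ j, Coer (V j) := fun j => ⟨κ, C, hκ, hl j⟩
  have hU : Coer U := ⟨κ, C, hκ, fun x => ge_of_tendsto' (ht x) fun j => hl j x⟩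
  by_contra hno
  rw [Metric.tendsto_nhds] at hno
  simp only [not_forall, not_eventually, not_lt, dist_zero_right] at hno
  obtain ⟨ε, hε, hfr⟩ := hno
  obtain ⟨φ, hφ, hφl⟩ := extraction_of_frequently_atTop hfr
  have hpos : ∀ j, 0 < ‖l (φ j)‖ := fun j => hε.trans_le (hφl j)
  have hmem : ∀ j, (ε / ‖l (φ j)‖) • l (φ j) ∈ Metric.sphere (0 : E n) ε := by
    intro j
    rw [mem_sphere_zero_iff_norm, norm_smul, Real.norm_eq_abs,
      abs_of_pos (div_pos hε (hpos j)), div_mul_cancel₀ _ (hpos j).ne']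
  obtain ⟨u, hu, ψ, hψ, hlim⟩ := (isCompact_sphere (0 : E n) ε).tendsto_subseq hmem
  have hle : ∀ j, (Zf fun x => V (φ j) x + ⟪(ε / ‖l (φ j)‖) • l (φ j), x⟫) ≤ Zf (V (φ j)) := by
    intro j
    have a0 : 0 ≤ ε / ‖l (φ j)‖ := (div_pos hε (hpos j)).le
    have h1 := tilt_cvx (hV (φ j)) (cV _) (l (φ j)) a0 ((div_le_one (hpos j)).2 (hφl j))
    have h2 := tilt_lt (tilt_coer (hV (φ j)) (l (φ j))) (by have := cV (φ j); fun_prop) (hcV (φ j))
      (v := -l (φ j)) (neg_ne_zero.2 (norm_pos_iff.1 (hpos j)))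
    simp only [inner_neg_left, add_neg_cancel_right] at h2
    have h3 := mul_le_mul_of_nonneg_left h2.le a0
    change _ ≤ _ * Zf (V (φ j)) at h3
    linarith
  have hT : Tendsto (fun j => φ (ψ j)) atTop atTop := hφ.tendsto_atTop.comp hψ.tendsto_atTop
  have t1 : Tendsto (fun j => Zf (V (φ (ψ j)))) atTop (𝓝 (Zf U)) :=
    Ex_tendsto (Wk := fun j => V (φ (ψ j))) hκ (fun j => cV _) (fun j => hl _)
      (fun x => (ht x).comp hT) (cpb_const 1)
  have t2 : Tendsto (fun j => Zf fun x => V (φ (ψ j)) x +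
      ⟪(ε / ‖l (φ (ψ j))‖) • l (φ (ψ j)), x⟫) atTop (𝓝 (Zf fun x => U x + ⟪u, x⟫)) :=
    Ex_tendsto (Wk := fun j x => V (φ (ψ j)) x + ⟪(ε / ‖l (φ (ψ j))‖) • l (φ (ψ j)), x⟫)
      (half_pos hκ) (fun j => by have := cV (φ (ψ j)); fun_prop)
      (fun j => tilt_low hκ (hl _) (mem_sphere_zero_iff_norm.1 (hmem (ψ j))).le)
      (fun x => ((ht x).comp hT).add (hlim.inner tendsto_const_nhds)) (cpb_const 1)
  have h4 := le_of_tendsto_of_tendsto' t2 t1 fun j => hle (ψ j)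
  have h5 : u ≠ 0 := norm_pos_iff.1 (by rw [mem_sphere_zero_iff_norm.1 hu]; exact hε)
  exact absurd (tilt_lt hU cU hc h5) (not_lt.2 h4)

end Vale.Agent.P254B
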