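import Vale.Agent.P254B.Apx
import Vale.Agent.P254B.Tilt

/-! The moment inequality for centred uniformly convex potentials. -/

namespace Vale.Agent.P254B

open Vale.Agent.P227
open scoped ContDiff Matrix RealInnerProductSpace Topology
open MeasureTheory Filter

variable {n : ℕ}

theorem mig_lim {U : E n → ℝ} {W : ℕ → E n → ℝ} {κ C : ℝ} (hκ : 0 < κ) (hU : Good U)
    (cW : ∀ j, Continuous (W j)) (hl : ∀ j x, κ * ‖x‖ ^ 2 - C ≤ W j x)
    (ht : ∀ x, Tendsto (fun j => W j x) atTop (𝓝 (U x))) {p : Fin n → ℝ} {r : ℕ → ℝ}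
    (hr : Tendsto r atTop (𝓝 1)) (h : ∀ j, MI (W j) fun i => r j * p i) : MI U p := by
  have hn : ∀ g : E n → ℝ, CPB g → Tendsto (fun j => nm (W j) g) atTop (𝓝 (nm U g)) :=
    fun g hg => (Ex_tendsto hκ cW hl ht hg).div (Ex_tendsto hκ cW hl ht (cpb_const 1))
      (Zf_pos hU.coer hU.cont).ne'
  have h2 : ∀ i j, Tendsto (fun k => m2 (W k) i j) atTop (𝓝 (m2 U i j)) := fun i j =>
    hn _ ((cpb_coord i).mul (cpb_coord j))
  have h3 : ∀ i j c, Tendsto (fun k => m3 (W k) i j c) atTop (𝓝 (m3 U i j c)) := fun i j c =>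
    hn _ (((cpb_coord i).mul (cpb_coord j)).mul (cpb_coord c))
  have hp : ∀ i, Tendsto (fun k => r k * p i) atTop (𝓝 (p i)) := fun i => by
    simpa using hr.mul_const (p i)
  intro a k ha
  refine le_of_tendsto_of_tendsto' (b := (atTop : Filter ℕ)) ?_ ?_ fun j => h j a k ha
  · refine tendsto_finsetSum _ fun i _ => tendsto_finsetSum _ fun j _ => ?_
    refine ((((hp i).const_mul 2).mul_const (a i)).const_add 1).mul ?_
    refine (((h2 i j).pow 2).add (tendsto_finsetSum _ fun c _ => (h3 i j c).const_mul _)).sub ?_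
    exact tendsto_finsetSum _ fun c _ => tendsto_finsetSum _ fun d _ => (h2 c d).const_mul _
  · refine ((tendsto_finsetSum _ fun i _ => tendsto_finsetSum _ fun j _ =>
      (h2 i j).pow 2).const_mul 2).add (tendsto_finsetSum _ fun i _ => ?_)
    exact ((hp i).mul_const _).mul (h2 i i)

theorem mi_good {U : E n → ℝ} (hU : Good U) (hc : Cen U) {p : Fin n → ℝ}
    (hp : ∀ i, 0 ≤ p i) (hd : ∀ x ξ, dq p ξ ≤ qf (hess U x) ξ) : MI U p := by
  obtain ⟨κ, hκ, hl⟩ := hU.low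
  obtain ⟨C₀, H⟩ := approx hU.sm hκ hl hp hd
  have t0 : ∀ j : ℕ, (0 : ℝ) < 1 / ((j : ℝ) + 2) := fun j => by positivity
  have t1 : ∀ j : ℕ, 1 / ((j : ℝ) + 2) ≤ 1 / 2 := fun j =>
    one_div_le_one_div_of_le two_pos (le_add_of_nonneg_left j.cast_nonneg)
  choose V l cV lV aV cen mi using fun j : ℕ =>
    H (1 / ((j : ℝ) + 2)) ((j : ℝ) + 1) (t0 j) (t1 j) (by positivity)
  have tt : Tendsto (fun j : ℕ => 1 / ((j : ℝ) + 2)) atTop (𝓝 0) :=
    (tendsto_atTop_add_const_right _ 2 tendsto_natCast_atTop_atTop).const_div_atTop 1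
  have tV : ∀ x, Tendsto (fun j => V j x) atTop (𝓝 (U x)) := fun x => by
    rw [tendsto_iff_dist_tendsto_zero]
    have z : Tendsto (fun j : ℕ => 1 / ((j : ℝ) + 2) * ‖x‖ ^ 2) atTop (𝓝 0) := by
      simpa using tt.mul_const (‖x‖ ^ 2)
    refine squeeze_zero' (Eventually.of_forall fun _ => dist_nonneg) ?_ z
    filter_upwards [tendsto_natCast_atTop_atTop.eventually_ge_atTop ‖x‖] with j hj
    rw [Real.dist_eq]
    exact aV j x (by linarith)
  have k8 : 0 < κ / 8 := by positivity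
  have tl : Tendsto l atTop (𝓝 0) := tilt_zero k8 hU.cont cV lV tV hc cen
  obtain ⟨M, hM⟩ := tl.norm.bddAbove_range
  have hM' : ∀ j, ‖l j‖ ≤ M := fun j => hM ⟨j, rfl⟩
  refine mig_lim (W := fun j x => V j x + ⟪l j, x⟫) (κ := κ / 16) (C := C₀ + 4 * M ^ 2 / κ)
    (r := fun j => 1 - 1 / ((j : ℝ) + 2)) (by positivity) hU
    (fun j => (cV j).add (continuous_const.inner continuous_id)) (fun j x => ?_) (fun x => ?_)
    (by simpa using tt.const_sub 1) mi
  · have b1 : -(M * ‖x‖) ≤ ⟪l j, x⟫ := neg_le_of_abs_le ((abs_real_inner_le_norm _ _).trans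
      (mul_le_mul_of_nonneg_right (hM' j) (norm_nonneg x)))
    have b2 : M * ‖x‖ ≤ κ / 16 * ‖x‖ ^ 2 + 4 * M ^ 2 / κ := by
      have e : κ / 16 * ‖x‖ ^ 2 + 4 * M ^ 2 / κ - M * ‖x‖ = (κ * ‖x‖ - 8 * M) ^ 2 / (16 * κ) := by
        field_simp
        ring
      have : 0 ≤ (κ * ‖x‖ - 8 * M) ^ 2 / (16 * κ) := by positivity
      linarith
    linarith [lV j x]
  · simpa using (tV x).add (tl.inner (𝕜 := ℝ) (tendsto_const_nhds (x := x)))

end Vale.Agent.P254B
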