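import Vale.Agent.P254B.Stp
import Vale.Agent.P254B.Cont
import Vale.Agent.P254B.Coe

/-! The maximum principle. -/

namespace Vale.Agent.P254B

open Vale.Agent.P227
open scoped ContDiff Matrix RealInnerProductSpace Topology
open MeasureTheory Filter

variable {n : ℕ}

/-- admissible states -/
def main_K (b T : ℝ) (N : ℕ) : Set (ℝ × Mat n × E n) :=
  {s | 1 ≤ s.1 ∧ s.1 ≤ T ∧ s.2.1.IsSymm ∧
    ∀ ξ : E n, s.1 * b * ‖ξ‖ ^ 2 ≤ qf s.2.1 ξ ∧ qf s.2.1 ξ ≤ s.1 ^ N * b * ‖ξ‖ ^ 2}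

/-- the functional -/
noncomputable def main_w (V : E n → ℝ) (η : ℝ) (s : ℝ × Mat n × E n) : ℝ :=
  Phi (St V s.2.1 s.2.2) s.2.1 - η * nm (St V s.2.1 s.2.2) (fun x => ‖x‖ ^ 2) + η * s.1

theorem main_cont_qf (ξ : E n) : Continuous fun s : ℝ × Mat n × E n => qf s.2.1 ξ := by
  unfold qf
  refine continuous_finsetSum _ fun i _ => continuous_finsetSum _ fun j _ => ?_
  exact ((continuous_snd.fst.matrix_elem i j).mul continuous_const).mul continuous_const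

theorem main_closed (b T : ℝ) (N : ℕ) : IsClosed (main_K (n := n) b T N) := by
  refine (isClosed_le continuous_const continuous_fst).inter
    ((isClosed_le continuous_fst continuous_const).inter
      ((isClosed_eq continuous_snd.fst.matrix_transpose continuous_snd.fst).inter ?_))
  change IsClosed {s : ℝ × Mat n × E n | ∀ ξ : E n,
    s.1 * b * ‖ξ‖ ^ 2 ≤ qf s.2.1 ξ ∧ qf s.2.1 ξ ≤ s.1 ^ N * b * ‖ξ‖ ^ 2}
  rw [Set.ofPred_forall]
  exact isClosed_iInter fun ξ => (isClosed_le (by fun_prop) (main_cont_qf ξ)).inter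
    (isClosed_le (main_cont_qf ξ) (by fun_prop))

theorem main_bd {b T : ℝ} {N : ℕ} (hb : 0 < b) {s : ℝ × Mat n × E n} (hs : s ∈ main_K b T N)
    (ξ : E n) : b * ‖ξ‖ ^ 2 ≤ qf s.2.1 ξ ∧ qf s.2.1 ξ ≤ T ^ N * b * ‖ξ‖ ^ 2 := by
  obtain ⟨h1, h2, -, h4⟩ := hs
  have h0 : 0 ≤ b * ‖ξ‖ ^ 2 := by positivity
  have h5 : s.1 ^ N ≤ T ^ N := pow_le_pow_left₀ (by linarith) h2 N
  refine ⟨le_trans ?_ (h4 ξ).1, (h4 ξ).2.trans ?_⟩
  · nlinarith
  · rw [mul_assoc, mul_assoc]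
    exact mul_le_mul_of_nonneg_right h5 h0

theorem main_compact {b : ℝ} (hb : 0 < b) (T : ℝ) (N : ℕ) (M : ℝ) :
    IsCompact (main_K (n := n) b T N ∩ {s | ‖s.2.2‖ ≤ M}) := by
  have hc : IsCompact (Set.univ.pi fun _ : Fin n => Set.univ.pi fun _ : Fin n =>
      Set.Icc (-(T ^ N * b)) (T ^ N * b)) :=
    isCompact_univ_pi fun _ => isCompact_univ_pi fun _ => isCompact_Icc
  refine ((isCompact_Icc (a := 1) (b := T)).prod
    (IsCompact.prod (X := Mat n) hc (isCompact_closedBall (0 : E n) M))).of_isClosed_subset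
    ((main_closed b T N).inter (isClosed_le (by fun_prop) continuous_const)) ?_
  rintro s ⟨hs, hM⟩
  refine ⟨⟨hs.1, hs.2.1⟩, fun i _ j _ => abs_le.1 (abs_entry_le hs.2.2.1 (fun ξ => ?_) i j),
    mem_closedBall_zero_iff.2 hM⟩
  have := main_bd hb hs ξ
  rw [abs_of_nonneg (le_trans (by positivity) this.1)]
  exact this.2

theorem main_upper {Λ b T η : ℝ} {N : ℕ} {V : E n → ℝ} (hV : Cvx Λ V) (hb : 0 < b)
    {s : ℝ × Mat n × E n} (hs : s ∈ main_K b T N) :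
    main_w V η s + η * nm (St V s.2.1 s.2.2) (fun x => ‖x‖ ^ 2) ≤
      cst n + n * (Λ / (s.1 * b)) + η * s.1 := by
  have h1 : 0 < s.1 * b := mul_pos (by linarith [hs.1]) hb
  have := end_state hV hs.2.2.1 h1 (fun ξ => (hs.2.2.2 ξ).1) s.2.2
  rw [main_w]
  linarith

theorem main_eta (hn : 1 ≤ n) {Λ b : ℝ} {V : E n → ℝ} (hV : Cvx Λ V) (hb : 0 < b) {η T : ℝ}
    (hη : 0 < η) (hT : 1 ≤ T) :
    Phi (St V (b • (1 : Mat n)) 0) (b • (1 : Mat n)) -
      η * nm (St V (b • (1 : Mat n)) 0) (fun x => ‖x‖ ^ 2) ≤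
        cst n + n * (Λ / (T * b)) + η * T := by
  obtain ⟨N, hN⟩ := exists_nat_ge (1 + Λ / b)
  obtain ⟨C, hC, hθ⟩ := coe_theta (B := T ^ N * b) hV hb
  obtain ⟨s₀, hs₀⟩ : ∃ s₀ : ℝ × Mat n × E n, s₀ = (1, b • (1 : Mat n), 0) := ⟨_, rfl⟩
  have m₀ : s₀ ∈ main_K b T N := by
    rw [hs₀]
    refine ⟨le_rfl, hT, Matrix.isSymm_one.smul b, fun ξ => ?_⟩
    simp [qf_smul, qf_one]
  have hΛ := hV.nn
  have hn0 : (0 : ℝ) ≤ n := Nat.cast_nonneg n
  obtain ⟨A, hA⟩ : ∃ A : ℝ, A = (cst n + n * (Λ / b) + η * T - main_w V η s₀) / η := ⟨_, rfl⟩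
  have key : ∀ s ∈ main_K b T N, main_w V η s₀ ≤ main_w V η s → ‖s.2.2‖ ≤ C * (1 + A) := by
    intro s hs hw
    refine (hθ _ _ hs.2.2.1 (main_bd hb hs)).trans (mul_le_mul_of_nonneg_left ?_ hC.le)
    have h1 := main_upper (η := η) hV hb hs
    have h2 : Λ / (s.1 * b) ≤ Λ / b :=
      div_le_div_of_nonneg_left hΛ hb (by nlinarith [hs.1])
    have h3 := mul_le_mul_of_nonneg_left h2 hn0
    have h4 := mul_le_mul_of_nonneg_left hs.2.1 hη.le
    rw [add_le_add_iff_left, hA, le_div_iff₀' hη]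
    linarith
  have hcont : ContinuousOn (main_w V η) (main_K b T N) := by
    refine ContinuousOn.add ((cont_state hV hb η).comp continuous_snd.continuousOn
      fun s hs => ⟨hs.2.2.1, fun ξ => (main_bd hb hs ξ).1⟩) ?_
    fun_prop
  obtain ⟨s, ⟨hs, -⟩, hmax⟩ := (main_compact hb T N (C * (1 + A))).exists_isMaxOn
    ⟨s₀, m₀, key s₀ m₀ le_rfl⟩ (hcont.mono Set.inter_subset_left)
  have h0 : main_w V η s₀ ≤ main_w V η s := hmax ⟨m₀, key s₀ m₀ le_rfl⟩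
  have hall : ∀ r ∈ main_K b T N, main_w V η r ≤ main_w V η s := fun r hr => by
    rcases le_total (main_w V η s₀) (main_w V η r) with h | h
    · exact hmax ⟨hr, key r hr h⟩
    · exact h.trans h0
  have hsT : s.1 = T := by
    by_contra hne
    have hlt : s.1 < T := lt_of_le_of_ne hs.2.1 hne
    have s1 : 0 < s.1 := by linarith [hs.1]
    have h1 : 0 < s.1 * b := mul_pos s1 hb
    obtain ⟨Q, v, w, hQ, hPQ, hnot⟩ :=
      step_loc hn hV hs.2.2.1 h1 (fun ξ => (hs.2.2.2 ξ).1) s.2.2 hη s1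
    refine hnot ?_
    have hev : ∀ᶠ t : ℝ in 𝓝 0, s.1 * (1 + t ^ 2) < T := by
      have c : Continuous fun t : ℝ => s.1 * (1 + t ^ 2) := by fun_prop
      exact c.continuousAt.eventually_lt continuousAt_const (by simpa using hlt)
    filter_upwards [hev] with t ht
    have mem : (s.1 * (1 + t ^ 2), s.2.1 + t ^ 2 • Q, s.2.2 + t ^ 2 • v + t • w) ∈
        main_K b T N := by
      refine ⟨by nlinarith [hs.1, sq_nonneg t], ht.le, hs.2.2.1.add (hQ.smul _), fun ξ => ?_⟩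
      have a1 := (hs.2.2.2 ξ).1
      have a2 := (hs.2.2.2 ξ).2
      have a3 := mul_le_mul_of_nonneg_left (hPQ ξ).1 (sq_nonneg t)
      have a4 := mul_le_mul_of_nonneg_left (hPQ ξ).2 (sq_nonneg t)
      have a5 : 0 ≤ qf s.2.1 ξ := le_trans (by positivity) a1
      have a6 : Λ / (s.1 * b) ≤ Λ / b := div_le_div_of_nonneg_left hΛ hb (by nlinarith [hs.1])
      have a7 : 1 + N * t ^ 2 ≤ (1 + t ^ 2) ^ N :=
        one_add_mul_le_pow (by linarith [sq_nonneg t]) N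
      have a8 : t ^ 2 * ((1 + Λ / (s.1 * b)) * qf s.2.1 ξ) ≤ t ^ 2 * (N * qf s.2.1 ξ) :=
        mul_le_mul_of_nonneg_left (mul_le_mul_of_nonneg_right (by linarith) a5) (sq_nonneg t)
      have a9 := mul_le_mul a7 a2 a5 (by positivity)
      have a10 := mul_le_mul_of_nonneg_left a1 (sq_nonneg t)
      simp only [qf_add, qf_smul, mul_pow]
      constructor <;> nlinarith
    have := hall _ mem
    simpa [main_w] using this
  have h1 := main_upper (η := η) hV hb hs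
  have h2 : 0 ≤ η * nm (St V s.2.1 s.2.2) fun x => ‖x‖ ^ 2 :=
    mul_nonneg hη.le (nm_nonneg _ fun x => sq_nonneg _)
  rw [hsT] at h1
  rw [hs₀, main_w] at h0
  simp only at h0
  linarith

theorem main_dd (hn : 1 ≤ n) {Λ b : ℝ} {V : E n → ℝ} (hV : Cvx Λ V) (hb : 0 < b) :
    DD (St V (b • (1 : Mat n)) 0) ≤ cst n := by
  have hs : (b • (1 : Mat n)).IsSymm := Matrix.isSymm_one.smul b
  have hq : ∀ ξ : E n, b * ‖ξ‖ ^ 2 ≤ qf (b • (1 : Mat n)) ξ := fun ξ => by rw [qf_smul, qf_one]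
  have hG := hV.good hs hb hq 0
  have h1 : DD (St V (b • (1 : Mat n)) 0) ≤ Phi (St V (b • (1 : Mat n)) 0) (b • (1 : Mat n)) :=
    le_add_of_nonneg_right (Real.log_nonneg (one_le_det
      (cv_posDef hG.coer hG.cont).posSemidef (posDef_of_qf hs hb hq).posSemidef))
  refine h1.trans (le_of_forall_pos_le_add fun ε hε => ?_)
  have hΛ := hV.nn
  obtain ⟨m, hm⟩ : ∃ m, m = nm (St V (b • (1 : Mat n)) 0) fun x => ‖x‖ ^ 2 := ⟨_, rfl⟩
  have hm0 : 0 ≤ m := hm ▸ nm_nonneg _ fun x => sq_nonneg _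
  obtain ⟨T, hT⟩ : ∃ T : ℝ, T = 1 + 2 * (n * Λ) / (b * ε) := ⟨_, rfl⟩
  have hT1 : 1 ≤ T := by rw [hT]; exact le_add_of_nonneg_right (by positivity)
  have h2 := main_eta hn hV hb (η := ε / (2 * (T + m))) (by positivity) hT1
  have h3 : ε / (2 * (T + m)) * T + ε / (2 * (T + m)) * m = ε / 2 := by
    field_simp
  have h4 : n * (Λ / (T * b)) ≤ ε / 2 := by
    have h5 : 2 * (n * Λ) ≤ T * (b * ε) := by
      rw [hT, add_mul, div_mul_cancel₀ _ (by positivity)]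
      exact le_add_of_nonneg_left (by positivity)
    rw [← mul_div_assoc, div_le_div_iff₀ (by positivity) two_pos]
    linarith
  rw [← hm] at h2
  linarith

end Vale.Agent.P254B
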