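import Vale.Agent.P254B.AffB

/-! Normal coordinates. -/

namespace Vale.Agent.P254B

open Vale.Agent.P227
open scoped ContDiff Matrix RealInnerProductSpace Topology
open MeasureTheory Filter

variable {n : ℕ}

theorem exists_norm {W : E n → ℝ} (h : Good W) {P : Mat n} (hP : P.PosDef) :
    ∃ (a : E n) (S : Mat n) (ρ : Fin n → ℝ), IsUnit S.det ∧ (∀ i, 0 < ρ i) ∧
      Sᵀ * P * S = Matrix.diagonal ρ ∧ Iso fun y => W (aff a S y) := by
  have hC := cv_posDef h.coer h.cont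
  obtain ⟨B, hB, e⟩ := exists_sqrt hC.posSemidef
  have dB : IsUnit B.det := by
    have := hC.det_pos
    rw [← e, Matrix.det_mul] at this
    exact (left_ne_zero_of_mul this.ne').isUnit
  have hM : (Bᵀ * P * B).PosDef := hP.conjTranspose_mul_mul_same
    (Matrix.mulVec_injective_iff_isUnit.2 ((Matrix.isUnit_iff_isUnit_det B).2 dB))
  obtain ⟨O, o1, o2⟩ : ∃ O : Mat n, O * Oᵀ = 1 ∧
      Oᵀ * (Bᵀ * P * B) * O = Matrix.diagonal hM.1.eigenvalues :=
    ⟨hM.1.eigenvectorUnitary, Unitary.coe_mul_star_self hM.1.eigenvectorUnitary, by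
      have := hM.1.conjStarAlgAut_star_eigenvectorUnitary
      rw [Unitary.conjStarAlgAut_star_apply] at this
      exact this⟩
  have dS : IsUnit (B * O).det := by
    rw [Matrix.det_mul]
    exact dB.mul (Matrix.isUnit_det_of_right_inverse o1)
  have eS : B * O * (B * O)ᵀ = cv W := by
    rw [Matrix.transpose_mul, Matrix.mul_assoc, ← Matrix.mul_assoc O, o1, Matrix.one_mul, hB.eq, e]
  refine ⟨WithLp.toLp 2 (m1 W), B * O, hM.1.eigenvalues, dS, hM.eigenvalues_pos, ?_, ?_⟩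
  · rw [← o2, Matrix.transpose_mul]
    simp only [Matrix.mul_assoc]
  generalize B * O = S at dS eS
  have c1 : Cen fun y => W (aff (WithLp.toLp 2 (m1 W)) S y) := by
    have : S *ᵥ m1 (fun y => W (aff (WithLp.toLp 2 (m1 W)) S y)) = S *ᵥ 0 := by
      funext i
      rw [Matrix.mulVec_zero]
      exact left_eq_add.1 (m1_aff h (WithLp.toLp 2 (m1 W)) dS i)
    exact congrFun (Matrix.mulVec_injective_iff_isUnit.2
      ((Matrix.isUnit_iff_isUnit_det S).2 dS) this)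
  have c2 := cv_aff h (WithLp.toLp 2 (m1 W)) dS
  have uS := (Matrix.isUnit_iff_isUnit_det S).2 dS
  have uT : IsUnit Sᵀ := (Matrix.isUnit_iff_isUnit_det _).2 (by rwa [Matrix.det_transpose])
  rw [← eS, uT.mul_left_inj] at c2
  refine ⟨c1, fun i j => ?_⟩
  rw [← uS.mul_right_inj.1 (c2.trans (Matrix.mul_one S).symm)]
  simp only [cv, Matrix.of_apply, c1 i, zero_mul, sub_zero]

theorem norm_state {Λ c : ℝ} {V : E n → ℝ} (hV : Cvx Λ V) {P : Mat n} (hP : P.IsSymm) (hc : 0 < c)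
    (hcP : ∀ ξ : E n, c * ‖ξ‖ ^ 2 ≤ qf P ξ) (θ : E n) :
    ∃ (a : E n) (S : Mat n) (ρ : Fin n → ℝ), IsUnit S.det ∧ (∀ i, 0 < ρ i) ∧
      Sᵀ * P * S = Matrix.diagonal ρ ∧ (Iso fun y => St V P θ (aff a S y)) ∧
      ∀ y ξ, dq ρ ξ ≤ qf (hess (fun y => St V P θ (aff a S y)) y) ξ ∧
        qf (hess (fun y => St V P θ (aff a S y)) y) ξ ≤ (1 + Λ / c) * dq ρ ξ := by
  have hG := hV.good hP hc hcP θ
  obtain ⟨a, S, ρ, h1, h2, h3, h4⟩ := exists_norm hG (posDef_of_qf hP hc hcP)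
  refine ⟨a, S, ρ, h1, h2, h3, h4, fun y ξ => ?_⟩
  rw [hess_aff hG.smo, hess_St hV.sm.smo hP, ← qf_diagonal, ← h3, qf_conj, qf_conj, qf_add]
  obtain ⟨b1, b2⟩ := hV.bd (aff a S y) (lin S ξ)
  have b3 := mul_le_mul_of_nonneg_left (hcP (lin S ξ)) (div_nonneg hV.nn hc.le)
  rw [← mul_assoc, div_mul_cancel₀ _ hc.ne'] at b3
  constructor <;> linarith

end Vale.Agent.P254B
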