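import Vale.Agent.P254B.PortA

/-! A priori bounds without symmetry. -/

namespace Vale.Agent.P254B

open Vale.Agent.P227 hiding Pot ASolv APri ap_ell ap_far cal_bound ap_hi ap_far2
open scoped ContDiff Matrix RealInnerProductSpace Topology
open MeasureTheory Filter

variable {n : ℕ}

theorem bd_hess {Θ W : E n → ℝ} (h : Pot Θ W) (ξ : E n) : ∃ M, ∀ x, qf (hess Θ x) ξ ≤ M := by
  obtain ⟨M, hM⟩ := h.mT.2 0
  exact ⟨n * M * ‖ξ‖ ^ 2, fun x => (le_abs_self _).trans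
    (abs_qf_le (A := hess Θ x) (fun i j => (hM i j).2.1 x) ξ)⟩

theorem ap_ell {Θ W : E n → ℝ} {κ K : ℝ} (h : Pot Θ W) (hκ : 0 < κ) (hK : 0 < K)
    (hW : Ell κ K (hess W)) : Ell (1 / K) (1 / κ) (tau Θ) ∧ Ell κ K (hess Θ) := by
  obtain ⟨c, C, -, -, hE⟩ := h.ell
  have hl := h.toLPot
  have hp : ∀ x, (tau Θ x).PosSemidef := fun x => (hl.tau_posDef x).posSemidef
  have ht : ∀ x, (tau Θ x).trace ≤ n * C := fun x => trace_le_of_qf fun ξ => ((hE x).2 ξ).2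
  have u1 : ∀ x ξ, qf (hess Θ x) ξ ≤ K * ‖ξ‖ ^ 2 := fun x ξ =>
    maxp hp ht ((msmo_hess hl.sT).qf ξ) (bd_hess h ξ) one_pos
      (fun y => Or.inr (by rw [one_mul]; exact Apri1.Lh hl ξ y ((hW y).2 ξ).2)) x
  have u2 : ∀ x ξ, qf (tau Θ x) ξ ≤ 1 / κ * ‖ξ‖ ^ 2 := fun x ξ =>
    maxp hp ht (hl.msmo.qf ξ) ⟨C * ‖ξ‖ ^ 2, fun y => ((hE y).2 ξ).2⟩ one_pos
      (fun y => Or.inr (by rw [one_mul]; exact Apri1.Lt hl ξ y hκ fun ζ => ((hW y).2 ζ).1)) x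
  refine ⟨fun x => ⟨hl.tau_symm x, fun ξ => ⟨qf_inv_lower (hl.pos x) hK (u1 x) ξ, u2 x ξ⟩⟩,
    fun x => ⟨hess_symm hl.sT x, fun ξ => ⟨?_, u1 x ξ⟩⟩⟩
  have := qf_inv_lower (hl.tau_posDef x) (one_div_pos.2 hκ) (u2 x) ξ
  rwa [one_div_one_div, tau, Matrix.nonsing_inv_nonsing_inv _ (hl.unit x)] at this

theorem ap_far (n : ℕ) {κ K om : ℝ} (hκ : 0 < κ) (hK : 0 < K) (hom : 0 < om) :
    ∃ η : ℝ, 0 < η ∧ ∀ R₀ : ℝ, ∃ R : ℝ, ∀ Θ W : E n → ℝ, Pot Θ W → Ell κ K (hess W) →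
      Far η R₀ (hess W) → Far om R (tau Θ) := by
  obtain ⟨δ, hδ, hδ1, hδ2⟩ : ∃ δ : ℝ, 0 < δ ∧ δ ≤ om / 4 ∧ δ ≤ 1 / 2 :=
    ⟨min (om / 4) (1 / 2), by positivity, min_le_left _ _, min_le_right _ _⟩
  have hn : (0 : ℝ) ≤ n := Nat.cast_nonneg n
  have hκ' : 0 < 1 / κ := one_div_pos.2 hκ
  refine ⟨δ / (n + 1), by positivity, fun R₀ => ?_⟩
  obtain ⟨R, hR⟩ := barrier n (C := 1 / κ) (R₀ := R₀) (K := K + 1 / κ) (om := om / 2) hκ'.le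
    (by positivity) (by positivity)
  refine ⟨R, fun Θ W h hW hF x hx => ?_⟩
  have hl := h.toLPot
  obtain ⟨hE, -⟩ := ap_ell h hκ hK hW
  have hp : ∀ x, (tau Θ x).PosSemidef := fun x => (hl.tau_posDef x).posSemidef
  have hη : n * (δ / (n + 1)) ≤ δ := by
    rw [← mul_div_assoc, div_le_iff₀ (by positivity)]
    nlinarith
  have hq : ∀ y, R₀ ≤ ‖y‖ → ∀ ζ : E n, (1 - δ) * ‖ζ‖ ^ 2 ≤ qf (hess W y) ζ ∧
      qf (hess W y) ζ ≤ (1 + δ) * ‖ζ‖ ^ 2 := by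
    intro y hy ζ
    have h1 := abs_qf_le (A := hess W y - 1) (fun i j => hF y hy i j) ζ
    rw [qf_sub, qf_one] at h1
    have h2 := mul_le_mul_of_nonneg_right hη (sq_nonneg ‖ζ‖)
    obtain ⟨h3, h4⟩ := abs_le.1 h1
    constructor <;> linarith
  have u1 : ∀ ξ : E n, qf (hess Θ x) ξ ≤ (1 + δ + om / 2) * ‖ξ‖ ^ 2 := by
    refine Apri1.qf_le_of_unit fun ξ hξ => ?_
    refine hR (tau Θ) (fun y => qf (hess Θ y) ξ) (1 + δ) hp (fun y ζ => ((hE y).2 ζ).2)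
      ((msmo_hess hl.sT).qf ξ) (bd_hess h ξ) (fun y => ?_) (fun y hy => ?_) x hx
    · have := Apri1.Lh hl ξ y ((hW y).2 ξ).2
      rw [hξ] at this
      linarith
    · have := Apri1.Lh hl ξ y (hq y hy ξ).2
      rw [hξ] at this
      linarith
  have u2 : ∀ ξ : E n, qf (tau Θ x) ξ ≤ (1 + 2 * δ + om / 2) * ‖ξ‖ ^ 2 := by
    refine Apri1.qf_le_of_unit fun ξ hξ => ?_
    refine hR (tau Θ) (fun y => qf (tau Θ y) ξ) (1 + 2 * δ) hp (fun y ζ => ((hE y).2 ζ).2)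
      (hl.msmo.qf ξ) ⟨_, fun y => ((hE y).2 ξ).2⟩ (fun y => ?_) (fun y hy => ?_) x hx
    · have := Apri1.Lt hl ξ y hκ fun ζ => ((hW y).2 ζ).1
      rw [hξ] at this
      linarith
    · have := Apri1.Lt hl ξ y (a := 1 - δ) (by linarith) fun ζ => (hq y hy ζ).1
      rw [hξ] at this
      have h2 : 1 / (1 - δ) ≤ 1 + 2 * δ := by
        rw [div_le_iff₀ (by linarith)]
        nlinarith
      linarith
  have hs : (tau Θ x - 1).IsSymm := (hl.tau_symm x).sub Matrix.isSymm_one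
  refine abs_entry_le (A := tau Θ x - 1) hs fun ξ => ?_
  have l1 : 1 / (1 + δ + om / 2) * ‖ξ‖ ^ 2 ≤ qf (tau Θ x) ξ :=
    qf_inv_lower (hl.pos x) (by positivity) u1 ξ
  have l2 : 1 - om ≤ 1 / (1 + δ + om / 2) := by
    rw [le_div_iff₀ (by positivity)]
    nlinarith
  have l3 := mul_le_mul_of_nonneg_right l2 (sq_nonneg ‖ξ‖)
  have l4 : (1 + 2 * δ + om / 2) * ‖ξ‖ ^ 2 ≤ (1 + om) * ‖ξ‖ ^ 2 :=
    mul_le_mul_of_nonneg_right (by linarith) (sq_nonneg _)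
  rw [qf_sub, qf_one, abs_le]
  constructor <;> linarith [u2 ξ]

theorem cal_bound (n : ℕ) {κ K : ℝ} (hκ : 0 < κ) (hK : 0 < K) : ∃ C : ℝ, 0 < C ∧
    ∀ Θ W : E n → ℝ, Pot Θ W → Ell κ K (hess W) → N2 1 K W →
      ∀ i j k x, |D i (D j (D k Θ)) x| ≤ C := by
  have hn : (0 : ℝ) ≤ (n : ℝ) ^ 3 := by positivity
  refine ⟨K ^ 3 * (4 * ((1 / κ) ^ 3 * (n ^ 3 * K ^ 2))) + 1, by positivity,
    fun Θ W h hE hN i j k x => ?_⟩
  have hτ := (ap_ell h hκ hK hE).1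
  have hK' : (0 : ℝ) ≤ 1 / K := by positivity
  have hκ' : (0 : ℝ) ≤ 1 / κ := by positivity
  have up : ∀ (f : E n → ℝ) (M : ℝ), N2 1 M f → ∀ z,
      nrm3 (tau Θ z) (d3 f z) ≤ (1 / κ) ^ 3 * (n ^ 3 * M ^ 2) := fun f M hf z =>
    (nrm3_upper (hτ z) hK' hκ' _).trans (mul_le_mul_of_nonneg_left
      (CalTAux.sum_le fun a b c => hf.abs_le3 a b c z) (by positivity))
  obtain ⟨M, hM⟩ := h.mT.2 1
  have h1 := maxp (A := 4 * ((1 / κ) ^ 3 * (n ^ 3 * K ^ 2))) (β := 1 / 2)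
    (fun z => (hτ z).psd hK') (fun z => trace_le_of_qf fun ξ => ((hτ z).2 ξ).2)
    h.toLPot.smo_wC ⟨_, up Θ M hM⟩ one_half_pos (fun z => Or.inr (by
      have := cal_ineq h.toLPot ((hE z).psd hκ.le)
      linarith [up W K hN z])) x
  have h2 := (nrm3_lower (hτ x) hK' (d3 Θ x)).trans h1
  have h3 : d3 Θ x i j k ^ 2 ≤ ∑ a, ∑ b, ∑ c, d3 Θ x a b c ^ 2 :=
    ((Finset.single_le_sum (f := fun c => d3 Θ x i j c ^ 2) (fun _ _ => sq_nonneg _)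
      (Finset.mem_univ k)).trans (Finset.single_le_sum (f := fun b => ∑ c, d3 Θ x i b c ^ 2)
        (fun _ _ => by positivity) (Finset.mem_univ j))).trans
      (Finset.single_le_sum (f := fun a => ∑ b, ∑ c, d3 Θ x a b c ^ 2)
        (fun _ _ => by positivity) (Finset.mem_univ i))
  have h4 := mul_le_mul_of_nonneg_left h2 (pow_pos hK 3).le
  rw [← mul_assoc, ← mul_pow, mul_one_div_cancel hK.ne', one_pow, one_mul] at h4
  have h5 := h3.trans h4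
  change |d3 Θ x i j k| ≤ _
  rw [← sq_abs] at h5
  nlinarith [sq_nonneg (|d3 Θ x i j k| - 1), abs_nonneg (d3 Θ x i j k), sq_nonneg (d3 Θ x i j k)]

theorem ap_hi (n : ℕ) {κ K : ℝ} (hκ : 0 < κ) (hK : 0 < K) (R₀ : ℝ) : ∃ η K' : ℝ, 0 < η ∧ 0 < K' ∧
    ∀ Θ W : E n → ℝ, Pot Θ W → Adm κ K R₀ η W → MHb 3 K' (hess Θ) ∧ MHb 3 K' (tau Θ) := by
  obtain ⟨C₃, hC₃, h₃⟩ := cal_bound n hκ hK
  obtain ⟨C₀, hC₀, h₀⟩ := mhb_inv n 0 (K + n * C₃) (1 / κ)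
  have hκ' : 0 < 1 / κ := by positivity
  have hK' : 0 < 1 / K := by positivity
  obtain ⟨om, hom, hP⟩ := Pk n hK' (K := C₀ + 1 / κ) (by positivity)
  obtain ⟨η, hη, hfar⟩ := ap_far n hκ hK hom
  obtain ⟨R, hR⟩ := hfar R₀
  have hinv : ∀ Θ W : E n → ℝ, Pot Θ W → Adm κ K R₀ η W →
      ∀ x i j, |(hess Θ x)⁻¹ i j| ≤ 1 / κ := fun Θ W h hA x i j =>
    ((ap_ell h hκ hK hA.1).1 x).abs_le hK'.le i j
  have hh : ∀ Θ W : E n → ℝ, Pot Θ W → Adm κ K R₀ η W →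
      ∀ i j x, |D i (D j Θ) x| ≤ K := fun Θ W h hA i j x =>
    ((ap_ell h hκ hK hA.1).2 x).abs_le hκ.le i j
  have base : ∀ Θ W : E n → ℝ, Pot Θ W → Adm κ K R₀ η W → MHb 0 C₀ (tau Θ) := by
    intro Θ W h hA
    refine h₀ (hess Θ) h.toLPot.unit (fun i j => ?_) (hinv Θ W h hA)
    have hs : ContDiff ℝ ∞ (D i (D j Θ)) := smo_D i (smo_D j h.sT)
    have hn : 0 ≤ n * C₃ := by positivity
    refine ⟨hs, fun x => (hh Θ W h hA i j x).trans (by linarith), ?_⟩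
    exact (hol_of_D (smo_diff hs) hC₃.le fun p x => h₃ Θ W h hA.1 hA.2.1 p i j x).mono
      (by linarith)
  have step : ∀ k : ℕ, k ≤ 2 → ∀ K₁ : ℝ, ∃ K₂ : ℝ, 0 < K₂ ∧ ∀ Θ W : E n → ℝ, Pot Θ W →
      Adm κ K R₀ η W → MHb k K₁ (tau Θ) →
        MHb (k + 1) K₂ (hess Θ) ∧ MHb (k + 1) K₂ (tau Θ) := by
    intro k hk K₁
    obtain ⟨C, hC, hC'⟩ := hP k R K₁
    have hF : 0 ≤ (n + 1) * K := by positivity
    have hM : 0 ≤ C * (K + (n + 1) * K) := by positivity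
    obtain ⟨C', hC'0, hC''⟩ := mhb_inv n (k + 1) (K + (n + 1) * (C * (K + (n + 1) * K))) (1 / κ)
    have hB : 0 < K + (n + 1) * (C * (K + (n + 1) * K)) := by positivity
    refine ⟨K + (n + 1) * (C * (K + (n + 1) * K)) + C', by positivity, fun Θ W h hA hτ => ?_⟩
    have h1 : ∀ i, N2 k (C * (K + (n + 1) * K)) (D i Θ) := by
      intro i
      refine hC' (tau Θ) 0 (D i Θ) K ((n + 1) * K)
        (fun x => ((ap_ell h hκ hK hA.1).1 x).mono le_rfl (by linarith))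
        ((base Θ W h hA).mono (by linarith)) hτ (hR Θ W h hA.1 hA.2.2) (by norm_num)
        (h.mT.D i) hK.le hF (fun j x => hh Θ W h hA j i x) ?_
      have e : Aop (tau Θ) 0 (D i Θ) = D i W := by
        funext x
        rw [Aop, h.toLPot.L_D i]
        simp
      rw [e]
      exact (hA.2.1.hs_D h.sW hK.le i).of_le hk
    have h2 : MHb (k + 1) (K + (n + 1) * (C * (K + (n + 1) * K))) (hess Θ) :=
      n2_iff_mhb.1 (n2_succ_of h.sT hM (hh Θ W h hA) h1)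
    exact ⟨h2.mono (by linarith),
      (hC'' (hess Θ) h.toLPot.unit h2 (hinv Θ W h hA)).mono (by linarith)⟩
  obtain ⟨K₁, -, s₁⟩ := step 0 (by norm_num) C₀
  obtain ⟨K₂, -, s₂⟩ := step 1 (by norm_num) K₁
  obtain ⟨K₃, hK₃, s₃⟩ := step 2 le_rfl K₂
  exact ⟨η, K₃, hη, hK₃, fun Θ W h hA =>
    s₃ Θ W h hA (s₂ Θ W h hA (s₁ Θ W h hA (base Θ W h hA)).2).2⟩

theorem ap_far2 (n : ℕ) {κ K K' om : ℝ} (hκ : 0 < κ) (hK : 0 < K) (hK' : 0 < K') (hom : 0 < om) :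
    ∃ η : ℝ, 0 < η ∧ ∀ R₀ : ℝ, ∃ R : ℝ, ∀ Θ W : E n → ℝ, Pot Θ W → Ell κ K (hess W) →
      Far η R₀ (hess W) → MHb 3 K' (tau Θ) → Far2 om R (tau Θ) := by
  obtain ⟨small, hsmall⟩ : ∃ f : ℝ → ℝ, ∀ a, 0 < a → 0 < f a ∧ ∀ (g : E n → ℝ) (x : E n) (b : ℝ)
      (i : Fin n), Differentiable ℝ g → (∀ y, ‖y - x‖ ≤ 1 → |g y - b| ≤ f a) →
      Hol K' (D i g) → |D i g x| ≤ a := by
    have key : ∀ a : ℝ, ∃ t : ℝ, 0 < a → 0 < t ∧ ∀ (g : E n → ℝ) (x : E n) (b : ℝ)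
        (i : Fin n), Differentiable ℝ g → (∀ y, ‖y - x‖ ≤ 1 → |g y - b| ≤ t) →
        Hol K' (D i g) → |D i g x| ≤ a := by
      intro a
      by_cases ha : 0 < a
      · obtain ⟨r, hr, h⟩ := mo_small (K := K') (half_pos ha)
        have hr' : 0 < min r 1 := by positivity
        refine ⟨a / 4 * min r 1, fun _ => ⟨by positivity, fun g x b i hg h0 h1 => ?_⟩⟩
        have c := deriv_small (x := x) (a := b) (om := a / 4 * min r 1) hg hr' hK'.le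
          (fun y hy => h0 y (hy.trans (min_le_right _ _))) h1
        have d := h _ hr'.le (min_le_left _ _)
        have e : 2 * (a / 4 * min r 1) / min r 1 = a / 2 := by field_simp; ring
        linarith
      · exact ⟨0, fun h => absurd h ha⟩
    choose f hf using key
    exact ⟨f, hf⟩
  obtain ⟨h1, g1⟩ := hsmall om hom
  have h2 : 0 < min om (small om) := by positivity
  obtain ⟨h3, g3⟩ := hsmall _ h2
  obtain ⟨η, hη, h⟩ := ap_far n hκ hK h3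
  refine ⟨η, hη, fun R₀ => ?_⟩
  obtain ⟨R, hR⟩ := h R₀
  refine ⟨R + 2, fun Θ W hP hE hF m3 => ?_⟩
  have f0 := hR Θ W hP hE hF
  have near : ∀ (x y : E n) (a : ℝ), a + 1 ≤ ‖x‖ → ‖y - x‖ ≤ 1 → a ≤ ‖y‖ := by
    intro x y a hx hy
    have := norm_sub_norm_le x y
    rw [norm_sub_rev] at this
    linarith
  have f1 : ∀ x, R + 1 ≤ ‖x‖ → ∀ i j p, |D p (ent (tau Θ) i j) x| ≤ min om (small om) :=
    fun x hx i j p => g3 _ x ((1 : Mat n) i j) p (smo_diff (m3 i j).smo)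
      (fun y hy => f0 y (near x y R hx hy) i j) ((m3 i j).D p).hol
  intro x hx i j p q
  refine ⟨(f1 x (by linarith) i j p).trans (min_le_left _ _), ?_⟩
  refine g1 _ x 0 q (smo_diff ((m3 i j).D p).smo) (fun y hy => ?_) (((m3 i j).D p).D q).hol
  rw [sub_zero]
  exact (f1 y (near x y (R + 1) (by linarith) hy) i j p).trans (min_le_right _ _)

end Vale.Agent.P254B
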