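import Vale.Agent.P254B.LocB
import Vale.Agent.P254B.End
import Vale.Agent.P254B.Norm

/-! The local step of the maximum principle. -/

namespace Vale.Agent.P254B

open Vale.Agent.P227
open scoped ContDiff Matrix RealInnerProductSpace Topology
open MeasureTheory Filter

variable {n : ℕ}

variable {Λ c : ℝ} {V : E n → ℝ} {P : Mat n}

theorem end_state (hV : Cvx Λ V) (hP : P.IsSymm) (hc : 0 < c)
    (hcP : ∀ ξ : E n, c * ‖ξ‖ ^ 2 ≤ qf P ξ) (θ : E n) :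
    Phi (St V P θ) P ≤ cst n + n * (Λ / c) := by
  obtain ⟨a, S, ρ, hS, hρ, hd, hi, hb⟩ := norm_state hV hP hc hcP θ
  have hG := hV.good hP hc hcP θ
  have hU := good_aff hG a hS
  rw [← Phi_aff hG a hS P, hd]
  exact end_iso hU hi (div_nonneg hV.nn hc.le) hρ
    (rho_le hU hi (fun i => (hρ i).le) fun x ξ => (hb x ξ).1) (fun x ξ => (hb x ξ).1)
    fun x ξ => (hb x ξ).2

theorem stp_inner (B : Mat n) (u x : E n) : ⟪lin Bᵀ u, x⟫ = ⟪u, lin B x⟫ := by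
  simp only [PiLp.inner_apply, lin_apply, Matrix.transpose_apply, RCLike.inner_apply,
    conj_trivial, Finset.sum_mul, Finset.mul_sum]
  rw [Finset.sum_comm]
  exact Finset.sum_congr rfl fun _ _ => Finset.sum_congr rfl fun _ _ => by ring

theorem stp_qf (T : Mat n) (ξ : E n) : qf (Tᵀ * T) ξ = ‖lin T ξ‖ ^ 2 := by
  rw [← qf_one, ← qf_conj, Matrix.mul_one]

theorem stp_normsq (ξ : E n) : ‖ξ‖ ^ 2 = ∑ i, ξ i ^ 2 := by
  rw [EuclideanSpace.real_norm_sq_eq]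

theorem stp_cpb (a : E n) (S : Mat n) : CPB fun y => ‖aff a S y‖ ^ 2 := by
  have e : (fun y => ‖aff a S y‖ ^ 2) = fun y : E n => ∑ i, (a i + ∑ j, S i j * y j) ^ 2 := by
    funext y
    rw [stp_normsq]
    rfl
  rw [e]
  exact cpb_sum _ fun i _ =>
    ((cpb_const _).add (cpb_sum _ fun j _ => (cpb_coord j).const_mul _)).pow 2

theorem stp_cur (V : E n → ℝ) (P : Mat n) (θ a : E n) {S T : Mat n} (hTS : T * S = 1) (s t : ℝ)
    (k : Fin n) :
    cur (fun y => St V P θ (aff a S y)) s k t = fun y =>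
      St V (P + t ^ 2 • (Tᵀ * T)) (θ + t ^ 2 • lin Tᵀ (lin T a) + t • lin Tᵀ (s • ev k))
        (aff a S y) + (t ^ 2 / 2 * ‖lin T a‖ ^ 2 + t * (s * lin T a k)) := by
  funext y
  have e1 : lin T (aff a S y) = lin T a + y := by
    rw [aff, map_add, lin_lin, hTS, lin_one]
  have e2 : ⟪s • ev k, lin T a + y⟫ = s * (lin T a k + y k) := by
    rw [real_inner_smul_left, ev, EuclideanSpace.inner_single_left]
    simp
  simp only [cur, St, qf_add, qf_smul, stp_qf, inner_add_left, real_inner_smul_left (lin _ _),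
    stp_inner, e1, e2]
  rw [norm_add_sq_real, inner_add_right (lin T a), real_inner_self_eq_norm_sq]
  ring

theorem step_loc (hn : 1 ≤ n) (hV : Cvx Λ V) (hP : P.IsSymm) (hc : 0 < c)
    (hcP : ∀ ξ : E n, c * ‖ξ‖ ^ 2 ≤ qf P ξ) (θ : E n) {η σ : ℝ} (hη : 0 < η) (hσ : 0 < σ) :
    ∃ (Q : Mat n) (v w : E n), Q.IsSymm ∧
      (∀ ξ, qf P ξ ≤ qf Q ξ ∧ qf Q ξ ≤ (1 + Λ / c) * qf P ξ) ∧
      ¬IsLocalMax (fun t : ℝ =>
        Phi (St V (P + t ^ 2 • Q) (θ + t ^ 2 • v + t • w)) (P + t ^ 2 • Q) -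
          η * nm (St V (P + t ^ 2 • Q) (θ + t ^ 2 • v + t • w)) (fun x => ‖x‖ ^ 2) +
          η * (σ * (1 + t ^ 2))) 0 := by
  obtain ⟨a, S, ρ, hS, hρ, hd, hi, hb⟩ := norm_state hV hP hc hcP θ
  have hG := hV.good hP hc hcP θ
  have hU := good_aff hG a hS
  have h1 := rho_le hU hi (fun i => (hρ i).le) fun x ξ => (hb x ξ).1
  have h2 := cramer hU hi fun x ξ => (hb x ξ).2
  obtain ⟨k, hk⟩ := not_max hn hU hi hρ (fun x ξ => (hb x ξ).1) (stp_cpb a S)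
    (Real.sq_sqrt (Nat.cast_nonneg n)) hη hσ
  have hTS : S⁻¹ * S = 1 := Matrix.nonsing_inv_mul _ hS
  have hST : S * S⁻¹ = 1 := Matrix.mul_nonsing_inv _ hS
  have hQ : (S⁻¹ᵀ * S⁻¹).IsSymm := Matrix.isSymm_transpose_mul_self _
  have hPq : ∀ ξ, qf P ξ = dq ρ (lin S⁻¹ ξ) := fun ξ => by
    rw [← qf_diagonal, ← hd, qf_conj, lin_lin, hST, lin_one]
  refine ⟨S⁻¹ᵀ * S⁻¹, lin S⁻¹ᵀ (lin S⁻¹ a), lin S⁻¹ᵀ (√n • ev k), hQ, fun ξ => ?_, ?_⟩
  · rw [hPq, stp_qf, stp_normsq, dq, Finset.mul_sum]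
    refine ⟨Finset.sum_le_sum fun i _ => ?_, Finset.sum_le_sum fun i _ => ?_⟩
    · exact mul_le_of_le_one_left (sq_nonneg _) (h1 i)
    · rw [← mul_assoc]
      exact le_mul_of_one_le_left (sq_nonneg _) (h2 i)
  · intro hm
    refine hk ?_
    refine hm.congr (Filter.Eventually.of_forall fun t => ?_)
    have hG' : Good (St V (P + t ^ 2 • (S⁻¹ᵀ * S⁻¹))
        (θ + t ^ 2 • lin S⁻¹ᵀ (lin S⁻¹ a) + t • lin S⁻¹ᵀ (√n • ev k))) := by
      refine hV.good (hP.add (hQ.smul _)) hc (fun ξ => ?_) _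
      rw [qf_add, qf_smul, stp_qf]
      exact le_add_of_le_of_nonneg (hcP ξ) (by positivity)
    have hM : Sᵀ * (P + t ^ 2 • (S⁻¹ᵀ * S⁻¹)) * S = Matrix.diagonal ρ + t ^ 2 • (1 : Mat n) := by
      rw [Matrix.mul_add, Matrix.add_mul, hd, Matrix.mul_smul, Matrix.smul_mul,
        ← Matrix.mul_assoc, ← Matrix.transpose_mul, hTS, Matrix.transpose_one, Matrix.one_mul, hTS]
    beta_reduce
    rw [stp_cur V P θ a hTS, Phi_shift (good_aff hG' a hS), nm_shift, ← hM, Phi_aff hG' a hS,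
      nm_aff _ (fun x => ‖x‖ ^ 2) a hS]

end Vale.Agent.P254B
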