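import Vale.Agent.P254B.Defs

/-! Taylor bounds without symmetry. -/

namespace Vale.Agent.P254B

open Vale.Agent.P227
open scoped ContDiff Matrix RealInnerProductSpace Topology
open MeasureTheory Filter

variable {n : ℕ}

variable {f : E n → ℝ}

theorem tay_gen (hf : ContDiff ℝ ∞ f) (x : E n) (a : ℝ)
    (h : ∀ y, a ≤ qf (hess f y) x) : f 0 + ∑ i, D i f 0 * x i + a / 2 ≤ f x := by
  have h1 : ∀ s : ℝ, HasDerivAt (fun r : ℝ => f (0 + r • x) - (∑ i, D i f 0 * x i) * r)
      (∑ i, x i * D i f (0 + s • x) - ∑ i, D i f 0 * x i) s := fun s => by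
    have := (hasDerivAt_line (smo_diff hf) 0 x s).sub
      ((hasDerivAt_id s).const_mul (∑ i, D i f 0 * x i))
    rw [mul_one] at this
    exact this
  have h2 : ∀ s : ℝ, HasDerivAt
      (fun r : ℝ => ∑ i, x i * D i f (0 + r • x) - ∑ i, D i f 0 * x i)
      (qf (hess f (0 + s • x)) x) s := fun s => (CalcLX.line2 hf 0 x s).sub_const _
  have := CalcLX.taylor2 h1 h2 (by simp [mul_comm]) (fun s => h _)
  simp only [zero_smul, add_zero, one_smul, zero_add, mul_zero, sub_zero, mul_one] at this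
  linarith

theorem tay_gen' (hf : ContDiff ℝ ∞ f) (x : E n) (a : ℝ)
    (h : ∀ y, qf (hess f y) x ≤ a) : f x ≤ f 0 + ∑ i, D i f 0 * x i + a / 2 := by
  have := tay_gen (f := fun y => -f y) hf.neg x (-a)
    (fun y => by rw [CalcLX.qf_hess_neg f]; linarith [h y])
  simp only [D_neg, neg_mul, Finset.sum_neg_distrib] at this
  linarith

theorem tay_qf_le {M : ℝ} {A : Mat n} (h : ∀ i j, |A i j| ≤ M) (x : E n) :
    |qf A x| ≤ n ^ 2 * M * ‖x‖ ^ 2 := by
  have k : ∀ i j, |A i j * x i * x j| ≤ M * ‖x‖ ^ 2 := fun i j => by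
    have hM : 0 ≤ M := (abs_nonneg _).trans (h i j)
    rw [abs_mul, abs_mul, sq, ← mul_assoc]
    exact mul_le_mul (mul_le_mul (h i j) (abs_coord_le x i) (abs_nonneg _) hM)
      (abs_coord_le x j) (abs_nonneg _) (mul_nonneg hM (norm_nonneg _))
  refine (Finset.abs_sum_le_sum_abs _ _).trans ?_
  refine (Finset.sum_le_sum fun i _ => (Finset.abs_sum_le_sum_abs _ _).trans
    (Finset.sum_le_sum fun j _ => k i j)).trans (le_of_eq ?_)
  simp only [Finset.sum_const, Finset.card_univ, Fintype.card_fin, nsmul_eq_mul]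
  ring

theorem tay_smo_qf (P : Mat n) : ContDiff ℝ ∞ fun x : E n => qf P x :=
  ContDiff.sum fun i _ => ContDiff.sum fun j _ =>
    (contDiff_const.mul (smo_coord i)).mul (smo_coord j)

theorem tay_D_lin (c : Fin n → ℝ) (i : Fin n) :
    D i (fun x : E n => ∑ j, c j * x j) = fun _ => c i := by
  rw [D_sum (F := fun j (x : E n) => c j * x j) i Finset.univ
    fun j _ => smo_diff (contDiff_const.mul (smo_coord j))]
  funext x
  have : ∀ j, D i (fun x : E n => c j * x j) x = c j * if j = i then 1 else 0 := fun j => by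
    rw [D_const_mul i _ (smo_diff (smo_coord j)), D_coord]
  simp [this]

theorem tay_D_qf (P : Mat n) (i : Fin n) :
    D i (fun x : E n => qf P x) = fun x => ∑ j, (P i j + P j i) * x j := by
  have s1 : ∀ a b : Fin n, ContDiff ℝ ∞ fun x : E n => P a b * x a * x b := fun a b =>
    (contDiff_const.mul (smo_coord a)).mul (smo_coord b)
  have e : (fun x : E n => qf P x) = fun x => ∑ a, ∑ b, P a b * x a * x b := rfl
  rw [e, D_sum (F := fun a (x : E n) => ∑ b, P a b * x a * x b) i Finset.univ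
    fun a _ => smo_diff (ContDiff.sum fun b _ => s1 a b)]
  funext x
  have k : ∀ a, D i (fun x : E n => ∑ b, P a b * x a * x b) x =
      ∑ b, (P a b * (if a = i then 1 else 0) * x b + P a b * x a * if b = i then 1 else 0) := by
    intro a
    rw [D_sum (F := fun b (x : E n) => P a b * x a * x b) i Finset.univ
      fun b _ => smo_diff (s1 a b)]
    refine Finset.sum_congr rfl fun b _ => ?_
    rw [D_mul (f := fun x : E n => P a b * x a) (g := fun x : E n => x b) i
      (smo_diff (contDiff_const.mul (smo_coord a))) (smo_diff (smo_coord b)),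
      D_const_mul i _ (smo_diff (smo_coord a)), D_coord, D_coord]
  simp only [k, Finset.sum_add_distrib, add_mul]
  refine congrArg₂ (· + ·) ?_ ?_
  · rw [Finset.sum_comm]
    refine Finset.sum_congr rfl fun b _ => ?_
    simp
  · refine Finset.sum_congr rfl fun a _ => ?_
    simp

theorem abs_D_sub_le {M : ℝ} (hf : ContDiff ℝ ∞ f) (h : ∀ i j x, |D i (D j f) x| ≤ M) (i : Fin n)
    (x : E n) : |D i f x - D i f 0| ≤ n * M * ‖x‖ := by
  simpa using lip_of_D (smo_diff (smo_D i hf)) (fun j y => h j i y) x 0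

theorem abs_lin_le {M : ℝ} (hf : ContDiff ℝ ∞ f) (h : ∀ i j x, |D i (D j f) x| ≤ M) (x : E n) :
    |f x - f 0 - ∑ i, D i f 0 * x i| ≤ n ^ 2 * M * ‖x‖ ^ 2 := by
  have k : ∀ y, |qf (hess f y) x| ≤ n ^ 2 * M * ‖x‖ ^ 2 := fun y =>
    tay_qf_le (fun i j => h i j y) x
  have k0 : 0 ≤ n ^ 2 * M * ‖x‖ ^ 2 := (abs_nonneg _).trans (k 0)
  have h1 := tay_gen hf x _ fun y => (abs_le.1 (k y)).1
  have h2 := tay_gen' hf x _ fun y => (abs_le.1 (k y)).2
  rw [abs_le]
  constructor <;> linarith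

theorem tay_lower {P : Mat n} (hf : ContDiff ℝ ∞ f) (h : ∀ x ξ, qf P ξ ≤ qf (hess f x) ξ)
    (x : E n) : f 0 + ∑ i, D i f 0 * x i + 1 / 2 * qf P x ≤ f x := by
  have := tay_gen hf x _ fun y => h y x
  linarith

theorem tay_upper {P : Mat n} (hf : ContDiff ℝ ∞ f) (h : ∀ x ξ, qf (hess f x) ξ ≤ qf P ξ)
    (x : E n) : f x ≤ f 0 + ∑ i, D i f 0 * x i + 1 / 2 * qf P x := by
  have := tay_gen' hf x _ fun y => h y x
  linarith

/-- monotonicity of the gradient -/
theorem rad_lower {κ : ℝ} (hf : ContDiff ℝ ∞ f) (h : Low κ f) (x : E n) :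
    ∑ i, D i f 0 * x i + κ * ‖x‖ ^ 2 ≤ rad f x := by
  have k1 : ∀ s : ℝ, HasDerivAt
      (fun r : ℝ => ∑ i, x i * D i f (0 + r • x) - κ * ‖x‖ ^ 2 * r)
      (qf (hess f (0 + s • x)) x - κ * ‖x‖ ^ 2) s := fun s => by
    have := (CalcLX.line2 hf 0 x s).sub ((hasDerivAt_id s).const_mul (κ * ‖x‖ ^ 2))
    rw [mul_one] at this
    exact this
  have m1 := monotone_of_hasDerivAt_nonneg k1 (fun s => sub_nonneg.2 (h _ x)) zero_le_one
  simp only [zero_smul, add_zero, one_smul, zero_add, mul_zero, sub_zero, mul_one] at m1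
  have e : ∑ i, D i f 0 * x i = ∑ i, x i * D i f 0 :=
    Finset.sum_congr rfl fun i _ => mul_comm _ _
  rw [e, rad]
  linarith

theorem low_bound {κ : ℝ} (hf : ContDiff ℝ ∞ f) (hκ : 0 < κ) (h : Low κ f) :
    ∃ C : ℝ, ∀ x, κ / 4 * ‖x‖ ^ 2 - C ≤ f x := by
  refine ⟨∑ i, D i f 0 ^ 2 / κ - f 0, fun x => ?_⟩
  have h1 := tay_gen hf x _ fun y => h y x
  have h2 : ∑ i, -(D i f 0 ^ 2 / κ + κ / 4 * x i ^ 2) ≤ ∑ i, D i f 0 * x i := by
    refine Finset.sum_le_sum fun i _ => ?_
    have : 0 ≤ (D i f 0 + κ / 2 * x i) ^ 2 / κ := by positivity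
    have e : (D i f 0 + κ / 2 * x i) ^ 2 / κ =
        D i f 0 ^ 2 / κ + κ / 4 * x i ^ 2 + D i f 0 * x i := by
      field_simp
      ring
    linarith
  rw [Finset.sum_neg_distrib, Finset.sum_add_distrib, ← Finset.mul_sum, ← normsq_eq] at h2
  linarith

theorem coer_of_low {κ : ℝ} (hf : ContDiff ℝ ∞ f) (hκ : 0 < κ) (h : Low κ f) : Coer f :=
  ⟨κ / 4, (low_bound hf hκ h).choose, by positivity, (low_bound hf hκ h).choose_spec⟩

theorem qf_diagonal (p : Fin n → ℝ) (ξ : E n) : qf (Matrix.diagonal p) ξ = dq p ξ := by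
  simp [qf, dq, Matrix.diagonal_apply, sq, mul_assoc]

theorem sm_coord (i : Fin n) : Sm fun x : E n => x i := by
  refine sm_of_D (smo_coord i) fun j => ?_
  rw [D_coord]
  exact binf_const _

theorem sm_inner (l : E n) : Sm fun x : E n => ⟪l, x⟫ := by
  have e : (fun x : E n => ⟪l, x⟫) = fun x => ∑ i, l i * x i := funext fun x => inner_eq_sum l x
  rw [e]
  exact sm_sum (F := fun i (x : E n) => l i * x i) _ fun i _ => (sm_coord i).const_mul _

theorem hess_inner (l x : E n) : hess (fun y : E n => ⟪l, y⟫) x = 0 := by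
  have e : (fun x : E n => ⟪l, x⟫) = fun x => ∑ i, l i * x i := funext fun x => inner_eq_sum l x
  ext i j
  rw [e, hess_apply, tay_D_lin, D_const]
  rfl

theorem sm_qf (P : Mat n) : Sm fun x : E n => qf P x := by
  refine sm_iff.2 ⟨tay_smo_qf P, fun i j => ?_⟩
  rw [tay_D_qf, tay_D_lin]
  exact binf_const _

theorem D_qf {P : Mat n} (hP : P.IsSymm) (i : Fin n) :
    D i (fun x : E n => qf P x) = fun x => 2 * ∑ j, P i j * x j := by
  rw [tay_D_qf]
  funext x
  rw [Finset.mul_sum]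
  refine Finset.sum_congr rfl fun j _ => ?_
  rw [hP.apply i j]
  ring

theorem hess_qf {P : Mat n} (hP : P.IsSymm) (x : E n) :
    hess (fun y : E n => qf P y) x = (2 : ℝ) • P := by
  ext i j
  rw [hess_apply, tay_D_qf, tay_D_lin, Matrix.smul_apply, smul_eq_mul, hP.apply i j]
  ring

end Vale.Agent.P254B
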